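import Crest.Agent.R133.Defs

set_option autoImplicit false

namespace Crest.Agent.R133

open MeasureTheory Set
open scoped ENNReal 

/-- Off a small set the label is locally constant in the charts. For each `i < k` push `ν.restrict {idx = i}` by `φ` to a
finite measure on `E d`, approximate `{u | lab (ψ i u) = true}` and its complement from inside by compact sets
(`MeasurableSet.exists_isCompact_diff_lt`), which are at positive distance. -/
theorem exists_clear {M : Type*} [MeasurableSpace M] {ν : Measure M} [IsProbabilityMeasure ν] {S : M → M}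
    {d : ℕ} (ps : PS ν S d) (lab : M → Bool) (hl : Measurable lab) (ε : ℝ) (hε : 0 < ε) :
    ∃ (Cl : Set M) (ρ₀ : ℝ), MeasurableSet Cl ∧ 0 < ρ₀ ∧ ν Clᶜ ≤ ENNReal.ofReal ε ∧
      ∀ x ∈ Cl, ∀ y ∈ Cl, ps.idx x = ps.idx y → ‖ps.φ x - ps.φ y‖ ≤ ρ₀ → lab x = lab y := by
  let c : M → ℕ × E d := fun x => (ps.idx x, ps.φ x)
  have hc : Measurable c := ps.meas_idx.prodMk ps.meas_φ
  let g : ℕ × E d → Bool := fun p => lab (ps.ψ p.1 p.2)
  have hg : Measurable g := hl.comp (measurable_from_prod_countable_right ps.meas_ψ)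
  have hgc : ∀ x, g (c x) = lab x := fun x => by simp only [g, c, ps.left_inv]
  have hε' : ENNReal.ofReal (ε / 2) ≠ 0 := by simpa using hε
  have hK : ∀ b : Bool, ∃ K ⊆ g ⁻¹' {b}, IsCompact K ∧
      ν.map c (g ⁻¹' {b} \ K) < ENNReal.ofReal (ε / 2) := fun b =>
    (hg (measurableSet_singleton b)).exists_isCompact_sdiff_lt (measure_ne_top _ _) hε'
  choose K hKg hK hKε using hK
  have hdis : Disjoint (K true) (K false) :=
    Set.disjoint_left.2 fun p h₁ h₂ =>
      Bool.noConfusion ((hKg _ h₁ : g p = true).symm.trans (hKg _ h₂))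
  obtain ⟨δ, hδ, hd⟩ := hdis.exists_cthickenings (hK _) (hK _).isClosed
  have hm : MeasurableSet (K true ∪ K false) := (hK _).measurableSet.union (hK _).measurableSet
  refine ⟨c ⁻¹' (K true ∪ K false), δ, hc hm, hδ, ?_, fun x hx y hy hi hxy => ?_⟩
  · rw [← preimage_compl, ← Measure.map_apply hc hm.compl]
    calc _ ≤ ν.map c ((g ⁻¹' {true} \ K true) ∪ (g ⁻¹' {false} \ K false)) := by
          refine measure_mono fun p hp => ?_
          simp only [mem_compl_iff, mem_union, not_or] at hp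
          cases h : g p
          · exact Or.inr ⟨h, hp.2⟩
          · exact Or.inl ⟨h, hp.1⟩
      _ ≤ ENNReal.ofReal (ε / 2) + ENNReal.ofReal (ε / 2) :=
          (measure_union_le _ _).trans (add_le_add (hKε _).le (hKε _).le)
      _ = _ := by rw [← ENNReal.ofReal_add (by positivity) (by positivity), add_halves]
  · have hdist : dist (c x) (c y) ≤ δ := by
      simp only [c, Prod.dist_eq, hi, dist_self, dist_eq_norm]
      exact max_le hδ.le hxy
    rw [← hgc, ← hgc]
    rcases hx with hx | hx <;> rcases hy with hy | hy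
    · exact (hKg _ hx).trans (hKg _ hy).symm
    · exact (Set.disjoint_left.1 hd (Metric.self_subset_cthickening _ hx)
        (Metric.mem_cthickening_of_dist_le _ _ _ _ hy hdist)).elim
    · exact (Set.disjoint_left.1 hd (Metric.mem_cthickening_of_dist_le _ _ _ _ hy hdist)
        (Metric.self_subset_cthickening _ hx)).elim
    · exact (hKg _ hx).trans (hKg _ hy).symm

open Classical in
/-- Markov: few points visit the small set `Clᶜ` often. -/
theorem few_unclear {M : Type*} [MeasurableSpace M] {ν : Measure M} [IsProbabilityMeasure ν] {S : M → M}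
    (hS : MeasurePreserving S ν ν) (Cl : Set M) (hCl : MeasurableSet Cl) (ε : ℝ) (hε : 0 ≤ ε)
    (h : ν Clᶜ ≤ ENNReal.ofReal ε) (n : ℕ) (hn : 1 ≤ n) :
    MeasurableSet {x | n < 200000 * ((Finset.range (2 * n)).filter (fun m => S^[m] x ∉ Cl)).card} ∧
    ν {x | n < 200000 * ((Finset.range (2 * n)).filter (fun m => S^[m] x ∉ Cl)).card}
      ≤ ENNReal.ofReal (400000 * ε) := by
  have hm : ∀ m, MeasurableSet (S^[m] ⁻¹' Clᶜ) := fun m => (hS.iterate m).measurable hCl.compl
  let g : M → ℝ≥0∞ := fun x =>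
    200000 * ∑ m ∈ Finset.range (2 * n), (S^[m] ⁻¹' Clᶜ).indicator 1 x
  have hs : Measurable fun x => ∑ m ∈ Finset.range (2 * n),
      (S^[m] ⁻¹' Clᶜ).indicator (1 : M → ℝ≥0∞) x :=
    Finset.measurable_sum _ fun m _ => measurable_one.indicator (hm m)
  have hg : Measurable g := hs.const_mul _
  have hgx : ∀ x, g x =
      ((200000 * ((Finset.range (2 * n)).filter (fun m => S^[m] x ∉ Cl)).card : ℕ) : ℝ≥0∞) := by
    intro x
    simp [g, Finset.card_filter, Set.indicator_apply]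
  have he : {x | n < 200000 * ((Finset.range (2 * n)).filter (fun m => S^[m] x ∉ Cl)).card} =
      {x | (n : ℝ≥0∞) < g x} := by
    ext x
    simp only [mem_ofPred_eq, hgx, Nat.cast_lt]
  rw [he]
  refine ⟨measurableSet_lt measurable_const hg, ?_⟩
  have hn0 : (n : ℝ≥0∞) ≠ 0 := by simp; omega
  rw [← ENNReal.mul_le_mul_iff_right hn0 (by simp)]
  have hsub : {x | (n : ℝ≥0∞) < g x} ⊆ {x | (n : ℝ≥0∞) ≤ g x} :=
    fun x (hx : (n : ℝ≥0∞) < g x) => (hx.le : (n : ℝ≥0∞) ≤ g x)
  refine ((mul_le_mul_right (measure_mono hsub) _).trans (mul_meas_ge_le_lintegral hg n)).trans ?_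
  rw [lintegral_const_mul _ hs, lintegral_finsetSum _ fun m _ => measurable_one.indicator (hm m)]
  simp only [lintegral_indicator_one (hm _),
    fun m => (hS.iterate m).measure_preimage hCl.compl.nullMeasurableSet, Finset.sum_const,
    Finset.card_range, nsmul_eq_mul]
  calc _ ≤ 200000 * (((2 * n : ℕ) : ℝ≥0∞) * ENNReal.ofReal ε) := by gcongr
    _ = _ := by
      rw [ENNReal.ofReal_mul (by norm_num), ENNReal.ofReal_ofNat]
      push_cast
      ring

/-- Cells of diameter `ρ'`: `cell x = (idx x, k ↦ ⌊φ x k * (d+1) / ρ'⌋)`, at most `C / ρ'^d` of them. -/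
theorem exists_cells {M : Type*} [MeasurableSpace M] {ν : Measure M} {S : M → M}
    {d : ℕ} (ps : PS ν S d) : ∃ C : ℝ, 0 < C ∧ ∀ ρ' : ℝ, 0 < ρ' → ρ' ≤ 1 →
      ∃ (cell : M → ℕ) (K : ℕ), Measurable cell ∧ (∀ x, cell x < K) ∧ (K : ℝ) * ρ' ^ d ≤ C ∧
        ∀ x y, cell x = cell y → ps.idx x = ps.idx y ∧ ‖ps.φ x - ps.φ y‖ ≤ ρ' := by
  classical
  have hΛ := ps.one_le
  refine ⟨(ps.k + 1) * (2 * (ps.Λ * (d + 1)) + 3) ^ d, by positivity, fun ρ' hρ' hρ1 => ?_⟩
  let c : M → ℕ × (Fin d → ℤ) := fun x => (ps.idx x, fun i => ⌊ps.φ x i * (d + 1) / ρ'⌋)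
  have hc : Measurable c := ps.meas_idx.prodMk (measurable_pi_lambda _ fun i =>
    Int.measurable_floor.comp ((((EuclideanSpace.proj i : E d →L[ℝ] ℝ).measurable.comp
      ps.meas_φ).mul_const _).div_const _))
  let L : ℕ := ⌈ps.Λ * (d + 1) / ρ'⌉₊
  let F : Finset (ℕ × (Fin d → ℤ)) :=
    Finset.range ps.k ×ˢ Fintype.piFinset fun _ => Finset.Icc (-(L : ℤ)) L
  have hF : ∀ x, c x ∈ F := fun x => by
    refine Finset.mem_product.2 ⟨Finset.mem_range.2 (ps.idx_lt x), Fintype.mem_piFinset.2 fun i => ?_⟩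
    have h₁ : |ps.φ x i * (d + 1) / ρ'| ≤ L := by
      refine le_trans ?_ (Nat.le_ceil _)
      rw [abs_div, abs_mul, abs_of_pos hρ', abs_of_pos (a := (d : ℝ) + 1) (by positivity)]
      gcongr
      exact (PiLp.norm_apply_le (ps.φ x) i).trans (ps.bdd x)
    rw [abs_le] at h₁
    refine Finset.mem_Icc.2 ⟨Int.le_floor.2 (by push_cast; exact h₁.1), ?_⟩
    exact (Int.floor_mono h₁.2).trans (Int.floor_natCast L).le
  let g : ℕ × (Fin d → ℤ) → ℕ := fun p => if h : p ∈ F then F.equivFin ⟨p, h⟩ else 0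
  refine ⟨g ∘ c, F.card, (measurable_of_countable g).comp hc, fun x => ?_, ?_, fun x y hxy => ?_⟩
  · simp only [Function.comp_apply, g, dif_pos (hF x)]
    exact Fin.is_lt _
  · have h₁ : F.card = ps.k * (2 * L + 1) ^ d := by
      simp only [F, Finset.card_product, Finset.card_range, Fintype.card_piFinset, Int.card_Icc,
        Finset.prod_const, Finset.card_univ, Fintype.card_fin]
      congr 2
      omega
    have h₂ : (L : ℝ) * ρ' ≤ ps.Λ * (d + 1) + ρ' := by
      have := (Nat.ceil_lt_add_one (a := ps.Λ * (d + 1) / ρ') (by positivity)).le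
      calc (L : ℝ) * ρ' ≤ (ps.Λ * (d + 1) / ρ' + 1) * ρ' := by gcongr
        _ = _ := by field_simp
    rw [h₁]
    push_cast
    rw [mul_assoc, ← mul_pow]
    gcongr
    · linarith
    · linarith
  · simp only [Function.comp_apply, g, dif_pos (hF _)] at hxy
    have h₁ : c x = c y := congrArg Subtype.val (F.equivFin.injective (Fin.ext hxy))
    refine ⟨congrArg Prod.fst h₁, ?_⟩
    have h₂ : ∀ i, ‖(ps.φ x - ps.φ y) i‖ ≤ ρ' / (d + 1) := fun i => by
      have := (Int.abs_sub_lt_one_of_floor_eq_floor (congrFun (congrArg Prod.snd h₁) i)).le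
      rw [← sub_div, ← sub_mul, abs_div, abs_mul, abs_of_pos hρ',
        abs_of_pos (a := (d : ℝ) + 1) (by positivity), div_le_one hρ'] at this
      rwa [le_div_iff₀ (by positivity)]
    rw [EuclideanSpace.norm_eq, Real.sqrt_le_iff]
    refine ⟨hρ'.le, ?_⟩
    calc _ ≤ ∑ _i : Fin d, (ρ' / (d + 1)) ^ 2 := Finset.sum_le_sum fun i _ => by
          have := h₂ i
          gcongr
      _ = ρ' ^ 2 * (d / (d + 1) ^ 2) := by simp; field_simp
      _ ≤ ρ' ^ 2 * 1 := by
          gcongr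
          rw [div_le_one (by positivity)]
          nlinarith [(Nat.cast_nonneg d : (0 : ℝ) ≤ d)]
      _ = _ := mul_one _

/-- Points in one cell at time `n` have close derivatives during the previous `t` steps (`back`, by downward
induction `‖φ (S^[n-i] y) - φ (S^[n-i] x)‖ ≤ Λ^i ρ'` with equal indices; then `deriv` at `S^[m] x` and at `S^[m] y`, and
uniqueness of the derivative). -/
theorem close_back {M : Type*} [MeasurableSpace M] {ν : Measure M} {S : M → M}
    {d : ℕ} (ps : PS ν S d) (n t : ℕ) (ht : t ≤ n) (r ρ' : ℝ) (hr : 0 < r) (hr' : r ≤ ps.r₀)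
    (hρ' : 0 ≤ ρ') (hs : ps.Λ ^ (t + 1) * ρ' ≤ r) (x y : M)
    (hx : ∀ m, m ≤ n → S^[m] x ∈ ps.reg r) (hy : ∀ m, m ≤ n → S^[m] y ∈ ps.reg r)
    (hi : ps.idx (S^[n] x) = ps.idx (S^[n] y)) (hd : ‖ps.φ (S^[n] x) - ps.φ (S^[n] y)‖ ≤ ρ') :
    ∀ m, n - t ≤ m → m < n → ‖ps.A (S^[m] y) - ps.A (S^[m] x)‖ ≤ ps.Λ ^ (t + 1) * ρ' := by
  have hΛ := ps.one_le
  have hpow : ∀ i ≤ t + 1, ps.Λ ^ i * ρ' ≤ ps.Λ ^ (t + 1) * ρ' := fun i hi => by gcongr
  have key : ∀ i ≤ t, ps.idx (S^[n - i] y) = ps.idx (S^[n - i] x) ∧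
      ‖ps.φ (S^[n - i] y) - ps.φ (S^[n - i] x)‖ ≤ ps.Λ ^ i * ρ' := by
    intro i
    induction i with
    | zero => intro _; exact ⟨hi.symm, by simpa [norm_sub_rev] using hd⟩
    | succ i ih =>
      intro hit
      obtain ⟨h₁, h₂⟩ := ih (by omega)
      rw [show n - i = n - (i + 1) + 1 by omega, Function.iterate_succ_apply',
        Function.iterate_succ_apply'] at h₁ h₂
      have h₃ : ps.Λ * ‖ps.φ (S (S^[n - (i + 1)] y)) - ps.φ (S (S^[n - (i + 1)] x))‖ ≤
          ps.Λ ^ (i + 1) * ρ' := by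
        rw [pow_succ', mul_assoc]
        gcongr
      obtain ⟨h₄, h₅⟩ := ps.back r hr hr' _ (hx _ (Nat.sub_le _ _)) _ h₁
        (h₃.trans ((hpow _ (by omega)).trans hs))
      exact ⟨h₄, h₅.trans h₃⟩
  intro m hm hmn
  obtain ⟨h₁, h₂⟩ := key (n - m) (by omega)
  rw [show n - (n - m) = m by omega] at h₁ h₂
  obtain ⟨D, hD, hDA⟩ := ps.deriv r hr hr' _ (hx m hmn.le) _
    (h₂.trans ((hpow _ (by omega)).trans hs))
  obtain ⟨D', hD', hDA'⟩ := ps.deriv r hr hr' _ (hy m hmn.le) (ps.φ (S^[m] y)) (by simpa using hr.le)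
  rw [h₁] at hD'
  rw [sub_self, norm_zero, mul_zero, norm_le_zero_iff, sub_eq_zero] at hDA'
  rw [← hDA', hD'.unique hD]
  refine hDA.trans (le_trans ?_ (hpow (n - m + 1) (by omega)))
  rw [pow_succ', mul_assoc]
  gcongr

end Crest.Agent.R133
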