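import Crest.Agent.R133.Defs

set_option autoImplicit false

namespace Crest.Agent.R133

open MeasureTheory Set
open scoped ENNReal 

open Finset in
lemma sum_pow_hamming {ι α : Type*} [Fintype ι] [DecidableEq ι] [Fintype α] [DecidableEq α]
    (c : ι → α) (x : ℝ) :
    ∑ y : ι → α, x ^ hammingDist y c = (1 + (Fintype.card α - 1) * x) ^ Fintype.card ι := by
  have h1 : ∀ y : ι → α, x ^ hammingDist y c = ∏ i, if y i = c i then 1 else x := fun y => by
    rw [prod_ite, prod_const_one, one_mul, prod_const]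
    rfl
  have h2 : ∀ i, (∑ a, if a = c i then 1 else x) = 1 + (Fintype.card α - 1) * x := fun i => by
    rw [← add_sum_erase _ _ (mem_univ (c i)), if_pos rfl,
      sum_congr rfl fun a ha => if_neg (ne_of_mem_erase ha), sum_const,
      card_erase_of_mem (mem_univ _), card_univ, nsmul_eq_mul,
      Nat.cast_pred (Fintype.card_pos_iff.2 ⟨c i⟩)]
  simp only [h1]
  rw [← Fintype.piFinset_univ, ← prod_univ_sum (fun _ => univ) fun i a => if a = c i then 1 else x]
  simp [h2]

open Finset in
/-- Hamming balls are small. -/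
lemma card_ball_le {ι α : Type*} [Fintype ι] [DecidableEq ι] [Fintype α] [DecidableEq α]
    (c : ι → α) {x B : ℝ} (hx : 0 ≤ x) (hB : 0 ≤ B) (S : Finset (ι → α))
    (hS : ∀ y ∈ S, 1 ≤ B * x ^ hammingDist y c) :
    (#S : ℝ) ≤ B * (1 + (Fintype.card α - 1) * x) ^ Fintype.card ι := by
  rw [← sum_pow_hamming c, mul_sum, card_eq_sum_ones, Nat.cast_sum]
  exact (sum_le_sum fun y hy => by simpa using hS y hy).trans
    (sum_le_sum_of_subset_of_nonneg (subset_univ S) fun _ _ _ => by positivity)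

/-- The sign character. -/
noncomputable def sg (x : ZMod 2) : ℝ := if x = 0 then 1 else -1

lemma z2_cases (x : ZMod 2) : x = 0 ∨ x = 1 := by revert x; decide

lemma z2_add : (1 + 1 : ZMod 2) = 0 := rfl

lemma sg_add (x y : ZMod 2) : sg (x + y) = sg x * sg y := by
  rcases z2_cases x with rfl | rfl <;> rcases z2_cases y with rfl | rfl <;> simp [sg, z2_add]

lemma sg_sum {ι : Type*} (s : Finset ι) (f : ι → ZMod 2) : sg (∑ i ∈ s, f i) = ∏ i ∈ s, sg (f i) := by
  classical
  induction s using Finset.induction_on with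
  | empty => simp [sg]
  | insert i s hi ih => rw [Finset.sum_insert hi, Finset.prod_insert hi, sg_add, ih]

lemma abs_sg (x : ZMod 2) : |sg x| = 1 := by unfold sg; split_ifs <;> simp

/-- Gilbert–Varshamov: a binary code of length `L` with `2 ^ (L / 2)` words at relative distance `1/16`.
Proof: a maximal separated set covers; a Hamming ball of radius `< L/16` has at most
`∑_{16 i ≤ L} choose L i ≤ (11/10)^L (5/4)^L ≤ 2^(L/2)` points (`4^i ≤ (11/10)^L`, binomial theorem with `1/4`;
for odd `L` note `card σ * ball ≤ 2^(L/2) * (11/8)^L ≤ 2^L`). -/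
theorem exists_code (L : ℕ) (σ : Type*) [Fintype σ] (hσ : Fintype.card σ ≤ 2 ^ (L / 2)) :
    ∃ enc : σ → ℕ → Bool, ∀ a b, a ≠ b →
      L ≤ 16 * ((Finset.range L).filter (fun i => enc a i ≠ enc b i)).card := by
  classical
  rcases L.eq_zero_or_pos with rfl | hL
  · exact ⟨fun _ _ => false, fun _ _ _ => Nat.zero_le _⟩
  obtain ⟨C, hC, hmax⟩ := Finset.exists_max_image
    (Finset.univ.filter fun C : Finset (Fin L → Bool) =>
      ∀ x ∈ C, ∀ y ∈ C, x ≠ y → L ≤ 16 * hammingDist x y) Finset.card ⟨∅, by simp⟩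
  replace hC := (Finset.mem_filter.1 hC).2
  have hcov : ∀ y, ∃ c ∈ C, 16 * hammingDist y c < L := fun y => by
    by_contra! h
    have hy : y ∉ C := fun hy => by simpa [hL.ne'] using h y hy
    have := hmax (insert y C) (Finset.mem_filter.2 ⟨Finset.mem_univ _, ?_⟩)
    · rw [Finset.card_insert_of_notMem hy] at this
      omega
    simp only [Finset.mem_insert]
    rintro x (rfl | hx) z (rfl | hz) hxz
    exacts [(hxz rfl).elim, h z hz, hammingDist_comm x z ▸ h x hx, hC x hx z hz hxz]
  have h1 : (2 : ℝ) ^ L ≤ C.card * (11 / 8) ^ L := by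
    have h2 : (Finset.univ : Finset (Fin L → Bool)) ⊆
        C.biUnion fun c => Finset.univ.filter fun y => 16 * hammingDist y c < L := fun y _ => by
      simpa using hcov y
    have h3 := (Nat.cast_le (α := ℝ)).2 ((Finset.card_le_card h2).trans Finset.card_biUnion_le)
    rw [Nat.cast_sum] at h3
    refine le_trans (by simp) (h3.trans ?_)
    rw [← nsmul_eq_mul]
    refine Finset.sum_le_card_nsmul _ _ _ fun c _ => (card_ball_le c (x := 1 / 4)
      (B := (11 / 10) ^ L) (by norm_num) (by positivity) _ fun y hy => ?_).trans_eq ?_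
    · rw [one_div, inv_pow, ← div_eq_mul_inv, one_le_div (by positivity)]
      calc (4 : ℝ) ^ hammingDist y c ≤ ((11 / 10) ^ 16) ^ hammingDist y c := by gcongr; norm_num
        _ ≤ _ := by
          rw [← pow_mul]
          exact pow_le_pow_right₀ (by norm_num) (Finset.mem_filter.1 hy).2.le
    · rw [Fintype.card_fin, ← mul_pow]
      norm_num
  have h2 : Fintype.card σ ≤ Fintype.card C := by
    rw [Fintype.card_coe, ← Nat.cast_le (α := ℝ)]
    refine ((Nat.cast_le (α := ℝ)).2 hσ).trans (le_of_mul_le_mul_right (le_trans ?_ h1)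
      (pow_pos (by norm_num : (0 : ℝ) < 11 / 8) L))
    rw [← le_div_iff₀ (by positivity), ← div_pow]
    calc ((2 ^ (L / 2) : ℕ) : ℝ) ≤ ((2 / (11 / 8)) ^ 2) ^ (L / 2) := by
          push_cast; gcongr; norm_num
      _ ≤ _ := by
          rw [← pow_mul]
          exact pow_le_pow_right₀ (by norm_num) (Nat.mul_div_le L 2)
  obtain ⟨f⟩ := Function.Embedding.nonempty_of_card_le h2
  refine ⟨fun a i => if h : i < L then (f a).1 ⟨i, h⟩ else false, fun a b hab => ?_⟩
  refine (hC _ (f a).2 _ (f b).2 fun h => hab (f.injective (Subtype.ext h))).trans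
    (Nat.mul_le_mul_left _ (Finset.card_le_card_of_injOn Fin.val (fun i hi => ?_)
      Fin.val_injective.injOn))
  simpa using hi

/-- Lindsey's lemma for the inner product mod 2 (Cauchy–Schwarz and orthogonality of characters). -/
theorem lindsey {ι : Type*} [Fintype ι] [DecidableEq ι] (a b : (ι → ZMod 2) → ℝ) :
    (∑ u, ∑ v, a u * b v * (if ∑ i, u i * v i = 0 then 1 else -1)) ^ 2
      ≤ 2 ^ Fintype.card ι * (∑ u, a u ^ 2) * (∑ v, b v ^ 2) := by
  have horth : ∀ v v' : ι → ZMod 2, ∑ u : ι → ZMod 2, sg (∑ i, u i * v i) * sg (∑ i, u i * v' i) =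
      if v = v' then 2 ^ Fintype.card ι else 0 := fun v v' => by
    simp only [← sg_add, ← Finset.sum_add_distrib, ← mul_add]
    simp only [sg_sum]
    rw [← Fintype.piFinset_univ,
      ← Finset.prod_univ_sum (fun _ => Finset.univ) fun i x => sg (x * (v i + v' i))]
    have h1 : ∀ x y : ZMod 2, ∑ z, sg (z * (x + y)) = if x = y then 2 else 0 := fun x y => by
      have : ∀ f : ZMod 2 → ℝ, ∑ z, f z = f 0 + f 1 := fun f => Fin.sum_univ_two f
      rw [this]
      rcases z2_cases x with rfl | rfl <;> rcases z2_cases y with rfl | rfl <;>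
        simp [sg, z2_add] <;> norm_num
    simp only [h1]
    split_ifs with h
    · simp [h]
    · obtain ⟨i, hi⟩ := Function.ne_iff.1 h
      exact Finset.prod_eq_zero (Finset.mem_univ i) (if_neg hi)
  have h1 : ∑ u : ι → ZMod 2, (∑ v, b v * sg (∑ i, u i * v i)) ^ 2 =
      2 ^ Fintype.card ι * ∑ v, b v ^ 2 := by
    simp only [sq, Finset.sum_mul_sum]
    rw [Finset.sum_comm, Finset.mul_sum]
    refine Finset.sum_congr rfl fun v _ => ?_
    rw [Finset.sum_comm]
    simp only [mul_mul_mul_comm (b _) (sg _) (b _), ← Finset.mul_sum, horth]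
    simp [mul_comm]
  have h2 := Finset.sum_mul_sq_le_sq_mul_sq Finset.univ a
    fun u => ∑ v, b v * sg (∑ i, u i * v i)
  rw [h1] at h2
  simp only [Finset.mul_sum _ _ (a _), ← mul_assoc] at h2
  exact h2.trans_eq (by ring)

open Finset in
/-- The terms of large degree. -/
lemma term_bound (m N : ℕ) (D : ℝ) (a : (Fin N → Fin m → ZMod 2) → ℝ)
    (b : (Fin N → Fin m → ZMod 2) × (Fin N → ZMod 2) → ℝ)
    (ha0 : ∀ u, 0 ≤ a u) (hb0 : ∀ v, 0 ≤ b v) (ha1 : ∑ u, a u ≤ 1) (hb1 : ∑ v, b v ≤ 1)
    (haD : ∀ u, a u ≤ D * (1 / 2) ^ (m * N)) (hbD : ∀ v, ∑ t, b (v, t) ≤ D * (1 / 2) ^ (m * N))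
    (I : Finset (Fin N)) :
    (∑ u, ∑ v, a u * b v * ∏ k ∈ I, sg (v.2 k + ∑ i, u k i * v.1 k i)) ^ 2 ≤
      D ^ 2 * (1 / 2) ^ (m * #I) := by
  classical
  have hD : 0 ≤ D := nonneg_of_mul_nonneg_left ((ha0 0).trans (haD 0)) (by positivity)
  let mask : (Fin N → Fin m → ZMod 2) → (Fin N × Fin m → ZMod 2) :=
    fun v p => if p.1 ∈ I then v p.1 p.2 else 0
  let b' : (Fin N × Fin m → ZMod 2) → ℝ :=
    fun y => ∑ v with mask v.1 = y, b v * ∏ k ∈ I, sg (v.2 k)
  let b'' : (Fin N × Fin m → ZMod 2) → ℝ := fun y => ∑ v with mask v.1 = y, b v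
  have h1 := lindsey (fun u => a (Function.curry u)) b'
  have h2 : ∑ u, ∑ v, a u * b v * ∏ k ∈ I, sg (v.2 k + ∑ i, u k i * v.1 k i) =
      ∑ u : Fin N × Fin m → ZMod 2, ∑ y, a (Function.curry u) * b' y * sg (∑ p, u p * y p) := by
    rw [← (Equiv.curry (Fin N) (Fin m) (ZMod 2)).sum_comp]
    refine sum_congr rfl fun u _ => ?_
    rw [← sum_fiberwise univ fun v : _ × _ => mask v.1]
    refine sum_congr rfl fun y _ => ?_
    simp only [b', mul_sum, sum_mul]
    refine sum_congr rfl fun v hv => ?_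
    rw [← (mem_filter.1 hv).2, Fintype.sum_prod_type]
    simp only [mask, mul_ite, mul_zero, sum_ite_irrel, sum_const_zero, sum_ite_mem, Finset.univ_inter,
      sg_sum, sg_add, prod_mul_distrib, mul_assoc]
    rfl
  have h3 : ∑ u : Fin N × Fin m → ZMod 2, a (Function.curry u) ^ 2 ≤ D * (1 / 2) ^ (m * N) := by
    erw [(Equiv.curry (Fin N) (Fin m) (ZMod 2)).sum_comp fun u => a u ^ 2]
    calc _ ≤ ∑ u, D * (1 / 2) ^ (m * N) * a u := sum_le_sum fun u _ => by
          rw [sq]; exact mul_le_mul_of_nonneg_right (haD u) (ha0 u)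
      _ ≤ _ := by rw [← mul_sum]; exact mul_le_of_le_one_right (by positivity) ha1
  have h4 : ∀ y, |b' y| ≤ b'' y := fun y => (abs_sum_le_sum_abs _ _).trans_eq
    (sum_congr rfl fun v _ => by simp [abs_mul, abs_prod, abs_sg, abs_of_nonneg (hb0 v)])
  have h5 : ∀ y, b'' y ≤ D * (1 / 2) ^ (m * #I) := fun y => by
    have h6 : #{v | mask v = y} ≤ 2 ^ (m * (N - #I)) := by
      refine (card_le_card (t := Fintype.piFinset fun k => if k ∈ I then {fun i => y (k, i)}
        else univ) fun v hv => Fintype.mem_piFinset.2 fun k => ?_).trans_eq ?_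
      · split_ifs with hk
        · simp [← (mem_filter.1 hv).2, mask, hk]
        · exact mem_univ _
      · rw [Fintype.card_piFinset]
        simp only [apply_ite card, Finset.card_singleton, prod_ite, one_pow, one_mul, prod_const,
          card_univ, Fintype.card_fun, ZMod.card, Fintype.card_fin, ← pow_mul]
        rw [filter_not, filter_mem_eq_inter, Finset.univ_inter, card_univ_sdiff, Fintype.card_fin]
    calc b'' y = ∑ v with mask v = y, ∑ t, b (v, t) := by
          simp only [b'', sum_filter, Fintype.sum_prod_type]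
          exact sum_congr rfl fun v _ => by split_ifs <;> simp
      _ ≤ #{v | mask v = y} • (D * (1 / 2) ^ (m * N)) := sum_le_card_nsmul _ _ _ fun v _ => hbD v
      _ ≤ 2 ^ (m * (N - #I)) * (D * (1 / 2) ^ (m * N)) := by
          rw [nsmul_eq_mul]; gcongr; exact_mod_cast h6
      _ = _ := by
          have : #I ≤ N := by simpa using card_le_univ I
          rw [show m * N = m * #I + m * (N - #I) by rw [← mul_add, Nat.add_sub_cancel' this],
            pow_add, one_div, inv_pow, inv_pow]
          field_simp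
  have h6 : ∑ y, b' y ^ 2 ≤ D * (1 / 2) ^ (m * #I) := by
    calc _ ≤ ∑ y, D * (1 / 2) ^ (m * #I) * b'' y := sum_le_sum fun y _ => by
          rw [← sq_abs, sq]
          exact mul_le_mul ((h4 y).trans (h5 y)) (h4 y) (abs_nonneg _) (by positivity)
      _ ≤ _ := by
          rw [← mul_sum]
          refine mul_le_of_le_one_right (by positivity) ?_
          simp only [b'']
          rwa [sum_fiberwise univ fun v : _ × _ => mask v.1]
  rw [h2]
  refine h1.trans ((mul_le_mul (mul_le_mul_of_nonneg_left h3 (by positivity)) h6 (by positivity)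
    (by positivity)).trans_eq ?_)
  rw [Fintype.card_prod, Fintype.card_fin, Fintype.card_fin, mul_comm N, one_div, inv_pow]
  field_simp

/-- Product measures with bounded density rarely satisfy most inner-product constraints.
Proof: with `χ k = ±1` (`+1` iff the constraint `k` holds), the indicator is at most
`((2/3) * (112/100))^N * ∏ k, (1 + χ k / 2)` (at most `N/10` factors are `1/2`, `3^v ≤ (112/100)^N` if `10 v ≤ N`).
Expand the product over `I ⊆ Fin N`. If `20 * I.card < N` bound the term by `(1/2)^I.card * ∑ a * ∑ b`, and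
`∑_{20 |I| < N} (1/2)^|I| ≤ (109/100)^N (11/10)^N`. Otherwise push `a` and `b * (sign of the tags in I)` to
`(I × Fin m → ZMod 2)`; both have sup norm `≤ D (1/2)^(m |I|)` and mass `≤ 1`, so `lindsey` gives
`D * sqrt ((1/2)^(m |I|)) ≤ D (1/2)^(m * N / 40)`. -/
theorem product_bound (m N : ℕ) (D : ℝ) (a : (Fin N → Fin m → ZMod 2) → ℝ)
    (b : (Fin N → Fin m → ZMod 2) × (Fin N → ZMod 2) → ℝ)
    (ha0 : ∀ u, 0 ≤ a u) (hb0 : ∀ v, 0 ≤ b v) (ha1 : ∑ u, a u ≤ 1) (hb1 : ∑ v, b v ≤ 1)
    (haD : ∀ u, a u ≤ D * (1 / 2) ^ (m * N)) (hbD : ∀ v, ∑ t, b (v, t) ≤ D * (1 / 2) ^ (m * N)) :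
    ∑ u, ∑ v, (if 10 * (Finset.univ.filter (fun k => v.2 k ≠ ∑ i, u k i * v.1 k i)).card ≤ N
        then a u * b v else 0)
      ≤ (9 / 10) ^ N * (∑ u, a u) * (∑ v, b v) + 2 ^ N * D * (1 / 2) ^ (m * N / 40) := by
  have hD : 0 ≤ D := nonneg_of_mul_nonneg_left ((ha0 0).trans (haD 0)) (by positivity)
  have hA : 0 ≤ ∑ u, a u := Finset.sum_nonneg fun u _ => ha0 u
  have hB : 0 ≤ ∑ v, b v := Finset.sum_nonneg fun v _ => hb0 v
  have h1 : ∀ (u : Fin N → Fin m → ZMod 2) (v : (Fin N → Fin m → ZMod 2) × (Fin N → ZMod 2)),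
      (if 10 * (Finset.univ.filter (fun k => v.2 k ≠ ∑ i, u k i * v.1 k i)).card ≤ N
        then a u * b v else 0) ≤ (2 / 3 * (112 / 100)) ^ N * ∑ I : Finset (Fin N),
          (1 / 2) ^ I.card * (a u * b v * ∏ k ∈ I, sg (v.2 k + ∑ i, u k i * v.1 k i)) := by
    intro u v
    have h2 : ∑ I : Finset (Fin N), (1 / 2 : ℝ) ^ I.card *
        (a u * b v * ∏ k ∈ I, sg (v.2 k + ∑ i, u k i * v.1 k i)) =
        a u * b v * ∏ k, if v.2 k ≠ ∑ i, u k i * v.1 k i then 1 / 2 else 3 / 2 := by
      rw [Finset.prod_congr rfl (g := fun k => 1 + 1 / 2 * sg (v.2 k + ∑ i, u k i * v.1 k i))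
        fun k _ => ?_, Finset.prod_one_add, Finset.powerset_univ, Finset.mul_sum]
      · simp only [Finset.prod_mul_distrib, Finset.prod_const, mul_left_comm]
      · generalize v.2 k = x
        generalize ∑ i, u k i * v.1 k i = y
        rcases z2_cases x with rfl | rfl <;> rcases z2_cases y with rfl | rfl <;>
          simp [sg, z2_add] <;> norm_num
    have hab := mul_nonneg (ha0 u) (hb0 v)
    rw [h2, Finset.prod_ite, Finset.prod_const, Finset.prod_const]
    split_ifs with h
    · have h3 := Finset.card_filter_add_card_filter_not (s := Finset.univ)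
        fun k => v.2 k ≠ ∑ i, u k i * v.1 k i
      rw [Finset.card_univ, Fintype.card_fin] at h3
      generalize (Finset.univ.filter (fun k => v.2 k ≠ ∑ i, u k i * v.1 k i)).card = f at *
      generalize (Finset.univ.filter (fun k => ¬ v.2 k ≠ ∑ i, u k i * v.1 k i)).card = g at *
      rw [mul_left_comm]
      refine le_mul_of_one_le_right hab ?_
      have h4 : (3 : ℝ) ^ f ≤ (112 / 100) ^ N :=
        calc (3 : ℝ) ^ f ≤ ((112 / 100) ^ 10) ^ f := by gcongr; norm_num
          _ ≤ _ := by rw [← pow_mul]; exact pow_le_pow_right₀ (by norm_num) h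
      calc (1 : ℝ) = (2 / 3) ^ N * 3 ^ f * ((1 / 2) ^ f * (3 / 2) ^ g) := by
            rw [← h3, pow_add]
            simp only [div_pow, one_pow]
            field_simp
        _ ≤ _ := by rw [mul_pow]; gcongr
    · positivity
  refine (Finset.sum_le_sum fun u _ => Finset.sum_le_sum fun v _ => h1 u v).trans ?_
  simp only [← Finset.mul_sum]
  have h2 : ∀ I : Finset (Fin N), (1 / 2 : ℝ) ^ I.card *
      ∑ u, ∑ v, a u * b v * ∏ k ∈ I, sg (v.2 k + ∑ i, u k i * v.1 k i) ≤
      (1 / 10) ^ I.card * ((109 / 100) ^ N * ((∑ u, a u) * ∑ v, b v)) +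
        (1 / 2) ^ I.card * (D * (1 / 2) ^ (m * N / 40)) := fun I => by
    by_cases h : 20 * I.card ≤ N
    · refine le_add_of_le_of_nonneg ?_ (by positivity)
      rw [← mul_assoc]
      refine mul_le_mul ?_ ?_ ?_ ?_ |>.trans' (mul_le_mul_of_nonneg_left
        (c := (∑ u, a u) * ∑ v, b v) ?_ (by positivity))
      · calc (1 / 2 : ℝ) ^ I.card ≤ (1 / 10 * (109 / 100) ^ 20) ^ I.card := by gcongr; norm_num
          _ ≤ _ := by
            rw [mul_pow, ← pow_mul]
            gcongr
            norm_num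
      · exact le_rfl
      · positivity
      · positivity
      · rw [Finset.sum_mul_sum]
        refine Finset.sum_le_sum fun u _ => Finset.sum_le_sum fun v _ =>
          mul_le_of_le_one_right (mul_nonneg (ha0 u) (hb0 v)) ((le_abs_self _).trans_eq ?_)
        simp [Finset.abs_prod, abs_sg]
    · refine le_add_of_nonneg_of_le (by positivity) (mul_le_mul_of_nonneg_left
        (le_of_sq_le_sq ((term_bound m N D a b ha0 hb0 ha1 hb1 haD hbD I).trans ?_)
          (by positivity)) (by positivity))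
      rw [mul_pow, ← pow_mul]
      refine mul_le_mul_of_nonneg_left (pow_le_pow_of_le_one (by norm_num) (by norm_num) ?_)
        (by positivity)
      have := Nat.mul_le_mul_left m (not_le.1 h).le
      rw [mul_left_comm] at this
      omega
  have h3 : ∀ x : ℝ, ∑ I : Finset (Fin N), x ^ I.card = (1 + x) ^ N := fun x => by
    have := Finset.prod_one_add (f := fun _ : Fin N => x) Finset.univ
    simpa using this.symm
  calc _ = (2 / 3 * (112 / 100) : ℝ) ^ N * ∑ I : Finset (Fin N), (1 / 2 : ℝ) ^ I.card *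
        ∑ u, ∑ v, a u * b v * ∏ k ∈ I, sg (v.2 k + ∑ i, u k i * v.1 k i) := by
        simp only [Finset.mul_sum]
        rw [eq_comm, Finset.sum_comm]
        exact Finset.sum_congr rfl fun u _ => Finset.sum_comm
    _ ≤ _ := mul_le_mul_of_nonneg_left (Finset.sum_le_sum fun I _ => h2 I) (by positivity)
    _ = (2 / 3 * (112 / 100) * ((1 + 1 / 10) * (109 / 100))) ^ N * (∑ u, a u) * (∑ v, b v) +
        (2 / 3 * (112 / 100) * (1 + 1 / 2)) ^ N * D * (1 / 2) ^ (m * N / 40) := by
        rw [Finset.sum_add_distrib, ← Finset.sum_mul, ← Finset.sum_mul, h3, h3]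
        simp only [mul_pow]
        ring
    _ ≤ _ := by gcongr <;> norm_num

end Crest.Agent.R133
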