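import Crest.Agent.R133.Defs
import Crest.Agent.R133.Code
set_option autoImplicit false

namespace Crest.Agent.R133

open MeasureTheory Set
open scoped ENNReal 

open Classical Finset in
/-- The density bound for the decoded push-forward. -/
lemma comb_density {Ω Θ Υ : Type*} [Fintype Ω] [Fintype Θ] [Fintype Υ] {m N n L : ℕ}
    (hL : 0 < L) (hn : n ≤ 2 * N * L) (w : Ω → ℝ) (pw : Ω → Fin n → Bool) (θ : Ω → Θ)
    (U : Ω → Fin N → Fin m → ZMod 2) (Y : Ω → Υ)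
    (hdp : ∀ ω ω', θ ω = θ ω' → L * hammingDist (U ω) (U ω') ≤ 16 * hammingDist (pw ω) (pw ω'))
    (hU : ∀ u, ∑ ω with U ω = u, w ω ≤ (1 / 2) ^ (m * N))
    (hY : ∀ ω ω', θ ω = θ ω' → U ω = U ω' → Y ω = Y ω' → pw ω = pw ω')
    (α : Ω → ℝ) (hα0 : ∀ ω, 0 ≤ α ω) (hα : ∀ ω, α ω ≤ w ω) (τ : Θ) (S : Finset Ω) (z : Ω → Ω)
    (hz : ∀ ω ∈ S, θ (z ω) = τ ∧ 100000 * hammingDist (pw ω) (pw (z ω)) ≤ n)
    (u : Fin N → Fin m → ZMod 2) :
    ∑ ω ∈ S with U (z ω) = u, α ω ≤ Fintype.card Θ * Fintype.card Υ * 2 ^ N *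
      2 ^ (m * (64 * N / 100000)) * (1 / 2) ^ (m * N) := by
  rw [← sum_fiberwise (s := {ω ∈ S | U (z ω) = u}) fun ω => (θ ω, Y (z ω)), mul_assoc, mul_assoc,
    ← Nat.cast_mul, ← Fintype.card_prod, ← nsmul_eq_mul, ← card_univ]
  refine sum_le_card_nsmul _ _ _ fun y _ => ?_
  generalize hF : {ω ∈ {ω ∈ S | U (z ω) = u} | (θ ω, Y (z ω)) = y} = F
  rcases F.eq_empty_or_nonempty with rfl | ⟨ω₀, h0⟩
  · rw [sum_empty]; positivity
  have hd : ∀ ω ∈ F, hammingDist (U ω) (U ω₀) ≤ 64 * N / 100000 := fun ω hω => by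
    simp only [← hF, mem_filter, Prod.ext_iff] at hω h0
    have h1 := hz ω hω.1.1
    have h2 := hz ω₀ h0.1.1
    have h3 := hY _ _ (h1.1.trans h2.1.symm) (hω.1.2.trans h0.1.2.symm) (hω.2.2.trans h0.2.2.symm)
    have h4 := hdp ω ω₀ (hω.2.1.trans h0.2.1.symm)
    have h5 := hammingDist_triangle_right (pw ω) (pw ω₀) (pw (z ω₀))
    rw [h3] at h1
    rw [Nat.le_div_iff_mul_le (by norm_num)]
    refine Nat.le_of_mul_le_mul_left ?_ hL
    nlinarith
  have hb := card_ball_le (U ω₀) (x := 1 / 2 ^ m) (B := 2 ^ (m * (64 * N / 100000)))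
    (by positivity) (by positivity) (F.image U) fun y hy => by
      obtain ⟨ω, hω, rfl⟩ := mem_image.1 hy
      rw [one_div, inv_pow, ← div_eq_mul_inv, one_le_div (by positivity), ← pow_mul]
      exact pow_le_pow_right₀ one_le_two (Nat.mul_le_mul_left m (hd ω hω))
  have hb' : (#(F.image U) : ℝ) ≤ 2 ^ (m * (64 * N / 100000)) * 2 ^ N := by
    refine hb.trans ?_
    simp only [Fintype.card_fun, ZMod.card, Fintype.card_fin, Nat.cast_pow, Nat.cast_ofNat]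
    have h1 : (1 : ℝ) ≤ 2 ^ m := one_le_pow₀ one_le_two
    have : ((2 : ℝ) ^ m - 1) * (1 / 2 ^ m) ≤ 1 := by
      rw [mul_one_div, div_le_one (by positivity)]; linarith
    have : 0 ≤ ((2 : ℝ) ^ m - 1) * (1 / 2 ^ m) := mul_nonneg (by linarith) (by positivity)
    gcongr
    linarith
  calc _ = ∑ u' ∈ F.image U, ∑ ω ∈ F with U ω = u', α ω :=
        (sum_fiberwise_of_maps_to (fun ω hω => mem_image_of_mem U hω) α).symm
    _ ≤ #(F.image U) • ((1 / 2 : ℝ) ^ (m * N)) := sum_le_card_nsmul _ _ _ fun u' _ =>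
        (sum_le_sum fun ω _ => hα ω).trans ((sum_le_sum_of_subset_of_nonneg
          (filter_subset_filter _ (subset_univ F)) fun ω _ _ => (hα0 ω).trans (hα ω)).trans (hU u'))
    _ ≤ _ := by
        rw [nsmul_eq_mul, ← mul_assoc, mul_comm (2 ^ N : ℝ)]
        gcongr

open Classical in
/-- The finite combinatorial core. `ω` = atoms with weights `w`, `pw`/`fw` = past/future words, `θ` = phase,
`U`/`V` = data of the `N` left/right blocks, `t` = tags.
Proof: for a phase `τ` and a word `p`, choose (if possible) `ẑ` with `θ ẑ = τ` and `100000 * d (p, pw ẑ) ≤ n`, and set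
`û τ p = U ẑ`; likewise `(v̂, t̂) τ q = (V ẑ', t ẑ')`. If `z` witnesses the pair `(ω, ω')` and `τ = θ z`, then `û`, `U z`
and `(v̂, t̂)`, `(V z, t z)` differ in at most `64 N / 100000` blocks each, so at most `N / 10` constraints fail.
Push `α`, `β` (restricted to the atoms where the choice exists) forward by `û τ ∘ pw`, `(v̂, t̂) τ ∘ fw` and apply
`product_bound` with `D = card Θ * card Υ * 2^N * 2^(m * (64 * N / 100000))`: for fixed `u`, the word `pw ẑ` takes at most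
`card Υ` values `p₀`; for each `p₀` and each phase `τ'` the atoms of phase `τ'` close to `p₀` have `U` in one Hamming ball
of radius `64 * N / 100000`, which has at most `2^N * 2^(m * radius)` points, each of `w`-mass `≤ (1/2)^(m N)`.
Sum over `τ`; the exponent `4 N + m N / 200 + 64 m N / 100000 - m N / 40 ≤ - m N / 100` as `m ≥ 1000`. -/
theorem comb {Ω Θ Υ : Type*} [Fintype Ω] [Fintype Θ] [Fintype Υ] (m N n L : ℕ)
    (hm : 1000 ≤ m) (hN : 1 ≤ N) (hL : 0 < L) (hn : n ≤ 2 * N * L)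
    (w : Ω → ℝ) (hw1 : ∑ ω, w ω ≤ 1)
    (pw fw : Ω → Fin n → Bool) (θ : Ω → Θ) (U V : Ω → Fin N → Fin m → ZMod 2)
    (t : Ω → Fin N → ZMod 2) (Y Y' : Ω → Υ)
    (ht : ∀ ω k, t ω k = ∑ i, U ω k i * V ω k i)
    (hdp : ∀ ω ω', θ ω = θ ω' → L * hammingDist (U ω) (U ω') ≤ 16 * hammingDist (pw ω) (pw ω'))
    (hdf : ∀ ω ω', θ ω = θ ω' →
      L * hammingDist (fun k => (V ω k, t ω k)) (fun k => (V ω' k, t ω' k))
        ≤ 16 * hammingDist (fw ω) (fw ω'))
    (hU : ∀ u, ∑ ω ∈ Finset.univ.filter (fun ω => U ω = u), w ω ≤ (1 / 2) ^ (m * N))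
    (hV : ∀ v, ∑ ω ∈ Finset.univ.filter (fun ω => V ω = v), w ω ≤ (1 / 2) ^ (m * N))
    (hY : ∀ ω ω', θ ω = θ ω' → U ω = U ω' → Y ω = Y ω' → pw ω = pw ω')
    (hY' : ∀ ω ω', θ ω = θ ω' → V ω = V ω' → Y' ω = Y' ω' → fw ω = fw ω')
    (hΘ : Fintype.card Θ ≤ 2 ^ N) (hΥ : Fintype.card Υ ≤ 2 ^ (m * N / 200))
    (α β : Ω → ℝ) (hα0 : ∀ ω, 0 ≤ α ω) (hβ0 : ∀ ω, 0 ≤ β ω)
    (hα : ∀ ω, α ω ≤ w ω) (hβ : ∀ ω, β ω ≤ w ω) :
    ∑ ω, ∑ ω', (if ∃ z, 100000 * hammingDist (pw ω) (pw z) ≤ n ∧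
        100000 * hammingDist (fw ω') (fw z) ≤ n then α ω * β ω' else 0)
      ≤ Fintype.card Θ * (9 / 10) ^ N * (∑ ω, α ω) * (∑ ω, β ω) + (1 / 2) ^ (m * N / 100) := by
  have hA : 0 ≤ ∑ ω, α ω := Finset.sum_nonneg fun ω _ => hα0 ω
  have hB : 0 ≤ ∑ ω, β ω := Finset.sum_nonneg fun ω _ => hβ0 ω
  have sel : ∀ (pw : Ω → Fin n → Bool) (τ : Θ), ∃ z : Ω → Ω, ∀ ω,
      (∃ z, θ z = τ ∧ 100000 * hammingDist (pw ω) (pw z) ≤ n) →
        θ (z ω) = τ ∧ 100000 * hammingDist (pw ω) (pw (z ω)) ≤ n := fun pw τ => by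
    refine ⟨fun ω => if h : ∃ z, θ z = τ ∧ 100000 * hammingDist (pw ω) (pw z) ≤ n then h.choose
      else ω, fun ω h => ?_⟩
    simpa only [dif_pos h] using h.choose_spec
  choose z₁ hz₁ using sel pw
  choose z₂ hz₂ using sel fw
  set S₁ : Θ → Finset Ω := fun τ =>
    Finset.univ.filter fun ω => ∃ z, θ z = τ ∧ 100000 * hammingDist (pw ω) (pw z) ≤ n with hS₁
  set S₂ : Θ → Finset Ω := fun τ =>
    Finset.univ.filter fun ω => ∃ z, θ z = τ ∧ 100000 * hammingDist (fw ω) (fw z) ≤ n with hS₂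
  set D : ℝ := Fintype.card Θ * Fintype.card Υ * 2 ^ N * 2 ^ (m * (64 * N / 100000)) with hD
  set G : (Fin N → Fin m → ZMod 2) → (Fin N → Fin m → ZMod 2) × (Fin N → ZMod 2) → Prop :=
    fun u v => 10 * (Finset.univ.filter (fun k => v.2 k ≠ ∑ i, u k i * v.1 k i)).card ≤ N with hG
  have h1 : ∀ τ, ∑ ω ∈ S₁ τ, ∑ ω' ∈ S₂ τ, (if G (U (z₁ τ ω)) (V (z₂ τ ω'), t (z₂ τ ω')) then
      α ω * β ω' else 0) ≤ (9 / 10) ^ N * (∑ ω, α ω) * (∑ ω, β ω) +
        2 ^ N * D * (1 / 2) ^ (m * N / 40) := fun τ => by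
    have ha : ∑ u, ∑ ω ∈ S₁ τ with U (z₁ τ ω) = u, α ω ≤ ∑ ω, α ω := by
      rw [Finset.sum_fiberwise]
      exact Finset.sum_le_sum_of_subset_of_nonneg (Finset.subset_univ _) fun ω _ _ => hα0 ω
    have hb : ∑ v, ∑ ω ∈ S₂ τ with (V (z₂ τ ω), t (z₂ τ ω)) = v, β ω ≤ ∑ ω, β ω := by
      rw [Finset.sum_fiberwise]
      exact Finset.sum_le_sum_of_subset_of_nonneg (Finset.subset_univ _) fun ω _ _ => hβ0 ω
    have hdf' : ∀ ω ω', θ ω = θ ω' →
        L * hammingDist (V ω) (V ω') ≤ 16 * hammingDist (fw ω) (fw ω') := fun ω ω' h =>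
      le_trans (Nat.mul_le_mul_left L (Finset.card_le_card fun k hk => by
        simp only [Finset.mem_filter, Finset.mem_univ, true_and, ne_eq, Prod.mk.injEq] at hk ⊢
        exact fun h => hk h.1)) (hdf ω ω' h)
    have := product_bound m N D (fun u => ∑ ω ∈ S₁ τ with U (z₁ τ ω) = u, α ω)
      (fun v => ∑ ω ∈ S₂ τ with (V (z₂ τ ω), t (z₂ τ ω)) = v, β ω)
      (fun u => Finset.sum_nonneg fun ω _ => hα0 ω) (fun u => Finset.sum_nonneg fun ω _ => hβ0 ω)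
      (ha.trans ((Finset.sum_le_sum fun ω _ => hα ω).trans hw1))
      (hb.trans ((Finset.sum_le_sum fun ω _ => hβ ω).trans hw1))
      (comb_density hL hn w pw θ U Y hdp hU hY α hα0 hα τ (S₁ τ) (z₁ τ)
        fun ω hω => hz₁ τ ω (Finset.mem_filter.1 hω).2)
      fun v => by
        refine le_of_eq_of_le ?_ (comb_density hL hn w fw θ V Y' hdf' hV hY' β hβ0 hβ τ (S₂ τ)
          (z₂ τ) (fun ω hω => hz₂ τ ω (Finset.mem_filter.1 hω).2) v)
        rw [← Finset.sum_fiberwise (s := {ω ∈ S₂ τ | V (z₂ τ ω) = v}) fun ω => t (z₂ τ ω)]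
        simp only [Finset.filter_filter, Prod.mk.injEq]
    refine le_trans (le_of_eq ?_) (this.trans (add_le_add_left (mul_le_mul
      (mul_le_mul_of_nonneg_left ha (by positivity)) hb
      (Finset.sum_nonneg fun _ _ => Finset.sum_nonneg fun ω _ => hβ0 ω) (by positivity)) _))
    rw [← Finset.sum_fiberwise (S₁ τ) fun ω => U (z₁ τ ω)]
    refine Finset.sum_congr rfl fun u _ => ?_
    rw [Finset.sum_comm, ← Finset.sum_fiberwise (S₂ τ) fun ω => (V (z₂ τ ω), t (z₂ τ ω))]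
    refine Finset.sum_congr rfl fun v _ => ?_
    rw [Finset.sum_comm, Finset.sum_mul_sum]
    rw [Finset.sum_congr rfl fun ω hω => Finset.sum_congr rfl fun ω' hω' => by
      rw [(Finset.mem_filter.1 hω).2, (Finset.mem_filter.1 hω').2]]
    simp only [hG]
    split_ifs <;> simp
  have h2 : ∀ ω ω', (if ∃ z, 100000 * hammingDist (pw ω) (pw z) ≤ n ∧
      100000 * hammingDist (fw ω') (fw z) ≤ n then α ω * β ω' else 0) ≤
      ∑ τ, if ω ∈ S₁ τ ∧ ω' ∈ S₂ τ then (if G (U (z₁ τ ω)) (V (z₂ τ ω'), t (z₂ τ ω')) then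
        α ω * β ω' else 0) else 0 := fun ω ω' => by
    have h0 : ∀ τ, 0 ≤ if ω ∈ S₁ τ ∧ ω' ∈ S₂ τ then
        (if G (U (z₁ τ ω)) (V (z₂ τ ω'), t (z₂ τ ω')) then α ω * β ω' else 0) else 0 := fun τ => by
      have := mul_nonneg (hα0 ω) (hβ0 ω')
      split_ifs <;> simp [this]
    split_ifs with h
    swap
    · exact Finset.sum_nonneg fun τ _ => h0 τ
    obtain ⟨z, h3, h4⟩ := h
    refine le_trans (le_of_eq ?_) (Finset.single_le_sum (fun τ _ => h0 τ) (Finset.mem_univ (θ z)))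
    obtain ⟨h5, h6⟩ := hz₁ (θ z) ω ⟨z, rfl, h3⟩
    obtain ⟨h7, h8⟩ := hz₂ (θ z) ω' ⟨z, rfl, h4⟩
    rw [if_pos ⟨Finset.mem_filter.2 ⟨Finset.mem_univ _, z, rfl, h3⟩,
      Finset.mem_filter.2 ⟨Finset.mem_univ _, z, rfl, h4⟩⟩, if_pos]
    have h9 := hdp _ _ h5
    have h10 := hdf _ _ h7
    have h11 := hammingDist_triangle_left (pw (z₁ (θ z) ω)) (pw z) (pw ω)
    have h12 := hammingDist_triangle_left (fw (z₂ (θ z) ω')) (fw z) (fw ω')
    generalize z₁ (θ z) ω = x at *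
    generalize z₂ (θ z) ω' = y at *
    have h13 : (Finset.univ.filter (fun k => t y k ≠ ∑ i, U x k i * V y k i)).card ≤
        hammingDist (U x) (U z) +
          hammingDist (fun k => (V y k, t y k)) (fun k => (V z k, t z k)) := by
      refine le_trans (Finset.card_le_card fun k hk => ?_) (Finset.card_union_le _ _)
      simp only [Finset.mem_filter, Finset.mem_univ, true_and, Finset.mem_union, ne_eq,
        Prod.mk.injEq] at hk ⊢
      by_contra! hc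
      exact hk (by rw [hc.1, hc.2.1, hc.2.2, ht])
    refine Nat.le_of_mul_le_mul_left ?_ hL
    have := Nat.mul_le_mul_left L h13
    simp only
    nlinarith
  refine (Finset.sum_le_sum fun ω _ => Finset.sum_le_sum fun ω' _ => h2 ω ω').trans ?_
  have h3 : (Fintype.card Θ : ℝ) * (2 ^ N * D * (1 / 2) ^ (m * N / 40)) ≤
      (1 / 2) ^ (m * N / 100) := by
    have h4 : (Fintype.card Θ : ℝ) ≤ 2 ^ N := by exact_mod_cast hΘ
    have h5 : (Fintype.card Υ : ℝ) ≤ 2 ^ (m * N / 200) := by exact_mod_cast hΥ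
    calc _ ≤ (2 : ℝ) ^ N * (2 ^ N * (2 ^ N * 2 ^ (m * N / 200) * 2 ^ N *
          2 ^ (m * (64 * N / 100000))) * (1 / 2) ^ (m * N / 40)) := by rw [hD]; gcongr
      _ ≤ _ := by
        simp only [one_div, inv_pow, ← mul_assoc, ← pow_add]
        rw [mul_inv_le_iff₀ (by positivity), le_inv_mul_iff₀ (by positivity), ← pow_add]
        refine pow_le_pow_right₀ one_le_two ?_
        have h6 := Nat.mul_le_mul_right N hm
        have h7 := Nat.mul_le_mul_left m (Nat.mul_div_le (64 * N) 100000)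
        rw [mul_left_comm, mul_left_comm m 64] at h7
        omega
  calc _ = ∑ τ, ∑ ω ∈ S₁ τ, ∑ ω' ∈ S₂ τ, (if G (U (z₁ τ ω)) (V (z₂ τ ω'), t (z₂ τ ω')) then
        α ω * β ω' else 0) := by
        rw [Finset.sum_congr rfl fun ω _ => Finset.sum_comm, Finset.sum_comm]
        refine Finset.sum_congr rfl fun τ _ => ?_
        simp only [ite_and, Finset.sum_ite_irrel, Finset.sum_const_zero, Finset.sum_ite_mem,
          Finset.univ_inter]
    _ ≤ _ := Finset.sum_le_card_nsmul _ _ _ fun τ _ => h1 τ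
    _ ≤ _ := by
        rw [Finset.card_univ, nsmul_eq_mul, mul_add, ← mul_assoc, ← mul_assoc]
        gcongr

end Crest.Agent.R133
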