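import Crest.Agent.R133.Pair
import Crest.Agent.R133.Clear

set_option autoImplicit false

namespace Crest.Agent.R133

open MeasureTheory Set
open scoped ENNReal

theorem measurable_word {M : Type*} [MeasurableSpace M] {S : M → M} (hS : Measurable S)
    {lab : M → Bool} (hl : Measurable lab) (a n : ℕ) : Measurable (word S lab a n) := by
  refine measurable_pi_lambda _ fun i => ?_
  exact hl.comp (hS.iterate _)

open Classical in
theorem ham_le {M : Type*} {S : M → M} (lab : M → Bool) (Cl : Set M) (a n : ℕ) (ha : a + n ≤ 2 * n)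
    (x z : M) (h : ∀ i < n, S^[a + i] x ∈ Cl → S^[a + i] z ∈ Cl → lab (S^[a + i] x) = lab (S^[a + i] z)) :
    hammingDist (word S lab a n x) (word S lab a n z) ≤
      ((Finset.range (2 * n)).filter (fun m => S^[m] x ∉ Cl)).card +
      ((Finset.range (2 * n)).filter (fun m => S^[m] z ∉ Cl)).card := by
  refine le_trans ?_ (Finset.card_union_le _ _)
  unfold hammingDist
  refine Finset.card_le_card_of_injOn (fun i => a + (i : ℕ)) ?_ ?_
  · intro i hi
    simp only [Finset.coe_filter, Finset.mem_univ, true_and, Set.mem_setOf_eq, word] at hi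
    have hi2 := i.2
    simp only [Finset.coe_union, Finset.coe_filter, Finset.mem_range, Set.mem_union, Set.mem_setOf_eq]
    by_contra hc
    push Not at hc
    exact hi (h i i.2 (hc.1 (by omega)) (hc.2 (by omega)))
  · intro i _ j _ hij
    exact Fin.ext (by simpa using hij)

/-- The counting contradiction, with all parameters explicit. -/
theorem core {M : Type*} [MeasurableSpace M] {ν : Measure M} [IsProbabilityMeasure ν] {S : M → M}
    {d : ℕ} (ps : PS ν S d) (hS : MeasurePreserving S ν ν) (lab : M → Bool) (hl : Measurable lab)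
    (n : ℕ) (hn : 1 ≤ n) (ε γ ε₁ ρ ρ' ρ₀ R : ℝ) (hε0 : 0 ≤ ε) (hε : ε ≤ 1 / 2) (hε₁ : 0 ≤ ε₁)
    (H : HardAt ν S lab n ε γ)
    (Cl : Set M) (hCl : MeasurableSet Cl) (hCl' : ν Clᶜ ≤ ENNReal.ofReal ε₁)
    (hclear : ∀ x ∈ Cl, ∀ y ∈ Cl, ps.idx x = ps.idx y → ‖ps.φ x - ps.φ y‖ ≤ ρ₀ → lab x = lab y)
    (hρ : 0 < ρ) (hρ' : 0 < ρ') (hρ₀ : ρ ≤ ρ₀) (hr : 2 * ρ ≤ ps.r₀)
    (hs : 4 * (R * (2 * ps.Λ * ρ)) * (d * ((2 * n : ℕ) + 1) + 1) ≤ 1) (hs' : 8 * (R * (2 * ρ')) ≤ ρ)
    (cell : M → ℕ) (K : ℕ) (hcm : Measurable cell) (hcK : ∀ x, cell x < K)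
    (hcell : ∀ x y, cell x = cell y → ps.idx x = ps.idx y ∧ ‖ps.φ x - ps.φ y‖ ≤ ρ')
    (Gd : Set M) (hGd : MeasurableSet Gd) (hGd' : ν Gdᶜ ≤ ENNReal.ofReal (1 / 4))
    (hreg : ∀ x ∈ Gd, ∀ m, m ≤ 2 * n → S^[m] x ∈ ps.reg (2 * ρ))
    (hG : ∀ x ∈ Gd, ∀ y ∈ Gd, ps.idx (S^[n] x) = ps.idx (S^[n] y) →
      ‖ps.φ (S^[n] x) - ps.φ (S^[n] y)‖ ≤ ρ' →
      Green (hyb n (fun m => ps.A (S^[m] x)) (fun m => ps.A (S^[m] y))) (2 * n) R)
    (hb : ε + 400000 * ε₁ ≤ 1 / 4)
    (h1 : K * (ps.Λ ^ 3 * (4 * 8 ^ d) * ρ' ^ d * (volume (Metric.closedBall (0 : E d) 1)).toReal *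
      (ε + 400000 * ε₁)) ≤ 1 / 32)
    (h2 : (K : ℝ) ^ 2 * Real.exp (-(γ * n)) ≤ 1 / 32) : False := by
  classical
  obtain ⟨Ev, C, hEv, hEv', hC, hH⟩ := H
  set Many : Set M :=
    {x | n < 200000 * ((Finset.range (2 * n)).filter (fun m => S^[m] x ∉ Cl)).card} with hMany
  obtain ⟨hMm, hM'⟩ := few_unclear hS Cl hCl ε₁ hε₁ hCl' n hn
  rw [← hMany] at hMm hM'
  set Bad : Set M := Evᶜ ∪ Many with hBad
  have hBm : MeasurableSet Bad := hEv.compl.union hMm
  have hB' : ν Bad ≤ ENNReal.ofReal (ε + 400000 * ε₁) := by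
    refine (measure_union_le _ _).trans ?_
    rw [ENNReal.ofReal_add hε0 (by positivity)]
    exact add_le_add hEv' hM'
  set G : Set M := Gd ∩ Badᶜ with hGdef
  have hGm : MeasurableSet G := hGd.inter hBm.compl
  have hGE : G ⊆ Ev := by
    intro x hx
    by_contra hc
    exact hx.2 (Or.inl hc)
  have hGbig : 1 / 2 ≤ (ν G).toReal := by
    have h3 : ν Gᶜ ≤ ENNReal.ofReal (1 / 2) := by
      rw [hGdef, compl_inter, compl_compl]
      refine (measure_union_le _ _).trans ((add_le_add hGd' hB').trans ?_)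
      rw [← ENNReal.ofReal_add (by norm_num) (by positivity)]
      exact ENNReal.ofReal_le_ofReal (by linarith)
    have h4 : (ν Gᶜ).toReal ≤ 1 / 2 := ENNReal.toReal_le_of_le_ofReal (by norm_num) h3
    have h5 : (ν G).toReal + (ν Gᶜ).toReal = 1 := by
      rw [← ENNReal.toReal_add (measure_ne_top _ _) (measure_ne_top _ _),
        measure_add_measure_compl hGm, measure_univ, ENNReal.toReal_one]
    linarith
  set Gc : ℕ → Set M := fun c => G ∩ {x | cell (S^[n] x) = c} with hGc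
  have hcn : Measurable fun x => cell (S^[n] x) := hcm.comp (hS.measurable.iterate n)
  have hGcm : ∀ c, MeasurableSet (Gc c) := fun c =>
    hGm.inter (hcn (measurableSet_singleton c))
  have hpw := measurable_word hS.measurable hl 0 n
  have hfw := measurable_word hS.measurable hl n n
  set D : Set (M × M) := {p | (word S lab 0 n p.1, word S lab n n p.2) ∈ C} with hD
  have hDm : MeasurableSet D := by
    have : Measurable fun p : M × M => (word S lab 0 n p.1, word S lab n n p.2) :=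
      (hpw.comp measurable_fst).prodMk (hfw.comp measurable_snd)
    exact this (C.finite_toSet.measurableSet)
  set Uc : ℕ → Set (M × M) := fun c => (Gc c ×ˢ Gc c) \ D with hUc
  have hUcm : ∀ c, MeasurableSet (Uc c) := fun c => ((hGcm c).prod (hGcm c)).diff hDm
  set U : Set (M × M) := ⋃ c ∈ Finset.range K, Uc c with hU
  have hUm : MeasurableSet U := Finset.measurableSet_biUnion _ fun c _ => hUcm c
  have hUsum : (ν.prod ν) U = ∑ c ∈ Finset.range K, (ν.prod ν) (Uc c) := by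
    refine measure_biUnion_finset ?_ fun c _ => hUcm c
    intro c _ c' _ hcc
    refine Set.disjoint_left.2 fun p hp hp' => hcc ?_
    exact (hp.1.1.2 : cell _ = c).symm.trans hp'.1.1.2
  have hUprop : ∀ p ∈ U, p.1 ∈ G ∧ p.2 ∈ G ∧ cell (S^[n] p.1) = cell (S^[n] p.2) ∧ p ∉ D := by
    intro p hp
    simp only [hU, Set.mem_iUnion] at hp
    obtain ⟨c, -, hp⟩ := hp
    exact ⟨hp.1.1.1, hp.1.2.1, (hp.1.1.2 : cell _ = c).trans (hp.1.2.2 : cell _ = c).symm, hp.2⟩
  have hUb := pair_bound ps hS n hn ρ ρ' R hρ hρ' hr hs hs' U hUm Bad hBm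
    (fun p hp m hm => ⟨hreg _ (hUprop p hp).1.1 m hm, hreg _ (hUprop p hp).2.1.1 m hm⟩)
    (fun p hp => hcell _ _ (hUprop p hp).2.2.1)
    (fun p hp => hG _ (hUprop p hp).1.1 _ (hUprop p hp).2.1.1 (hcell _ _ (hUprop p hp).2.2.1).1
      (hcell _ _ (hUprop p hp).2.2.1).2)
    (by
      intro p hp z hz
      by_contra hzB
      obtain ⟨hp1, hp2, -, hpD⟩ := hUprop p hp
      have hzE : z ∈ Ev := by
        by_contra hc
        exact hzB (Or.inl hc)
      have hzM : ¬ z ∈ Many := fun hc => hzB (Or.inr hc)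
      have h1M : ¬ p.1 ∈ Many := fun hc => hp1.2 (Or.inr hc)
      have h2M : ¬ p.2 ∈ Many := fun hc => hp2.2 (Or.inr hc)
      simp only [hMany, Set.mem_setOf_eq, not_lt] at hzM h1M h2M
      apply hpD
      refine hC z hzE _ _ ?_ ?_
      · have := ham_le (S := S) lab Cl 0 n (by omega) p.1 z (by
          intro i hi hx hz'
          have h3 := hz (0 + i) (by omega)
          rw [if_pos (by omega)] at h3
          exact (hclear _ hz' _ hx h3.1 (h3.2.trans hρ₀)).symm)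
        omega
      · have := ham_le (S := S) lab Cl n n (by omega) p.2 z (by
          intro i hi hx hz'
          have h3 := hz (n + i) (by omega)
          rw [if_neg (by omega)] at h3
          exact (hclear _ hz' _ hx h3.1 (h3.2.trans hρ₀)).symm)
        omega)
  -- one cell
  have hone : ∀ c, (ν (Gc c)).toReal ^ 2 ≤ ε * (ν (Gc c)).toReal ^ 2 + Real.exp (-(γ * n)) +
      ((ν.prod ν) (Uc c)).toReal := by
    intro c
    have h3 : (ν.prod ν) (Gc c ×ˢ Gc c ∩ D) ≤ ∑ c' ∈ C,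
        ν (Gc c ∩ word S lab 0 n ⁻¹' {c'.1}) * ν (Gc c ∩ word S lab n n ⁻¹' {c'.2}) := by
      have hsub : Gc c ×ˢ Gc c ∩ D ⊆ ⋃ c' ∈ C,
          (Gc c ∩ word S lab 0 n ⁻¹' {c'.1}) ×ˢ (Gc c ∩ word S lab n n ⁻¹' {c'.2}) := by
        intro p hp
        simp only [Set.mem_iUnion]
        exact ⟨_, hp.2, ⟨hp.1.1, rfl⟩, ⟨hp.1.2, rfl⟩⟩
      refine (measure_mono hsub).trans ((measure_biUnion_finset_le _ _).trans (le_of_eq ?_))
      exact Finset.sum_congr rfl fun c' _ => Measure.prod_prod _ _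
    have h4 := h3.trans (hH _ _ (hGcm c) (hGcm c) (fun x hx => hGE hx.1) (fun x hx => hGE hx.1))
    have h5 : ν (Gc c) * ν (Gc c) ≤ (ENNReal.ofReal ε * ν (Gc c) * ν (Gc c) +
        ENNReal.ofReal (Real.exp (-(γ * n)))) + (ν.prod ν) (Uc c) := by
      rw [← Measure.prod_prod, ← measure_inter_add_diff (Gc c ×ˢ Gc c) hDm]
      exact add_le_add h4 le_rfl
    have hf : ν (Gc c) ≠ ⊤ := measure_ne_top _ _
    have h6 := ENNReal.toReal_mono (by
      refine ENNReal.add_ne_top.2 ⟨ENNReal.add_ne_top.2 ⟨?_, ENNReal.ofReal_ne_top⟩, measure_ne_top _ _⟩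
      exact ENNReal.mul_ne_top (ENNReal.mul_ne_top ENNReal.ofReal_ne_top hf) hf) h5
    rw [ENNReal.toReal_add (ENNReal.add_ne_top.2 ⟨ENNReal.mul_ne_top
        (ENNReal.mul_ne_top ENNReal.ofReal_ne_top hf) hf, ENNReal.ofReal_ne_top⟩) (measure_ne_top _ _),
      ENNReal.toReal_add (ENNReal.mul_ne_top (ENNReal.mul_ne_top ENNReal.ofReal_ne_top hf) hf)
        ENNReal.ofReal_ne_top, ENNReal.toReal_mul, ENNReal.toReal_mul, ENNReal.toReal_mul,
      ENNReal.toReal_ofReal hε0, ENNReal.toReal_ofReal (Real.exp_pos _).le] at h6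
    nlinarith
  have hsumG : ∑ c ∈ Finset.range K, (ν (Gc c)).toReal = (ν G).toReal := by
    rw [← ENNReal.toReal_sum (fun c _ => measure_ne_top _ _), ← measure_biUnion_finset]
    · congr 2
      ext x
      simp only [Set.mem_iUnion, Finset.mem_range, hGc, Set.mem_inter_iff, Set.mem_setOf_eq]
      exact ⟨fun ⟨c, _, h, _⟩ => h, fun h => ⟨_, hcK _, h, rfl⟩⟩
    · intro c _ c' _ hcc
      refine Set.disjoint_left.2 fun p hp hp' => hcc ?_
      exact (hp.2 : cell _ = c).symm.trans hp'.2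
    · exact fun c _ => hGcm c
  have hcs : (∑ c ∈ Finset.range K, (ν (Gc c)).toReal) ^ 2 ≤
      K * ∑ c ∈ Finset.range K, (ν (Gc c)).toReal ^ 2 := by
    have := sq_sum_le_card_mul_sum_sq (s := Finset.range K) (f := fun c => (ν (Gc c)).toReal)
    simpa using this
  have hUr : ∑ c ∈ Finset.range K, ((ν.prod ν) (Uc c)).toReal ≤
      ps.Λ ^ 3 * (4 * 8 ^ d) * ρ' ^ d * (volume (Metric.closedBall (0 : E d) 1)).toReal *
        (ε + 400000 * ε₁) := by
    rw [← ENNReal.toReal_sum (fun c _ => measure_ne_top _ _), ← hUsum]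
    have hΛ := ps.one_le
    have hv : volume (Metric.closedBall (0 : E d) 1) ≠ ⊤ := measure_closedBall_lt_top.ne
    have h3 : (ν.prod ν) U ≤ ENNReal.ofReal (ps.Λ ^ 3 * (4 * 8 ^ d) * ρ' ^ d) *
        volume (Metric.closedBall (0 : E d) 1) * ENNReal.ofReal (ε + 400000 * ε₁) :=
      hUb.trans (by gcongr)
    have h4 := ENNReal.toReal_mono (ENNReal.mul_ne_top (ENNReal.mul_ne_top ENNReal.ofReal_ne_top hv)
      ENNReal.ofReal_ne_top) h3
    rwa [ENNReal.toReal_mul, ENNReal.toReal_mul, ENNReal.toReal_ofReal (by positivity),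
      ENNReal.toReal_ofReal (by positivity)] at h4
  have hsum := Finset.sum_le_sum fun c (_ : c ∈ Finset.range K) => hone c
  rw [Finset.sum_add_distrib, Finset.sum_add_distrib, ← Finset.mul_sum, Finset.sum_const,
    Finset.card_range, nsmul_eq_mul] at hsum
  set Q := ∑ c ∈ Finset.range K, (ν (Gc c)).toReal ^ 2 with hQ
  set V := ∑ c ∈ Finset.range K, ((ν.prod ν) (Uc c)).toReal with hV
  have hQ0 : 0 ≤ Q := Finset.sum_nonneg fun c _ => sq_nonneg _
  have hK0 : (0 : ℝ) ≤ K := Nat.cast_nonneg K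
  rw [hsumG] at hcs
  have h7 : (1 : ℝ) / 4 ≤ K * Q := by nlinarith
  have h8 : Q / 2 ≤ K * Real.exp (-(γ * n)) + V := by nlinarith
  have h9 : (K : ℝ) * V ≤ 1 / 32 := (mul_le_mul_of_nonneg_left hUr hK0).trans h1
  have h10 := mul_le_mul_of_nonneg_left h8 hK0
  nlinarith

end Crest.Agent.R133
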