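import Mathlib
import Crest.Prelude.Def_SmoothModel

/-!
# Row 133 (S0182): a zero-entropy ergodic system with no smooth model — definitions

Plan of the proof.
* `Hard ν S lab`: along very many doubling scales `n = 2^s ℓ` the pair (past `n`-name, future `n`-name)
  of the label process is robustly far from every product structure with `exp (γ n)` boxes.
* A generalized Morse system (`Tower`: a `ℤ/2`-extension of the dyadic odometer) whose words carry
  inner-product tags is ergodic, has zero entropy, and is `Hard`.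
* A smooth volume preserving diffeomorphism gives a piecewise smooth system `PS`. For a `PS`, the
  log-determinant of the Gramian of the derivative cocycle is almost subadditive, so at one of the scales
  it is almost additive; this gives `Split`, a bounded Green operator (`Green`) for hybrid cocycles,
  shadowing with volume control, and so a product structure. Hence a `PS` is never `Hard`.
-/

set_option autoImplicit false

namespace Crest.Agent.R133

open MeasureTheory Set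
open scoped ENNReal

abbrev E (d : ℕ) := EuclideanSpace ℝ (Fin d)

/-! ### Names and hardness -/

/-- The name of length `n` of `x`, starting at time `a`. -/
def word {M : Type*} (S : M → M) (lab : M → Bool) (a n : ℕ) (x : M) : Fin n → Bool :=
  fun i => lab (S^[a + (i : ℕ)] x)

/-- Hardness at one scale. -/
def HardAt {M : Type*} [MeasurableSpace M] (ν : Measure M) (S : M → M) (lab : M → Bool)
    (n : ℕ) (ε γ : ℝ) : Prop :=
  ∃ (Ev : Set M) (C : Finset ((Fin n → Bool) × (Fin n → Bool))),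
    MeasurableSet Ev ∧ ν Evᶜ ≤ ENNReal.ofReal ε ∧
    (∀ z ∈ Ev, ∀ p q : Fin n → Bool,
      100000 * hammingDist p (word S lab 0 n z) ≤ n →
      100000 * hammingDist q (word S lab n n z) ≤ n → (p, q) ∈ C) ∧
    ∀ A B : Set M, MeasurableSet A → MeasurableSet B → A ⊆ Ev → B ⊆ Ev →
      ∑ c ∈ C, ν (A ∩ word S lab 0 n ⁻¹' {c.1}) * ν (B ∩ word S lab n n ⁻¹' {c.2})
        ≤ ENNReal.ofReal ε * ν A * ν B + ENNReal.ofReal (Real.exp (-(γ * n)))

/-- Hardness along long chains of doubling scales. -/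
def Hard {M : Type*} [MeasurableSpace M] (ν : Measure M) (S : M → M) (lab : M → Bool) : Prop :=
  ∀ ε : ℝ, 0 < ε → ∃ (γ : ℝ) (ℓ N : ℕ), 0 < γ ∧ γ ≤ 1 ∧ 1 ≤ ε * γ ^ 4 * N ∧ 1 ≤ ε * γ ^ 4 * ℓ ∧
    ∀ s < N, HardAt ν S lab (2 ^ s * ℓ) ε γ

/-! ### Generalized Morse systems -/

/-- Two towers of height `h`; the label read along the tower `s` is `s xor W`. -/
structure Level {X : Type*} [MeasurableSpace X] (μ : Measure X) (T : X → X) (lab : X → Bool)
    (h : ℕ) (W : ℕ → Bool) where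
  pos : X → ℕ
  sgn : X → Bool
  meas_pos : Measurable pos
  meas_sgn : Measurable sgn
  pos_lt : ∀ x, pos x < h
  level : ∀ p s, p < h → μ {x | pos x = p ∧ sgn x = s} = (2 * (h : ℝ≥0∞))⁻¹
  step : ∀ x, pos x + 1 < h → pos (T x) = pos x + 1 ∧ sgn (T x) = sgn x
  wrap : ∀ x, pos x + 1 = h → pos (T x) = 0
  lab_eq : ∀ x, lab x = xor (sgn x) (W (pos x))

/-- Heights: `ht κ e = 2 ^ (κ 0 + ⋯ + κ (e-1))`. -/
def ht (κ : ℕ → ℕ) : ℕ → ℕ
  | 0 => 1
  | e + 1 => ht κ e * 2 ^ κ e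

/-- Keane products of the words `β e` (only `β e i` with `i < 2 ^ κ e` matters). -/
def wd (κ : ℕ → ℕ) (β : ℕ → ℕ → Bool) : ℕ → ℕ → Bool
  | 0 => fun _ => false
  | e + 1 => fun p => xor (wd κ β e (p % ht κ e)) (β e (p / ht κ e))

/-- A refining, generating sequence of levels. -/
structure Tower {X : Type*} [mX : MeasurableSpace X] (μ : Measure X) (T : X → X) (lab : X → Bool)
    (κ : ℕ → ℕ) (β : ℕ → ℕ → Bool) where
  lev : ∀ e, Level μ T lab (ht κ e) (wd κ β e)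
  pos_succ : ∀ e x, (lev e).pos x = (lev (e + 1)).pos x % ht κ e
  gen : mX = MeasurableSpace.generateFrom
    {A | ∃ e p s, A = {x | (lev e).pos x = p ∧ (lev e).sgn x = s}}

/-- Exactly half of the first `K` letters of `b` are `true`. -/
def Balanced (K : ℕ) (b : ℕ → Bool) : Prop :=
  2 * ((Finset.range K).filter (fun i => b i = true)).card = K

/-! ### Piecewise smooth systems -/

/-- A measure preserving map seen through finitely many charts; `reg r` is the set of points at depth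
at least `r` inside their pieces. -/
structure PS {M : Type*} [MeasurableSpace M] (ν : Measure M) (S : M → M) (d : ℕ) where
  k : ℕ
  idx : M → ℕ
  φ : M → E d
  ψ : ℕ → E d → M
  reg : ℝ → Set M
  A : M → (E d →L[ℝ] E d)
  Λ : ℝ
  r₀ : ℝ
  one_le : 1 ≤ Λ
  r₀_pos : 0 < r₀
  idx_lt : ∀ x, idx x < k
  meas_idx : Measurable idx
  meas_φ : Measurable φ
  meas_ψ : ∀ i, Measurable (ψ i)
  meas_reg : ∀ r, MeasurableSet (reg r)
  meas_A : Measurable A
  left_inv : ∀ x, ψ (idx x) (φ x) = x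
  bdd : ∀ x, ‖φ x‖ ≤ Λ
  reg_small : ∀ r, 0 < r → r ≤ r₀ → ν (reg r)ᶜ ≤ ENNReal.ofReal (Λ * r)
  loc : ∀ r, 0 < r → r ≤ r₀ → ∀ x ∈ reg r, ∀ u, ‖u - φ x‖ ≤ r →
    idx (ψ (idx x) u) = idx x ∧ φ (ψ (idx x) u) = u ∧ idx (S (ψ (idx x) u)) = idx (S x)
  deriv : ∀ r, 0 < r → r ≤ r₀ → ∀ x ∈ reg r, ∀ u, ‖u - φ x‖ ≤ r →
    ∃ D : E d →L[ℝ] E d, HasFDerivAt (fun v => φ (S (ψ (idx x) v))) D u ∧
      ‖D - A x‖ ≤ Λ * ‖u - φ x‖
  back : ∀ r, 0 < r → r ≤ r₀ → ∀ x ∈ reg r, ∀ y, idx (S y) = idx (S x) →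
    Λ * ‖φ (S y) - φ (S x)‖ ≤ r → idx y = idx x ∧ ‖φ y - φ x‖ ≤ Λ * ‖φ (S y) - φ (S x)‖
  A_le : ∀ x, ‖A x‖ ≤ Λ
  A_ge : ∀ x v, ‖v‖ ≤ Λ * ‖A x v‖
  upper : ∀ i B, MeasurableSet B →
    ν {x | idx x = i ∧ φ x ∈ B} ≤ ENNReal.ofReal Λ * volume B
  lower : ∀ r, 0 < r → r ≤ r₀ → ∀ x ∈ reg r, ∀ B, MeasurableSet B →
    B ⊆ Metric.closedBall (φ x) r →
    volume B ≤ ENNReal.ofReal Λ * ν {y | idx y = idx x ∧ φ y ∈ B}

/-! ### Linear cocycles -/

variable {d : ℕ}

/-- Every vector at time `j` is a sum of a vector with controlled future (up to time `M`) and a vector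
with controlled past (down to time `0`). -/
def Split (A : ℕ → (E d →L[ℝ] E d)) (M j : ℕ) (θ R : ℝ) : Prop :=
  ∀ v : E d, ∃ y z : ℕ → E d, y j + z j = v ∧
    (∀ m, j ≤ m → m < M → y (m + 1) = A m (y m)) ∧
    (∀ m, m < j → z (m + 1) = A m (z m)) ∧
    (∀ m, j ≤ m → m ≤ M → ‖y m‖ ≤ R * Real.exp (θ * ((m : ℝ) - j)) * ‖v‖) ∧
    (∀ m, m ≤ j → ‖z m‖ ≤ R * Real.exp (θ * ((m : ℝ) - j)) * ‖v‖)

/-- `cpr A a m = A (a+m-1) ∘ ⋯ ∘ A a`. -/
noncomputable def cpr (A : ℕ → (E d →L[ℝ] E d)) (a : ℕ) : ℕ → (E d →L[ℝ] E d)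
  | 0 => ContinuousLinearMap.id ℝ (E d)
  | m + 1 => (A (a + m)).comp (cpr A a m)

/-- Weighted Gramian of the window `[a, a+n)`, seen from time `a`. -/
noncomputable def gram (θ : ℝ) (A : ℕ → (E d →L[ℝ] E d)) (a n : ℕ) : E d →L[ℝ] E d :=
  ∑ m ∈ Finset.range n, Real.exp (-(2 * θ * m)) •
    ((ContinuousLinearMap.adjoint (cpr A a m)).comp (cpr A a m))

/-- Log-determinant of the Gramian. -/
noncomputable def lgram (θ : ℝ) (A : ℕ → (E d →L[ℝ] E d)) (a n : ℕ) : ℝ :=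
  Real.log (gram θ A a n).det

/-- A bounded right inverse of the operator `y ↦ (y (m+1) - A m (y m))_{m < M}` (sup norms). -/
def Green (A : ℕ → (E d →L[ℝ] E d)) (M : ℕ) (R : ℝ) : Prop :=
  ∃ G : (Fin M → E d) →L[ℝ] (Fin (M + 1) → E d), ‖G‖ ≤ R ∧
    ∀ (e : Fin M → E d) (m : Fin M), G e m.succ = A m (G e m.castSucc) + e m

/-- The past of `B` followed by the future of `A`. -/
def hyb {α : Type*} (n : ℕ) (B A : ℕ → α) : ℕ → α := fun m => if m < n then B m else A m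

/-- Orbit of `v` under the sequence of maps `h`. -/
def orb (h : ℕ → E d → E d) (v : E d) : ℕ → E d
  | 0 => v
  | m + 1 => h m (orb h v m)

/-- Starting points of orbits staying in the closed `r`-ball up to time `M`. -/
def tube (h : ℕ → E d → E d) (M : ℕ) (r : ℝ) : Set (E d) :=
  {v | ∀ m, m ≤ M → ‖orb h v m‖ ≤ r}

/-- The maps `h m` are `C¹`-close to the linear maps `A m` on the `r`-ball. -/
def Approx (A : ℕ → (E d →L[ℝ] E d)) (h : ℕ → E d → E d) (M : ℕ) (r η ε₀ : ℝ) : Prop :=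
  ∀ m, m < M → ‖h m 0‖ ≤ ε₀ ∧
    ∀ v, ‖v‖ ≤ r → ∃ D : E d →L[ℝ] E d, HasFDerivAt (h m) D v ∧ ‖D - A m‖ ≤ η

/-- `z` follows the past of `x` and the future of `y`. -/
def Shadow {M : Type*} [MeasurableSpace M] {ν : Measure M} {S : M → M} (ps : PS ν S d)
    (n : ℕ) (ρ : ℝ) (x y z : M) : Prop :=
  ∀ m, m ≤ 2 * n →
    ps.idx (S^[m] z) = ps.idx (S^[m] (if m < n then x else y)) ∧
    ‖ps.φ (S^[m] z) - ps.φ (S^[m] (if m < n then x else y))‖ ≤ ρ

end Crest.Agent.R133
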