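import Crest.Agent.R133.Defs

set_option autoImplicit false

namespace Crest.Agent.R133

open MeasureTheory Set
open scoped ENNReal 

theorem ht_pos (κ : ℕ → ℕ) (e : ℕ) : 0 < ht κ e := by
  induction e with
  | zero => simp [ht]
  | succ e ih => simp only [ht]; positivity

theorem le_ht (κ : ℕ → ℕ) (hκ : ∀ e, 1 ≤ κ e) (e : ℕ) : e < ht κ e := by
  induction e with
  | zero => simp [ht]
  | succ e ih =>
    simp only [ht]
    have h2 : 2 ≤ 2 ^ κ e := by
      calc 2 = 2 ^ 1 := by norm_num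
        _ ≤ 2 ^ κ e := Nat.pow_le_pow_right (by norm_num) (hκ e)
    nlinarith

section Lv
variable {X : Type*} [mX : MeasurableSpace X] {μ : Measure X} {T : X → X} {lab : X → Bool}
  {κ : ℕ → ℕ} {β : ℕ → ℕ → Bool} (tw : Tower μ T lab κ β)

/-- The levels of the towers. -/
def Tower.Lv (e p : ℕ) (s : Bool) : Set X := {x | (tw.lev e).pos x = p ∧ (tw.lev e).sgn x = s}

theorem Tower.meas_Lv (e p : ℕ) (s : Bool) : MeasurableSet (tw.Lv e p s) :=
  ((tw.lev e).meas_pos (measurableSet_singleton p)).inter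
    ((tw.lev e).meas_sgn (measurableSet_singleton s))

theorem Tower.sgn_succ (e : ℕ) (x : X) : (tw.lev e).sgn x =
    xor ((tw.lev (e + 1)).sgn x) (β e ((tw.lev (e + 1)).pos x / ht κ e)) := by
  have h1 := (tw.lev e).lab_eq x
  have h2 := (tw.lev (e + 1)).lab_eq x
  simp only [wd] at h2
  rw [← tw.pos_succ, h1] at h2
  revert h2
  cases (tw.lev e).sgn x <;> cases (tw.lev (e + 1)).sgn x <;> cases wd κ β e ((tw.lev e).pos x) <;>
    cases β e ((tw.lev (e + 1)).pos x / ht κ e) <;> simp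

/-- `(pos e, sgn e)` is a function of `(pos e', sgn e')` for `e ≤ e'`. -/
theorem Tower.factor {e e' : ℕ} (h : e ≤ e') : ∃ f : ℕ × Bool → ℕ × Bool, ∀ x,
    ((tw.lev e).pos x, (tw.lev e).sgn x) = f ((tw.lev e').pos x, (tw.lev e').sgn x) := by
  induction e', h using Nat.le_induction with
  | base => exact ⟨id, fun _ => rfl⟩
  | succ e' _ ih =>
    obtain ⟨f, hf⟩ := ih
    exact ⟨fun z => f (z.1 % ht κ e', xor z.2 (β e' (z.1 / ht κ e'))), fun x => by
      rw [hf, tw.pos_succ, tw.sgn_succ]⟩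

theorem Tower.preimage_Lv {e p : ℕ} (s : Bool) (hp : p + 1 < ht κ e) :
    T ⁻¹' tw.Lv e (p + 1) s = tw.Lv e p s := by
  ext x
  simp only [Tower.Lv, mem_preimage, mem_ofPred_eq]
  constructor
  · rintro ⟨h1, h2⟩
    rcases (Nat.succ_le_of_lt ((tw.lev e).pos_lt x)).eq_or_lt with h | h
    · rw [(tw.lev e).wrap x h] at h1
      omega
    · obtain ⟨h3, h4⟩ := (tw.lev e).step x h
      exact ⟨by omega, h4 ▸ h2⟩
  · rintro ⟨rfl, rfl⟩
    exact (tw.lev e).step x hp

theorem Tower.isPiSystem : IsPiSystem {A | ∃ e p s, A = tw.Lv e p s} := by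
  have key : ∀ e p s e' p' s', e ≤ e' → (tw.Lv e p s ∩ tw.Lv e' p' s').Nonempty →
      tw.Lv e p s ∩ tw.Lv e' p' s' = tw.Lv e' p' s' := by
    rintro e p s e' p' s' h ⟨x, ⟨h1, h2⟩, h3, h4⟩
    obtain ⟨f, hf⟩ := tw.factor h
    refine inter_eq_right.2 fun y ⟨h5, h6⟩ => ?_
    have := hf y
    rw [h5, h6, ← h3, ← h4, ← hf x, h1, h2] at this
    exact Prod.ext_iff.1 this
  rintro _ ⟨e, p, s, rfl⟩ _ ⟨e', p', s', rfl⟩ h
  rcases le_total e e' with h' | h'
  · exact ⟨e', p', s', key _ _ _ _ _ _ h' h⟩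
  · rw [inter_comm] at h ⊢
    exact ⟨e, p, s, key _ _ _ _ _ _ h' h⟩

theorem erg_sum_fibre (A : Set X) {g : X → ℕ} (hg : Measurable g) {K : ℕ} (hK : ∀ x, g x < K) :
    μ A = ∑ i ∈ Finset.range K, μ (A ∩ g ⁻¹' {i}) := by
  have h := sum_measure_preimage_singleton (μ := μ.restrict A) (Finset.range K) (f := g)
    fun y _ => hg (measurableSet_singleton y)
  rw [show g ⁻¹' (Finset.range K : Set ℕ) = univ from eq_univ_of_forall fun x => by simpa using hK x,
    Measure.restrict_apply_univ] at h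
  rw [← h]
  exact Finset.sum_congr rfl fun i _ => by
    rw [Measure.restrict_apply (hg (measurableSet_singleton i)), inter_comm]

theorem Tower.inv_Lv (hT : MeasurePreserving T μ μ) {A : Set X} (hA : MeasurableSet A)
    (hinv : T ⁻¹' A = A) (e : ℕ) (s : Bool) {p : ℕ} (hp : p < ht κ e) :
    μ (A ∩ tw.Lv e p s) = μ (A ∩ tw.Lv e 0 s) := by
  induction p with
  | zero => rfl
  | succ p ih =>
    rw [← ih (by omega), ← hT.measure_preimage (hA.inter (tw.meas_Lv _ _ _)).nullMeasurableSet,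
      preimage_inter, hinv, tw.preimage_Lv s hp]

theorem Tower.inv_sgn (hT : MeasurePreserving T μ μ) (hb : ∀ e, Balanced (2 ^ κ e) (β e))
    {A : Set X} (hA : MeasurableSet A) (hinv : T ⁻¹' A = A) (e : ℕ) :
    μ (A ∩ tw.Lv e 0 true) = μ (A ∩ tw.Lv e 0 false) := by
  have h0 := ht_pos κ e
  have key : ∀ s, μ (A ∩ tw.Lv e 0 s) =
      ∑ i ∈ Finset.range (2 ^ κ e), μ (A ∩ tw.Lv (e + 1) 0 (xor s (β e i))) := by
    intro s
    rw [erg_sum_fibre _ (g := fun x => (tw.lev (e + 1)).pos x / ht κ e)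
      ((measurable_of_countable (· / ht κ e)).comp (tw.lev (e + 1)).meas_pos) (K := 2 ^ κ e)
      fun x => Nat.div_lt_of_lt_mul ((tw.lev (e + 1)).pos_lt x)]
    refine Finset.sum_congr rfl fun i hi => ?_
    rw [← tw.inv_Lv hT hA hinv (e + 1) _ (p := ht κ e * i)
      (Nat.mul_lt_mul_of_pos_left (Finset.mem_range.1 hi) h0), inter_assoc]
    congr 2
    ext x
    simp only [Tower.Lv, mem_inter_iff, mem_ofPred_eq, mem_preimage, mem_singleton_iff,
      tw.pos_succ e, tw.sgn_succ e]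
    constructor
    · rintro ⟨⟨h1, h2⟩, h3⟩
      refine ⟨by rw [← h3, ← Nat.div_add_mod ((tw.lev (e + 1)).pos x) (ht κ e), h1]; simp [h0], ?_⟩
      rw [← h2, h3]
      simp
    · rintro ⟨h1, h2⟩
      rw [h1, h2, Nat.mul_div_cancel_left _ h0]
      simp
  have hcard : ((Finset.range (2 ^ κ e)).filter (fun i => β e i = true)).card =
      ((Finset.range (2 ^ κ e)).filter (fun i => ¬ β e i = true)).card := by
    have h1 := Finset.card_filter_add_card_filter_not (s := Finset.range (2 ^ κ e))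
      (fun i => β e i = true)
    have h2 := hb e
    rw [Finset.card_range] at h1
    unfold Balanced at h2
    omega
  have key2 : ∀ s, μ (A ∩ tw.Lv e 0 s) =
      ((Finset.range (2 ^ κ e)).filter (fun i => β e i = true)).card •
        (μ (A ∩ tw.Lv (e + 1) 0 (!s)) + μ (A ∩ tw.Lv (e + 1) 0 s)) := by
    intro s
    rw [key, ← Finset.sum_filter_add_sum_filter_not _ (fun i => β e i = true), nsmul_add]
    congr 1
    · rw [← Finset.sum_const]
      exact Finset.sum_congr rfl fun i hi => by rw [(Finset.mem_filter.1 hi).2]; simp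
    · rw [hcard, ← Finset.sum_const]
      exact Finset.sum_congr rfl fun i hi => by
        rw [Bool.eq_false_iff.2 (Finset.mem_filter.1 hi).2]; simp
  rw [key2, key2, add_comm]
  rfl

theorem Tower.indep (hT : MeasurePreserving T μ μ) (hb : ∀ e, Balanced (2 ^ κ e) (β e))
    {A : Set X} (hA : MeasurableSet A) (hinv : T ⁻¹' A = A) (e p : ℕ) (s : Bool) :
    μ (A ∩ tw.Lv e p s) = μ A * μ (tw.Lv e p s) := by
  rcases lt_or_ge p (ht κ e) with hp | hp
  swap
  · have : tw.Lv e p s = ∅ := eq_empty_of_forall_notMem fun x hx =>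
      absurd (hx.1 ▸ (tw.lev e).pos_lt x) hp.not_gt
    simp [this]
  have h1 : ∀ s', μ (A ∩ tw.Lv e 0 s') = μ (A ∩ tw.Lv e 0 s) := fun s' => by
    cases s <;> cases s' <;> simp [tw.inv_sgn hT hb hA hinv e]
  have h2 : μ A = 2 * (ht κ e : ℝ≥0∞) * μ (A ∩ tw.Lv e 0 s) := by
    rw [erg_sum_fibre A (tw.lev e).meas_pos (tw.lev e).pos_lt, Finset.sum_congr rfl
      (g := fun _ => 2 * μ (A ∩ tw.Lv e 0 s)) fun i hi => ?_]
    · simp [mul_assoc, mul_left_comm]
    rw [← measure_inter_add_sdiff _ ((tw.lev e).meas_sgn (measurableSet_singleton true)), two_mul]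
    congr 1
    · rw [← h1 true, ← tw.inv_Lv hT hA hinv e _ (Finset.mem_range.1 hi), inter_assoc]
      rfl
    · rw [← h1 false, ← tw.inv_Lv hT hA hinv e _ (Finset.mem_range.1 hi), sdiff_eq, inter_assoc]
      congr 2
      ext x
      simp [Tower.Lv]
  have h3 : μ (tw.Lv e p s) = (2 * (ht κ e : ℝ≥0∞))⁻¹ := (tw.lev e).level p s hp
  rw [tw.inv_Lv hT hA hinv e s hp, h3, h2, mul_comm, ← mul_assoc, ENNReal.inv_mul_cancel, one_mul]
  · simpa using (ht_pos κ e).ne'
  · exact ENNReal.mul_ne_top (by simp) (by simp)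

end Lv

/-- No atoms: a point lies in a level of measure `1 / (2 ht e)`. -/
theorem Tower.noAtoms {X : Type*} [MeasurableSpace X] {μ : Measure X} {T : X → X} {lab : X → Bool}
    {κ : ℕ → ℕ} {β : ℕ → ℕ → Bool} (tw : Tower μ T lab κ β) (hκ : ∀ e, 1 ≤ κ e) (x : X) :
    μ {x} = 0 := by
  by_contra h
  obtain ⟨n, hn⟩ := ENNReal.exists_inv_nat_lt h
  refine hn.not_ge ((measure_mono (t := {y | (tw.lev n).pos y = (tw.lev n).pos x ∧
    (tw.lev n).sgn y = (tw.lev n).sgn x}) (by simp)).trans ?_)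
  rw [(tw.lev n).level _ _ ((tw.lev n).pos_lt x), ENNReal.inv_le_inv]
  have : n ≤ 2 * ht κ n := by have := le_ht κ hκ n; omega
  exact_mod_cast this

/-- Ergodicity. For `T ⁻¹' A = A`: `μ (A ∩ Lv e p s)` does not depend on `p` (`Lv e p s ⊆ T ⁻¹' Lv e (p+1) s`, equal
measures). `sgn e = xor (sgn (e+1)) (β e (pos (e+1) / ht e))` (from `lab_eq`, `pos_succ`), so `Lv e p s` is the disjoint
union over `i < 2 ^ κ e` of `Lv (e+1) (p + i * ht e) (xor s (β e i))`; balance gives
`μ (A ∩ Lv e p s) = μ A * μ (Lv e p s)`. The levels (with `∅`) form a π-system generating the σ-algebra, so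
`μ (A ∩ B) = μ A * μ B` for all measurable `B`; take `B = A`. -/
theorem Tower.ergodic {X : Type*} [MeasurableSpace X] {μ : Measure X} [IsProbabilityMeasure μ]
    {T : X → X} {lab : X → Bool} {κ : ℕ → ℕ} {β : ℕ → ℕ → Bool} (tw : Tower μ T lab κ β)
    (hT : MeasurePreserving T μ μ) (hb : ∀ e, Balanced (2 ^ κ e) (β e)) : Ergodic T μ := by
  refine ⟨hT, ⟨fun A hA hinv => ?_⟩⟩
  have key : μ.restrict A = μ A • μ := by
    refine ext_of_generate_finite _ tw.gen tw.isPiSystem ?_ (by simp)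
    rintro _ ⟨e, p, s, rfl⟩
    exact ((Measure.restrict_apply (tw.meas_Lv e p s)).trans (by rw [inter_comm])).trans
      (tw.indep hT hb hA hinv e p s)
  have h1 : μ A * μ Aᶜ = 0 := by
    have := congrArg (fun ν : Measure X => ν Aᶜ) key
    simpa [Measure.restrict_apply hA.compl] using this.symm
  rw [Filter.eventuallyConst_set']
  rcases mul_eq_zero.1 h1 with h | h
  · exact .inl (ae_eq_empty.2 h)
  · exact .inr (ae_eq_univ.2 h)

end Crest.Agent.R133
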