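import Crest.Agent.R133.Defs
import Crest.Agent.R133.Erg
set_option autoImplicit false

namespace Crest.Agent.R133

open MeasureTheory Set
open scoped ENNReal 

namespace Ent
open Crest.AnalysisR Filter Topology

variable {X : Type*} [MeasurableSpace X] {μ : Measure X} [IsProbabilityMeasure μ]
  {α γ : Type*} [Fintype α] [Fintype γ] {T : X → X}

/-- measurable fibres -/
def MF {α : Type*} (Y : X → α) : Prop := ∀ a, MeasurableSet (Y ⁻¹' {a})

omit [Fintype γ] in
theorem MF.comp {Y : X → α} (h : MF Y) (f : α → γ) : MF fun x => f (Y x) := fun b => by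
  have : (fun x => f (Y x)) ⁻¹' {b} = ⋃ a ∈ f ⁻¹' {b}, Y ⁻¹' {a} := by ext x; simp
  rw [this]
  exact MeasurableSet.biUnion (to_countable _) fun a _ => h a

omit [Fintype α] [Fintype γ] in
theorem MF.pair {Y : X → α} {Z : X → γ} (h : MF Y) (h' : MF Z) : MF fun x => (Y x, Z x) :=
  fun a => by
    have : (fun x => (Y x, Z x)) ⁻¹' {a} = Y ⁻¹' {a.1} ∩ Z ⁻¹' {a.2} := by
      ext x; simp [Prod.ext_iff]
    rw [this]
    exact (h _).inter (h' _)

/-- names -/
def nm {α : Type*} (T : X → X) (Y : X → α) (n : ℕ) (x : X) : Fin n → α := fun j => Y (T^[j] x)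

omit [Fintype α] in
theorem MF.nm {Y : X → α} (h : MF Y) (hT : Measurable T) (n : ℕ) : MF (nm T Y n) := fun a => by
  have : Ent.nm T Y n ⁻¹' {a} = ⋂ j : Fin n, T^[j] ⁻¹' (Y ⁻¹' {a j}) := by
    ext x; simp [Ent.nm, funext_iff]
  rw [this]
  exact MeasurableSet.iInter fun j => hT.iterate j (h _)

theorem ent_eq (Y : X → α) :
    labelEntropy μ Y = ∑ a, μ.real (Y ⁻¹' {a}) * -Real.log (μ.real (Y ⁻¹' {a})) :=
  Finset.sum_congr rfl fun a _ => by rw [Real.negMulLog, neg_mul_comm]; rfl

theorem ent_nonneg (Y : X → α) : 0 ≤ labelEntropy μ Y :=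
  Finset.sum_nonneg fun _ _ => Real.negMulLog_nonneg measureReal_nonneg measureReal_le_one

theorem sum_comp {Y : X → α} (h : MF Y) (f : α → γ) (g : γ → ℝ) :
    ∑ b, μ.real ((fun x => f (Y x)) ⁻¹' {b}) * g b = ∑ a, μ.real (Y ⁻¹' {a}) * g (f a) := by
  classical
  rw [← Finset.sum_fiberwise (s := Finset.univ) (g := f)]
  refine Finset.sum_congr rfl fun b _ => ?_
  rw [Finset.sum_congr rfl (g := fun a => μ.real (Y ⁻¹' {a}) * g b)
    (fun a ha => by rw [(Finset.mem_filter.1 ha).2]), ← Finset.sum_mul,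
    sum_measureReal_preimage_singleton _ fun a _ => h a]
  congr 2
  ext x
  simp

theorem sum_one {Y : X → α} (h : MF Y) : ∑ a, μ.real (Y ⁻¹' {a}) = 1 := by
  rw [sum_measureReal_preimage_singleton _ fun a _ => h a]
  simp

theorem gibbs {Y : X → α} (h : MF Y) (q : α → ℝ) (h0 : ∀ a, 0 ≤ q a)
    (h1 : ∀ a, μ.real (Y ⁻¹' {a}) ≠ 0 → q a ≠ 0) (h2 : ∑ a, q a ≤ 1) :
    labelEntropy μ Y ≤ ∑ a, μ.real (Y ⁻¹' {a}) * -Real.log (q a) := by
  have key : ∀ a, μ.real (Y ⁻¹' {a}) * -Real.log (μ.real (Y ⁻¹' {a})) ≤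
      μ.real (Y ⁻¹' {a}) * -Real.log (q a) + (q a - μ.real (Y ⁻¹' {a})) := fun a => by
    rcases (measureReal_nonneg (μ := μ) (s := Y ⁻¹' {a})).eq_or_lt with hp | hp
    · simp [← hp, h0 a]
    · have hq := (h0 a).lt_of_ne' (h1 a hp.ne')
      have h3 := Real.log_le_sub_one_of_pos (div_pos hq hp)
      rw [Real.log_div hq.ne' hp.ne'] at h3
      have h4 := mul_le_mul_of_nonneg_left h3 hp.le
      rw [mul_sub _ (_ / _), mul_div_cancel₀ _ hp.ne'] at h4
      linarith
  rw [ent_eq]
  refine (Finset.sum_le_sum fun a _ => key a).trans ?_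
  rw [Finset.sum_add_distrib, Finset.sum_sub_distrib, sum_one h]
  linarith

theorem ent_comp {Y : X → α} (h : MF Y) (f : α → γ) :
    labelEntropy μ (fun x => f (Y x)) ≤ labelEntropy μ Y := by
  rw [ent_eq, ent_eq, sum_comp h f]
  refine Finset.sum_le_sum fun a _ => ?_
  rcases (measureReal_nonneg (μ := μ) (s := Y ⁻¹' {a})).eq_or_lt with hp | hp
  · simp [← hp]
  · refine mul_le_mul_of_nonneg_left (neg_le_neg (Real.log_le_log hp ?_)) hp.le
    exact measureReal_mono fun x hx => congrArg f hx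

theorem ent_pair {Y : X → α} {Z : X → γ} (h : MF Y) (h' : MF Z) :
    labelEntropy μ (fun x => (Y x, Z x)) ≤ labelEntropy μ Y + labelEntropy μ Z := by
  have hne : ∀ a : α × γ, μ.real ((fun x => (Y x, Z x)) ⁻¹' {a}) ≠ 0 →
      μ.real (Y ⁻¹' {a.1}) ≠ 0 ∧ μ.real (Z ⁻¹' {a.2}) ≠ 0 := fun a ha => by
    have hp := (measureReal_nonneg).lt_of_ne' ha
    exact ⟨(hp.trans_le (measureReal_mono fun x hx => congrArg Prod.fst hx)).ne',
      (hp.trans_le (measureReal_mono fun x hx => congrArg Prod.snd hx)).ne'⟩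
  refine (gibbs (h.pair h') (fun a => μ.real (Y ⁻¹' {a.1}) * μ.real (Z ⁻¹' {a.2}))
    (fun a => by positivity) (fun a ha => mul_ne_zero (hne a ha).1 (hne a ha).2) (by
      rw [Fintype.sum_prod_type]
      simp only [← Finset.mul_sum, sum_one h, sum_one h', mul_one, le_refl])).trans_eq ?_
  rw [ent_eq, ent_eq]
  have e1 := sum_comp (μ := μ) (h.pair h') Prod.fst fun a => -Real.log (μ.real (Y ⁻¹' {a}))
  have e2 := sum_comp (μ := μ) (h.pair h') Prod.snd fun a => -Real.log (μ.real (Z ⁻¹' {a}))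
  simp only at e1 e2
  rw [e1, e2, ← Finset.sum_add_distrib]
  refine Finset.sum_congr rfl fun a _ => ?_
  by_cases ha : μ.real ((fun x => (Y x, Z x)) ⁻¹' {a}) = 0
  · simp [ha]
  · rw [Real.log_mul (hne a ha).1 (hne a ha).2]
    ring

theorem ent_card {Y : X → α} (h : MF Y) (S : Finset α) (hS : ∀ x, Y x ∈ S) :
    labelEntropy μ Y ≤ Real.log S.card := by
  classical
  have hne : ∀ a, μ.real (Y ⁻¹' {a}) ≠ 0 → a ∈ S := fun a ha => by
    obtain ⟨x, rfl⟩ := nonempty_of_measureReal_ne_zero ha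
    exact hS x
  refine (gibbs h (fun a => if a ∈ S then (S.card : ℝ)⁻¹ else 0)
    (fun a => by split_ifs <;> positivity) (fun a ha => ?_) ?_).trans_eq ?_
  · have := Finset.card_pos.2 ⟨a, hne a ha⟩
    rw [if_pos (hne a ha)]
    positivity
  · rw [Finset.sum_ite_mem, Finset.univ_inter, Finset.sum_const, nsmul_eq_mul]
    exact mul_inv_le_one
  · rw [← one_mul (Real.log _), ← sum_one (μ := μ) h, Finset.sum_mul]
    refine Finset.sum_congr rfl fun a _ => ?_
    by_cases ha : μ.real (Y ⁻¹' {a}) = 0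
    · simp [ha]
    · rw [if_pos (hne a ha), Real.log_inv, neg_neg]

theorem ent_shift {Y : X → α} (h : MF Y) (hT : MeasurePreserving T μ μ) :
    labelEntropy μ (fun x => Y (T x)) = labelEntropy μ Y :=
  Finset.sum_congr rfl fun a _ => by
    rw [← hT.measure_preimage (h a).nullMeasurableSet]; rfl

theorem ent_nm_add {Y : X → α} (h : MF Y) (hT : MeasurePreserving T μ μ) (n k : ℕ) :
    labelEntropy μ (nm T Y (n + k)) ≤ labelEntropy μ (nm T Y n) + labelEntropy μ (nm T Y k) := by
  have h1 := h.nm hT.measurable n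
  have h2 := h.nm hT.measurable k
  have h3 : MF fun x => nm T Y k (T^[n] x) := fun a => hT.measurable.iterate n (h2 a)
  rw [← ent_shift h2 (hT.iterate n)]
  refine le_trans (le_of_eq ?_) ((ent_comp (h1.pair h3) fun z => Fin.append z.1 z.2).trans
    (ent_pair h1 h3))
  congr 1
  funext x j
  induction j using Fin.addCases with
  | left j => simp [nm]
  | right j => simp [nm, add_comm n, Function.iterate_add_apply]

theorem ent_nm_mul {Y : X → α} (h : MF Y) (hT : MeasurePreserving T μ μ) (q k : ℕ) :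
    labelEntropy μ (nm T Y (k * q)) ≤ k * labelEntropy μ (nm T Y q) := by
  induction k with
  | zero => simpa using ent_card (μ := μ) (h.nm hT.measurable (0 * q)) Finset.univ (by simp)
  | succ k ih =>
    rw [add_mul, one_mul]
    refine (ent_nm_add h hT _ _).trans ?_
    push_cast
    linarith

theorem ent_nm_mono {Y : X → α} (h : MF Y) (hT : Measurable T) {n k : ℕ} (hnk : n ≤ k) :
    labelEntropy μ (nm T Y n) ≤ labelEntropy μ (nm T Y k) :=
  ent_comp (h.nm hT k) fun z j => z (Fin.castLE hnk j)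

theorem ent_nm_le {Y : X → α} (h : MF Y) (hT : MeasurePreserving T μ μ) (n : ℕ) :
    labelEntropy μ (nm T Y n) ≤ n * labelEntropy μ Y := by
  have h1 := ent_nm_mul h hT 1 n
  rw [mul_one] at h1
  refine h1.trans (mul_le_mul_of_nonneg_left (le_trans (le_of_eq ?_)
    (ent_comp h fun a (_ : Fin 1) => a)) (by positivity))
  congr 1
  funext x j
  simp [nm]

theorem ent_err (m : ℕ) {η : ℝ} (hη : 0 < η) : ∃ δ > 0, ∀ Y : X → Option (Fin m), MF Y →
    μ.real (Y ⁻¹' {none})ᶜ < δ → labelEntropy μ Y ≤ η := by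
  obtain ⟨δ, hδ, h⟩ := Metric.continuousAt_iff.1 (Real.continuous_negMulLog.continuousAt (x := 0))
    (η / (m + 1)) (by positivity)
  refine ⟨min δ (η / (m + 1)), by positivity, fun Y hY hs => ?_⟩
  rw [labelEntropy, Fintype.sum_option]
  have h1 : Real.negMulLog (μ (Y ⁻¹' {none})).toReal ≤ η / (m + 1) := by
    refine (Real.negMulLog_le_one_sub_self ENNReal.toReal_nonneg).trans ?_
    rw [probReal_compl_eq_one_sub (hY none)] at hs
    exact (hs.trans_le (min_le_right _ _)).le
  have h2 : ∀ a : Fin m, Real.negMulLog (μ (Y ⁻¹' {some a})).toReal ≤ η / (m + 1) := fun a => by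
    have h3 : μ.real (Y ⁻¹' {some a}) ≤ μ.real (Y ⁻¹' {none})ᶜ :=
      measureReal_mono fun x hx h => by simp_all
    have := h (x := μ.real (Y ⁻¹' {some a})) (by
      rw [dist_zero_right, Real.norm_of_nonneg measureReal_nonneg]
      exact (h3.trans_lt hs).trans_le (min_le_left _ _))
    rw [Real.negMulLog_zero, dist_zero_right] at this
    exact (le_abs_self _).trans this.le
  refine (add_le_add h1 (Finset.sum_le_sum fun a _ => h2 a)).trans_eq ?_
  simp only [Finset.sum_const, Finset.card_univ, Fintype.card_fin, nsmul_eq_mul]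
  field_simp
  ring

variable {lab : X → Bool} {κ : ℕ → ℕ} {β : ℕ → ℕ → Bool}

omit [IsProbabilityMeasure μ] in
theorem lev_iter {h : ℕ} {W : ℕ → Bool} (l : Level μ T lab h W) (x : X) (j : ℕ)
    (hj : l.pos x + j < h) : l.pos (T^[j] x) = l.pos x + j ∧ l.sgn (T^[j] x) = l.sgn x := by
  induction j with
  | zero => exact ⟨rfl, rfl⟩
  | succ j ih =>
    obtain ⟨h1, h2⟩ := ih (by omega)
    obtain ⟨h3, h4⟩ := l.step (T^[j] x) (by omega)
    rw [Function.iterate_succ_apply']
    exact ⟨by omega, h4.trans h2⟩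

omit [IsProbabilityMeasure μ] [Fintype α] in
theorem lev_mf {h : ℕ} {W : ℕ → Bool} (l : Level μ T lab h W) (g : ℕ × Bool → α) :
    MF fun x => g (l.pos x, l.sgn x) := fun a =>
  (l.meas_pos.prodMk l.meas_sgn) (to_countable (g ⁻¹' {a})).measurableSet

theorem lev_ent {h : ℕ} {W : ℕ → Bool} (l : Level μ T lab h W) (hT : Measurable T)
    (g : ℕ × Bool → α) :
    labelEntropy μ (nm T (fun x => g (l.pos x, l.sgn x)) h) ≤ Real.log (4 * h) := by
  classical
  let F : Fin h × Bool × Bool → Fin h → α := fun z j =>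
    if z.1 + j < h then g (z.1 + j, z.2.1) else g (j - (h - z.1), z.2.2)
  refine (ent_card ((lev_mf l g).nm hT h) (Finset.univ.image F) fun x => ?_).trans ?_
  · refine Finset.mem_image.2 ⟨(⟨l.pos x, l.pos_lt x⟩, l.sgn x, l.sgn (T^[h - l.pos x] x)),
      Finset.mem_univ _, funext fun j => ?_⟩
    simp only [F, nm]
    split_ifs with hj
    · rw [(lev_iter l x j hj).1, (lev_iter l x j hj).2]
    · have h1 := l.pos_lt x
      have h2 := j.2
      have h3 : l.pos (T^[h - l.pos x] x) = 0 := by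
        rw [show h - l.pos x = (h - l.pos x - 1) + 1 by omega, Function.iterate_succ_apply']
        refine l.wrap _ ?_
        rw [(lev_iter l x _ (by omega)).1]
        omega
      obtain ⟨h4, h5⟩ := lev_iter l (T^[h - l.pos x] x) (j - (h - l.pos x)) (by omega)
      rw [← Function.iterate_add_apply, Nat.sub_add_cancel (by omega)] at h4 h5
      rw [h4, h5, h3, zero_add]
  · rcases (Finset.univ.image F).card.eq_zero_or_pos with h0 | h0
    · rw [h0, Nat.cast_zero, Real.log_zero]
      exact_mod_cast Real.log_natCast_nonneg (4 * h)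
    · refine Real.log_le_log (by exact_mod_cast h0) ?_
      have := Finset.card_image_le (s := Finset.univ) (f := F)
      simp only [Finset.card_univ, Fintype.card_prod, Fintype.card_fin, Fintype.card_bool] at this
      exact_mod_cast this.trans_eq (by ring)

theorem approx (tw : Tower μ T lab κ β) {m : ℕ} {P : X → Fin m} (hP : MF P) {δ : ℝ} (hδ : 0 < δ) :
    ∃ (e : ℕ) (g : ℕ × Bool → Fin m),
      μ.real {x | g ((tw.lev e).pos x, (tw.lev e).sgn x) ≠ P x} < δ := by
  classical
  let Z : ℕ → X → ℕ × Bool := fun e x => ((tw.lev e).pos x, (tw.lev e).sgn x)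
  let C : Set (Set X) := {A | ∃ e S, A = Z e ⁻¹' S}
  have up : ∀ e e' S, e ≤ e' → ∃ S', Z e ⁻¹' S = Z e' ⁻¹' S' := fun e e' S h => by
    obtain ⟨f, hf⟩ := tw.factor h
    exact ⟨f ⁻¹' S, by ext x; simp only [Z, mem_preimage, hf x]⟩
  have hC : IsSetRing C := by
    refine ⟨⟨0, ∅, rfl⟩, ?_, ?_⟩
    · rintro _ _ ⟨e, S, rfl⟩ ⟨e', S', rfl⟩
      obtain ⟨S₁, h₁⟩ := up e (max e e') S (le_max_left _ _)
      obtain ⟨S₂, h₂⟩ := up e' (max e e') S' (le_max_right _ _)
      exact ⟨max e e', S₁ ∪ S₂, by rw [h₁, h₂, preimage_union]⟩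
    · rintro _ _ ⟨e, S, rfl⟩ ⟨e', S', rfl⟩
      obtain ⟨S₁, h₁⟩ := up e (max e e') S (le_max_left _ _)
      obtain ⟨S₂, h₂⟩ := up e' (max e e') S' (le_max_right _ _)
      exact ⟨max e e', S₁ \ S₂, by rw [h₁, h₂, preimage_sdiff]⟩
  have hgen : ‹MeasurableSpace X› = MeasurableSpace.generateFrom C := by
    refine le_antisymm (tw.gen.trans_le (MeasurableSpace.generateFrom_mono ?_))
      (MeasurableSpace.generateFrom_le ?_)
    · rintro _ ⟨e, p, s, rfl⟩
      exact ⟨e, {(p, s)}, by ext x; simp [Z]⟩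
    · rintro _ ⟨e, S, rfl⟩
      exact ((tw.lev e).meas_pos.prodMk (tw.lev e).meas_sgn) (to_countable S).measurableSet
  have key : ∀ a : Fin m, ∃ e S, μ (symmDiff (Z e ⁻¹' S) (P ⁻¹' {a})) <
      ENNReal.ofReal (δ / (m + 1)) := fun a => by
    obtain ⟨_, ⟨e, S, rfl⟩, h⟩ := exists_measure_symmDiff_lt_of_generateFrom_isSetRing (μ := μ) hC
      ⟨{univ}, countable_singleton _, by rintro _ rfl; exact ⟨0, univ, rfl⟩, by simp⟩ hgen (hP a)
      (ENNReal.ofReal_pos.2 (show 0 < δ / (m + 1) by positivity))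
    exact ⟨e, S, h⟩
  choose e S hS using key
  choose S' hS' using fun a => up (e a) (Finset.univ.sup e) (S a) (Finset.le_sup (Finset.mem_univ a))
  obtain ⟨x₀⟩ := nonempty_of_isProbabilityMeasure μ
  refine ⟨Finset.univ.sup e, fun z => if h : ∃ a, z ∈ S' a then h.choose else P x₀, ?_⟩
  calc _ ≤ μ.real (⋃ a, symmDiff (Z (e a) ⁻¹' S a) (P ⁻¹' {a})) := by
        refine measureReal_mono fun x hx => ?_
        by_contra hcon
        simp only [mem_iUnion, not_exists, hS', mem_symmDiff, mem_preimage, mem_singleton_iff]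
          at hcon
        have h1 : ∀ a, Z (Finset.univ.sup e) x ∈ S' a ↔ P x = a := fun a => by
          have := hcon a
          tauto
        have h2 : ∃ a, Z (Finset.univ.sup e) x ∈ S' a := ⟨P x, (h1 _).2 rfl⟩
        exact hx ((dif_pos h2).trans ((h1 _).1 h2.choose_spec).symm)
    _ ≤ ∑ a, μ.real (symmDiff (Z (e a) ⁻¹' S a) (P ⁻¹' {a})) := measureReal_iUnion_fintype_le _
    _ ≤ ∑ _a : Fin m, δ / (m + 1) := Finset.sum_le_sum fun a _ =>
        ENNReal.toReal_le_of_le_ofReal (by positivity) (hS a).le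
    _ < δ := by
        simp only [Finset.sum_const, Finset.card_univ, Fintype.card_fin, nsmul_eq_mul]
        rw [mul_div_assoc', div_lt_iff₀ (by positivity)]
        linarith

end Ent

open Ent Filter Topology in
open Crest.AnalysisR in
/-- Zero entropy. Tools for `labelEntropy` of measurable labellings into finite types: `H (f ∘ Y) ≤ H Y`,
`H (Y, Z) ≤ H Y + H Z`, `H Y ≤ log card`, `H (Y ∘ T) = H Y`. Given `P` and `δ`, approximate `P` by `P'`, a function of
`(pos e, sgn e)` for some `e`, with `μ {P ≠ P'} ≤ δ` (the levels generate: e.g.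
`MeasureTheory.exists_measure_symmDiff_lt_of_generateFrom_isSetRing`, the finite unions of levels of one stage form a
ring; `(pos e, sgn e)` is a function of `(pos (e+1), sgn (e+1))`). The `P`-name is a function of the `P'`-name and of
the name of the error label `x ↦ if P x = P' x then none else some (P x)`, whose entropy tends to `0` with `δ`.
For `q = ht κ e'`, `e' ≥ e`, the `P'`-name of length `q` is a function of
`(pos e' x, sgn e' x, sgn e' (T^[q - pos e' x] x))` (`step`, `wrap`), so its entropy is `≤ log (4 q)`. Subadditivity: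
`H_n ≤ (n / q + 1) H_q`. -/
theorem Tower.zeroEntropy {X : Type*} [MeasurableSpace X] {μ : Measure X} [IsProbabilityMeasure μ]
    {T : X → X} {lab : X → Bool} {κ : ℕ → ℕ} {β : ℕ → ℕ → Bool} (tw : Tower μ T lab κ β)
    (hT : MeasurePreserving T μ μ) (hκ : ∀ e, 1 ≤ κ e) : HasZeroEntropy μ T := by
  intro m P hP
  have hP' : MF P := fun a => hP (measurableSet_singleton a)
  refine Metric.tendsto_atTop.2 fun ε hε => ?_
  obtain ⟨δ, hδ, herr⟩ := ent_err (μ := μ) m (show 0 < ε / 3 by positivity)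
  obtain ⟨e, g, hg⟩ := approx tw hP' hδ
  have hlog : Tendsto (fun q : ℕ => Real.log (4 * q) / q) atTop (𝓝 0) := by
    have h1 := (Real.isLittleO_log_id_atTop.tendsto_div_nhds_zero.comp
      (tendsto_natCast_atTop_atTop.const_mul_atTop (show (0 : ℝ) < 4 by norm_num))).const_mul 4
    rw [mul_zero] at h1
    refine h1.congr fun q => ?_
    simp only [Function.comp_apply, id]
    ring
  obtain ⟨q₀, hq₀⟩ := Metric.tendsto_atTop.1 hlog (ε / 3) (by positivity)
  obtain ⟨f, hf⟩ := tw.factor (le_max_left e q₀)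
  let q := ht κ (max e q₀)
  let l : Level μ T lab q (wd κ β (max e q₀)) := tw.lev (max e q₀)
  have hq : 0 < q := ht_pos _ _
  have hq' : (0 : ℝ) < q := by exact_mod_cast hq
  have h1 : Real.log (4 * q) / q < ε / 3 :=
    (le_abs_self _).trans_lt (by
      simpa [abs_div] using hq₀ q ((le_max_right e q₀).trans (le_ht κ hκ _).le))
  let P' : X → Fin m := fun x => (g ∘ f) (l.pos x, l.sgn x)
  have hP'' : MF P' := lev_mf l _
  let Er : X → Option (Fin m) := fun x => if P' x = P x then none else some (P x)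
  have hEr : MF Er := (hP''.pair hP').comp fun z => if z.1 = z.2 then none else some z.2
  have h2 : labelEntropy μ Er ≤ ε / 3 := herr Er hEr (by
    convert hg using 2
    ext x
    simp [Er, P', l, hf])
  obtain ⟨N, hN⟩ := exists_nat_gt (Real.log (4 * q) / (ε / 3))
  refine ⟨N + 1, fun n hn => ?_⟩
  have hn0 : (0 : ℝ) < n := by exact_mod_cast (show 0 < n by omega)
  have hnN : (N : ℝ) ≤ n := by exact_mod_cast (show N ≤ n by omega)
  have h3 : labelEntropy μ (nm T P n) ≤ labelEntropy μ (nm T P' n) + labelEntropy μ (nm T Er n) := by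
    have a1 := hP''.nm hT.measurable n
    have a2 := hEr.nm hT.measurable n
    refine le_trans (le_of_eq ?_) ((ent_comp (a1.pair a2) fun z j => (z.2 j).getD (z.1 j)).trans
      (ent_pair a1 a2))
    congr 1
    funext x j
    simp only [nm, Er]
    split_ifs with h
    · exact h.symm
    · rfl
  have hl0 : 0 ≤ Real.log (4 * q) := by exact_mod_cast Real.log_natCast_nonneg (4 * q)
  have h4 : labelEntropy μ (nm T P' n) ≤ (n / q + 1) * Real.log (4 * q) := by
    refine (ent_nm_mono hP'' hT.measurable (show n ≤ (n / q + 1) * q by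
      rw [add_mul, one_mul]; exact (Nat.lt_div_mul_add hq).le)).trans
      ((ent_nm_mul hP'' hT q _).trans (mul_le_mul ?_ (lev_ent l hT.measurable _) (ent_nonneg _)
        (by positivity)))
    push_cast
    exact add_le_add_left Nat.cast_div_le 1
  have h5 := (ent_nm_le hEr hT n).trans (mul_le_mul_of_nonneg_left h2 hn0.le)
  rw [dist_zero_right, Real.norm_of_nonneg (div_nonneg (ent_nonneg _) hn0.le), div_lt_iff₀ hn0]
  refine lt_of_le_of_lt (h3.trans (add_le_add h4 h5)) ?_
  rw [div_lt_iff₀ (by positivity)] at hN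
  have h6 := mul_lt_mul_of_pos_left h1 hn0
  have h7 := mul_le_mul_of_nonneg_right hnN (show 0 ≤ ε / 3 by positivity)
  have e : (n / q + 1) * Real.log (4 * q) = n * (Real.log (4 * q) / q) + Real.log (4 * q) := by ring
  rw [e]
  linarith

end Crest.Agent.R133
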