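import Crest.Agent.R133.Defs
import Crest.Agent.R133.Comb
import Crest.Agent.R133.Code
set_option autoImplicit false

namespace Crest.Agent.R133

open MeasureTheory Set
open scoped ENNReal 

lemma ep_dec (y L r : ℕ) (hr : r < L) : (y * L + r) % L = r ∧ (y * L + r) / L = y := by
  have hL : 0 < L := by omega
  rw [add_comm, Nat.add_mul_mod_self_right, Nat.mod_eq_of_lt hr, Nat.add_mul_div_right _ _ hL,
    Nat.div_eq_of_lt hr, zero_add]
  exact ⟨rfl, rfl⟩

/-- A word read along consecutive blocks. -/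
def bw {σ : Type*} (enc : σ → ℕ → Bool) (W₀ : ℕ → Bool) (q L' : ℕ) (S : ℕ → σ) (r : ℕ) (e : Bool)
    (n : ℕ) (i : Fin n) : Bool :=
  xor e (xor (W₀ ((r + i) % q)) (enc (S ((r + i) / q / L')) ((r + i) / q % L')))

open Finset in
lemma bw_dist {σ : Type*} {enc : σ → ℕ → Bool} {L' : ℕ}
    (henc : ∀ a b, a ≠ b → L' ≤ 16 * #{i ∈ range L' | enc a i ≠ enc b i}) (W₀ : ℕ → Bool)
    {q N r : ℕ} (hr : r < q * L') (S S' : ℕ → σ) (e : Bool) (K : Finset (Fin N))
    (hK : ∀ k ∈ K, S (k + 1) ≠ S' (k + 1)) :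
    q * L' * #K ≤ 16 * hammingDist (bw enc W₀ q L' S r e ((N + 1) * (q * L')))
      (bw enc W₀ q L' S' r e ((N + 1) * (q * L'))) := by
  have hn : 0 < (N + 1) * (q * L') := Nat.mul_pos N.succ_pos (by omega)
  let F : Finset (Σ _ : Fin N, ℕ × ℕ) :=
    K.sigma fun k => {i ∈ range L' | enc (S (k + 1)) i ≠ enc (S' (k + 1)) i} ×ˢ range q
  let f : (Σ _ : Fin N, ℕ × ℕ) → Fin ((N + 1) * (q * L')) :=
    fun x => ⟨((((x.1 + 1) * L' + x.2.1) * q + x.2.2) - r) % _, Nat.mod_lt _ hn⟩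
  have hf : ∀ x ∈ F, r + f x = ((x.1 + 1) * L' + x.2.1) * q + x.2.2 := fun x hx => by
    simp only [F, mem_sigma, mem_product, mem_filter, Finset.mem_range] at hx
    have h1 := Nat.mul_le_mul_right q (show (x.1 + 1) * L' + x.2.1 + 1 ≤ (N + 1) * L' by
      have := Nat.mul_le_mul_right L' (show x.1 + 1 + 1 ≤ N + 1 by omega)
      nlinarith)
    have h2 : q * L' ≤ ((x.1 + 1) * L' + x.2.1) * q := by nlinarith [Nat.zero_le (x.1 * L' * q)]
    simp only [f]
    rw [Nat.mod_eq_of_lt (by nlinarith [Nat.sub_le (((x.1 + 1) * L' + x.2.1) * q + x.2.2) r])]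
    omega
  have hd : ∀ x ∈ F, (r + f x) % q = x.2.2 ∧ (r + f x) / q / L' = x.1 + 1 ∧
      (r + f x) / q % L' = x.2.1 := fun x hx => by
    rw [hf x hx]
    simp only [F, mem_sigma, mem_product, mem_filter, Finset.mem_range] at hx
    rw [(ep_dec _ _ _ hx.2.2).1, (ep_dec _ _ _ hx.2.2).2, (ep_dec _ _ _ hx.2.1.1).1,
      (ep_dec _ _ _ hx.2.1.1).2]
    exact ⟨rfl, rfl, rfl⟩
  refine le_trans ?_ (Nat.mul_le_mul_left 16 (card_le_card_of_injOn (s := F) f (fun x hx => ?_)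
    fun x hx y hy h => ?_))
  · simp only [F, card_sigma, card_product, card_range, mul_sum]
    rw [mul_comm, ← smul_eq_mul]
    refine card_nsmul_le_sum _ _ _ fun k hk => ?_
    rw [← mul_assoc, mul_comm]
    exact Nat.mul_le_mul_right q (henc _ _ (hK k hk))
  · obtain ⟨-, h2, h3⟩ := hd x hx
    simp only [F, coe_sigma, Set.mem_sigma_iff, mem_coe, mem_product, mem_filter] at hx
    simpa [bw, h2, h3] using hx.2.1.2
  · have h1 := hd x hx
    have h2 := hd y hy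
    rw [h] at h1
    exact Sigma.ext (Fin.ext (by omega)) (heq_of_eq (Prod.ext (by omega) (by omega)))

lemma bw_det {σ : Type*} (enc : σ → ℕ → Bool) (W₀ : ℕ → Bool) {q L' N r : ℕ} (hr : r < q * L')
    {S S' : ℕ → σ} (e : Bool) (h0 : S 0 = S' 0) (h1 : S (N + 1) = S' (N + 1))
    (h : ∀ k : Fin N, S (k + 1) = S' (k + 1)) :
    bw enc W₀ q L' S r e ((N + 1) * (q * L')) = bw enc W₀ q L' S' r e ((N + 1) * (q * L')) := by
  funext i
  have h2 : (r + i) / q / L' < N + 2 := by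
    rw [Nat.div_div_eq_div_mul, Nat.div_lt_iff_lt_mul (by omega)]
    nlinarith [i.2]
  simp only [bw]
  generalize (r + i) / q / L' = k at h2
  rcases k with _ | k
  · rw [h0]
  rcases (Nat.lt_succ_iff.1 (Nat.succ_lt_succ_iff.1 h2)).eq_or_lt with rfl | h3
  · rw [h1]
  · rw [h ⟨k, h3⟩]

open Finset in
lemma ep_fibre {Q : Type*} [Fintype Q] [DecidableEq Q] {N J : ℕ} {φ : Fin N → Fin J}
    (hφ : Function.Injective φ) (u : Fin N → Q) :
    #{f : Fin J → Q | (fun k => f (φ k)) = u} * Fintype.card Q ^ N ≤ Fintype.card Q ^ J := by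
  have := card_le_card_of_injOn
    (s := (univ.filter fun f : Fin J → Q => (fun k => f (φ k)) = u) ×ˢ (univ : Finset (Fin N → Q)))
    (t := univ)
    (fun x => Function.extend φ x.2 x.1) (fun _ _ => mem_univ _) fun x hx y hy h => ?_
  · simpa using this
  simp only [coe_product, Set.mem_prod, mem_coe, mem_filter] at hx hy
  refine Prod.ext (funext fun i => ?_) (funext fun k => ?_)
  · by_cases hi : ∃ k, φ k = i
    · obtain ⟨k, rfl⟩ := hi
      exact congrFun (hx.1.2.trans hy.1.2.symm) k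
    · simpa [Function.extend_apply' _ _ _ hi] using congrFun h i
  · simpa [hφ.extend_apply] using congrFun h (φ k)

lemma Level.iter {X : Type*} [MeasurableSpace X] {μ : Measure X} {T : X → X} {lab : X → Bool}
    {h : ℕ} {W : ℕ → Bool} (lv : Level μ T lab h W) (x : X) (i : ℕ) (hi : lv.pos x + i < h) :
    lv.pos (T^[i] x) = lv.pos x + i ∧ lv.sgn (T^[i] x) = lv.sgn x := by
  induction i with
  | zero => exact ⟨rfl, rfl⟩
  | succ i ih =>
    obtain ⟨h1, h2⟩ := ih (by omega)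
    have := lv.step (T^[i] x) (by omega)
    rw [Function.iterate_succ_apply', this.1, this.2, h1, h2]
    exact ⟨rfl, rfl⟩

open Finset in
lemma ep_pair {Ω C : Type*} [Fintype Ω] [Fintype C] [DecidableEq C] (f g : Ω → C)
    (G : C × C → Prop) [DecidablePred G] (α β : Ω → ℝ) :
    ∑ c with G c, (∑ ω with f ω = c.1, α ω) * (∑ ω with g ω = c.2, β ω) =
      ∑ ω, ∑ ω', if G (f ω, g ω') then α ω * β ω' else 0 := by
  have : ∀ c : C × C, (if G c then (∑ ω with f ω = c.1, α ω) * (∑ ω with g ω = c.2, β ω) else 0) =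
      ∑ ω, ∑ ω', if (f ω, g ω') = c then (if G (f ω, g ω') then α ω * β ω' else 0) else 0 := by
    rintro ⟨c, c'⟩
    simp only [sum_mul_sum, sum_filter, Prod.mk.injEq]
    split_ifs with h
    · exact sum_congr rfl fun _ _ => sum_congr rfl fun _ _ => by split_ifs <;> simp_all
    · exact (sum_eq_zero fun _ _ => sum_eq_zero fun _ _ => by split_ifs <;> simp_all).symm
  rw [sum_filter, sum_congr rfl fun c _ => this c, sum_comm]
  refine sum_congr rfl fun ω _ => ?_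
  rw [sum_comm]
  simp

open Finset in
lemma ep_cnt {A J R : Type*} [Fintype A] [Fintype J] [Fintype R] (p : A → J → Prop)
    [∀ a j, Decidable (p a j)] {c d : ℝ} (hc : 0 ≤ c) (h : ∀ j, #{a | p a j} ≤ d) :
    ∑ ω : Bool × Bool × A × J × R with p ω.2.2.1 ω.2.2.2.1, c ≤
      2 * (2 * (Fintype.card J * (Fintype.card R * (d * c)))) := by
  have h1 : ∑ a, ∑ j, ∑ _r : R, (if p a j then c else 0) ≤
      Fintype.card J * (Fintype.card R * (d * c)) := by
    rw [sum_comm, ← nsmul_eq_mul, ← card_univ]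
    refine sum_le_card_nsmul _ _ _ fun j _ => ?_
    simp only [sum_const, card_univ, nsmul_eq_mul]
    rw [← mul_sum, ← sum_filter, sum_const, nsmul_eq_mul]
    gcongr
    exact h j
  rw [sum_filter]
  simp only [Fintype.sum_prod_type, Fintype.sum_bool]
  linarith

open Classical Finset in
/-- One scale. -/
lemma ep_scale {σ : Type} [Fintype σ] {q L' m J A N : ℕ} {ε γ : ℝ} {τ : Type} [Fintype τ]
    {enc : σ → ℕ → Bool} (henc : ∀ a b, a ≠ b → L' ≤ 16 * #{i ∈ range L' | enc a i ≠ enc b i})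
    (hq : 0 < q) (hL' : 0 < L') (hm : 1000 ≤ m) (hN : 1 ≤ N) (hJ : 2 * (N + 1) ≤ J)
    (u : Fin A ≃ (Fin J → Fin m → ZMod 2)) (sym : ℕ → ℕ → σ)
    (e : σ ≃ (Fin m → ZMod 2) × τ) (tag : τ → ZMod 2)
    (hsym : ∀ (a : Fin A) (j : Fin J), (e (sym a j)).1 = u a j)
    (htag : ∀ a j, tag (e (sym a (j + (N + 1)))).2 =
      ∑ i, (e (sym a j)).1 i * (e (sym a (j + (N + 1)))).1 i)
    (b : ℕ → Bool) (hb : ∀ (h : Bool) a j r, a < A → j < J → r < L' →
      b (((h.toNat * A + a) * J + j) * L' + r) = xor h (enc (sym a j) r))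
    (hΘ : 2 * (q * L') ≤ 2 ^ N) (hΥ : Fintype.card τ ^ N * Fintype.card σ ^ 2 ≤ 2 ^ (m * N / 200))
    (h1 : 2 * (N + 1 : ℝ) ≤ ε * J) (h2 : 2 * (q * L' : ℝ) * (9 / 10) ^ N ≤ ε)
    (h3 : (1 / 2 : ℝ) ^ (m * N / 100) ≤ Real.exp (-(γ * ((N + 1) * (q * L') : ℕ))))
    (W₀ : ℕ → Bool) {X : Type} [MeasurableSpace X] (μ : Measure X) [IsProbabilityMeasure μ]
    (T : X → X) (lab : X → Bool) {H : ℕ} (hH : H = 2 * A * J * L')
    (lv : Level μ T lab (q * H) (fun p => xor (W₀ (p % q)) (b (p / q)))) :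
    HardAt μ T lab ((N + 1) * (q * L')) ε γ := by
  have hL : 0 < q * L' := Nat.mul_pos hq hL'
  have hA : 0 < A := Fin.pos (u.symm 0)
  have hJ0 : 0 < J := by omega
  let Ω := Bool × Bool × Fin A × Fin (J - 2 * (N + 1)) × Fin (q * L')
  let P : Ω → ℕ := fun ω => ((ω.2.1.toNat * A + ω.2.2.1) * J + ω.2.2.2.1) * (q * L') + ω.2.2.2.2
  let atom : Ω → Set X := fun ω => {x | lv.pos x = P ω ∧ lv.sgn x = ω.1}
  let wd : ℕ → Ω → Fin ((N + 1) * (q * L')) → Bool := fun o ω =>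
    bw enc W₀ q L' (fun k => sym ω.2.2.1 (ω.2.2.2.1 + k + o)) ω.2.2.2.2 (xor ω.1 ω.2.1) _
  have hP : ∀ ω i, i < 2 * (N + 1) * (q * L') → P ω + i < q * H := fun ω i hi => by
    have h4 : ω.2.1.toNat * A + ω.2.2.1 + 1 ≤ 2 * A := by
      have := Nat.mul_le_mul_right A ω.2.1.toNat_le
      have := ω.2.2.1.2
      omega
    have h5 : (ω.2.1.toNat * A + ω.2.2.1) * J + ω.2.2.2.1 + 1 + 2 * (N + 1) ≤ 2 * A * J := by
      have := Nat.mul_le_mul_right J h4
      rw [add_mul, one_mul] at this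
      have := ω.2.2.2.1.2
      omega
    have h6 := Nat.mul_le_mul_right (q * L') h5
    have := ω.2.2.2.2.2
    rw [hH, mul_left_comm]
    rw [add_mul, add_mul] at h6
    simp only [P]
    omega
  have hw : ∀ ω, ∀ x ∈ atom ω, ∀ o, o ≤ N + 1 →
      word T lab (o * (q * L')) ((N + 1) * (q * L')) x = wd o ω := fun ω x hx o ho => by
    funext i
    have h4 : o * (q * L') + i < 2 * (N + 1) * (q * L') := by
      have := Nat.mul_le_mul_right (q * L') ho
      have := i.2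
      rw [mul_assoc]
      omega
    obtain ⟨h5, h6⟩ := lv.iter x (o * (q * L') + i) (hx.1 ▸ hP ω _ h4)
    have h7 : (ω.2.2.2.2 + i : ℕ) / q / L' < N + 2 := by
      rw [Nat.div_div_eq_div_mul, Nat.div_lt_iff_lt_mul hL]
      nlinarith [i.2, ω.2.2.2.2.2]
    have h8 : P ω + (o * (q * L') + i) = (((ω.2.1.toNat * A + ω.2.2.1) * J + (ω.2.2.2.1 +
        (ω.2.2.2.2 + i) / q / L' + o)) * L' + (ω.2.2.2.2 + i) / q % L') * q +
          (ω.2.2.2.2 + i) % q := by
      have e1 := Nat.div_add_mod (ω.2.2.2.2 + i) q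
      have e2 := Nat.div_add_mod ((ω.2.2.2.2 + i) / q) L'
      simp only [P]
      generalize (ω.2.2.2.2 + i : ℕ) / q / L' = c1 at *
      generalize (ω.2.2.2.2 + i : ℕ) / q % L' = c2 at *
      rw [← e2] at e1
      linear_combination -e1
    have h9 := ep_dec (((ω.2.1.toNat * A + ω.2.2.1) * J + (ω.2.2.2.1 +
      (ω.2.2.2.2 + i) / q / L' + o)) * L' + (ω.2.2.2.2 + i) / q % L') q _ (Nat.mod_lt (ω.2.2.2.2 + i) hq)
    have := ω.2.2.2.1.2
    simp only [word, wd, bw]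
    rw [lv.lab_eq, h5, h6, hx.1, hx.2, h8, h9.1, h9.2,
      hb _ _ _ _ ω.2.2.1.2 (by omega) (Nat.mod_lt _ hL')]
    simp only [Bool.xor_assoc, Bool.xor_left_comm]
  have hmeas : ∀ ω, MeasurableSet (atom ω) := fun ω =>
    (lv.meas_pos (measurableSet_singleton _)).inter (lv.meas_sgn (measurableSet_singleton _))
  have hdisj : Pairwise (Function.onFun Disjoint atom) := fun ω ω' h =>
    Set.disjoint_left.2 fun x hx hx' => h (by
      obtain ⟨s, hf, a, j, r⟩ := ω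
      obtain ⟨s', hf', a', j', r'⟩ := ω'
      have h4 := hx.1.symm.trans hx'.1
      simp only [P] at h4
      have e1 := ep_dec ((hf.toNat * A + a) * J + j) _ _ r.2
      rw [h4, (ep_dec _ _ _ r'.2).1, (ep_dec _ _ _ r'.2).2] at e1
      have e2 := ep_dec (hf.toNat * A + a) J j (by omega)
      rw [← e1.2, (ep_dec _ J j' (by omega)).1, (ep_dec _ J j' (by omega)).2] at e2
      have e3 := ep_dec hf.toNat _ _ a.2
      rw [← e2.2, (ep_dec _ _ _ a'.2).1, (ep_dec _ _ _ a'.2).2] at e3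
      rw [show s = s' from hx.2.symm.trans hx'.2, Fin.ext e1.1, Fin.ext e2.1, Fin.ext e3.1,
        show hf' = hf by revert e3; cases hf <;> cases hf' <;> simp])
  have hμ : ∀ ω, μ.real (atom ω) = 1 / (4 * A * J * (q * L')) := fun ω => by
    rw [measureReal_def, lv.level (P ω) _ (hP ω 0 (by positivity)), hH]
    simp only [ENNReal.toReal_inv, ENNReal.toReal_mul, ENNReal.toReal_natCast, Nat.cast_mul,
      ENNReal.toReal_ofNat, Nat.cast_ofNat, one_div]
    ring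
  have hsum : ∑ ω, μ.real (atom ω) = 1 - 2 * (N + 1) / J := by
    simp only [hμ, sum_const, card_univ, Ω, Fintype.card_prod, Fintype.card_bool, Fintype.card_fin,
      nsmul_eq_mul]
    push_cast [Nat.cast_sub hJ]
    field_simp
    ring
  have hsplit : ∀ B : Set X, MeasurableSet B → B ⊆ ⋃ ω, atom ω →
      ∑ ω, μ.real (B ∩ atom ω) = μ.real B := fun B hB hB' => by
    rw [← measureReal_iUnion_fintype (fun ω ω' h => (hdisj h).mono Set.inter_subset_right
      Set.inter_subset_right) fun ω => hB.inter (hmeas ω), ← inter_iUnion, Set.inter_eq_left.2 hB']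
  have hle : ∀ B : Set X, B ⊆ ⋃ ω, atom ω → ∀ o, o ≤ N + 1 → ∀ p,
      μ.real (B ∩ word T lab (o * (q * L')) ((N + 1) * (q * L')) ⁻¹' {p}) ≤
        ∑ ω with wd o ω = p, μ.real (B ∩ atom ω) := fun B hB o ho p => by
    refine (measureReal_mono (fun x hx => ?_) (measure_ne_top _ _)).trans
      (measureReal_biUnion_finset_le _ _)
    obtain ⟨ω, hω⟩ := mem_iUnion.1 (hB hx.1)
    exact Set.mem_biUnion (mem_filter.2 ⟨mem_univ ω, (hw ω x hω o ho).symm.trans hx.2⟩) ⟨hx.1, hω⟩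
  have hfib : ∀ o, o ≤ N + 1 → ∀ v : Fin N → Fin m → ZMod 2, ∑ ω : Ω with (fun k : Fin N =>
      (e (sym ω.2.2.1 (ω.2.2.2.1 + (k + 1) + o))).1) = v, μ.real (atom ω) ≤ (1 / 2) ^ (m * N) := by
    intro o ho v
    have h4 : ∀ j : Fin (J - 2 * (N + 1)), (#{a : Fin A | (fun k : Fin N =>
        (e (sym a (j + (k + 1) + o))).1) = v} : ℝ) ≤ A * (1 / 2) ^ (m * N) := fun j => by
      have h5 := ep_fibre (φ := fun k : Fin N => (⟨j + (k + 1) + o, by omega⟩ : Fin J))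
        (fun k k' h => Fin.ext (by simpa using h)) v
      have h6 : Fintype.card (Fin m → ZMod 2) ^ J = A := by simpa using (Fintype.card_congr u).symm
      rw [h6, Fintype.card_fun, ZMod.card, Fintype.card_fin, ← pow_mul,
        ← card_equiv u (s := {a : Fin A | (fun k : Fin N => (e (sym a (j + (k + 1) + o))).1) = v})
          fun a => by simp [← hsym]] at h5
      rw [one_div, inv_pow, ← div_eq_mul_inv, le_div_iff₀ (by positivity)]
      exact_mod_cast h5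
    simp only [hμ]
    refine (ep_cnt (fun (a : Fin A) (j : Fin (J - 2 * (N + 1))) => (fun k : Fin N =>
      (e (sym a (j + (k + 1) + o))).1) = v) (by positivity) h4).trans ?_
    have h6 : ((J - 2 * (N + 1) : ℕ) : ℝ) ≤ J := Nat.cast_le.2 (Nat.sub_le _ _)
    simp only [Fintype.card_fin]
    refine (show _ ≤ 2 * (2 * (J * ((q * L' : ℕ) * (A * (1 / 2) ^ (m * N) *
      (1 / (4 * A * J * (q * L') : ℝ)))))) by gcongr).trans_eq ?_
    push_cast
    field_simp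
    norm_num
  refine ⟨⋃ ω, atom ω, univ.filter fun c => ∃ z, 100000 * hammingDist c.1 (wd 0 z) ≤
    (N + 1) * (q * L') ∧ 100000 * hammingDist c.2 (wd (N + 1) z) ≤ (N + 1) * (q * L'),
    .iUnion hmeas, ?_, fun x hx p p' h4 h5 => ?_, fun B B' hB hB' h4 h5 => ?_⟩
  · rw [← ofReal_measureReal]
    refine ENNReal.ofReal_le_ofReal ?_
    rw [measureReal_compl (.iUnion hmeas), measureReal_iUnion_fintype hdisj hmeas, hsum,
      probReal_univ, sub_sub_cancel, div_le_iff₀ (by positivity)]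
    exact h1
  · obtain ⟨ω, hω⟩ := mem_iUnion.1 hx
    have h6 := hw ω x hω 0 (Nat.zero_le _)
    rw [zero_mul] at h6
    exact mem_filter.2 ⟨mem_univ _, ω, h6 ▸ h4, hw ω x hω _ le_rfl ▸ h5⟩
  have hdet : ∀ o (ω ω' : Ω), (ω.2.2.2.2, xor ω.1 ω.2.1) = (ω'.2.2.2.2, xor ω'.1 ω'.2.1) →
      ((fun k : Fin N => (e (sym ω.2.2.1 (ω.2.2.2.1 + (k + 1) + o))).1) =
        fun k : Fin N => (e (sym ω'.2.2.1 (ω'.2.2.2.1 + (k + 1) + o))).1) →
      ((fun k : Fin N => (e (sym ω.2.2.1 (ω.2.2.2.1 + (k + 1) + o))).2),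
        sym ω.2.2.1 (ω.2.2.2.1 + 0 + o), sym ω.2.2.1 (ω.2.2.2.1 + (N + 1) + o)) =
      ((fun k : Fin N => (e (sym ω'.2.2.1 (ω'.2.2.2.1 + (k + 1) + o))).2),
        sym ω'.2.2.1 (ω'.2.2.2.1 + 0 + o), sym ω'.2.2.1 (ω'.2.2.2.1 + (N + 1) + o)) →
      wd o ω = wd o ω' := fun o ω ω' h6 h7 h8 => by
    simp only [Prod.mk.injEq] at h6 h8
    simp only [wd, ← h6.1, ← h6.2]
    exact bw_det enc W₀ ω.2.2.2.2.2 _ h8.2.1 h8.2.2 fun k =>
      e.injective (Prod.ext (congrFun h7 k) (congrFun h8.1 k))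
  have hc := comb m N ((N + 1) * (q * L')) (q * L') hm hN hL (by nlinarith)
    (fun ω => μ.real (atom ω)) (by rw [hsum]; simp; positivity) (wd 0) (wd (N + 1))
    (fun ω => (ω.2.2.2.2, xor ω.1 ω.2.1))
    (fun ω k => (e (sym ω.2.2.1 (ω.2.2.2.1 + (k + 1) + 0))).1)
    (fun ω k => (e (sym ω.2.2.1 (ω.2.2.2.1 + (k + 1) + (N + 1)))).1)
    (fun ω k => tag (e (sym ω.2.2.1 (ω.2.2.2.1 + (k + 1) + (N + 1)))).2) _ _
    (fun ω k => htag _ _) (fun ω ω' h => ?_) (fun ω ω' h => ?_) (hfib 0 (Nat.zero_le _))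
    (hfib _ le_rfl) (hdet 0) (hdet (N + 1)) (by simpa [mul_comm] using hΘ)
    (by simpa [sq] using hΥ) (fun ω => μ.real (B ∩ atom ω)) (fun ω => μ.real (B' ∩ atom ω))
    (fun _ => measureReal_nonneg) (fun _ => measureReal_nonneg)
    (fun _ => measureReal_mono Set.inter_subset_right)
    (fun _ => measureReal_mono Set.inter_subset_right)
  rotate_left
  · simp only [Prod.mk.injEq] at h
    simp only [wd, ← h.1, ← h.2]
    exact bw_dist henc W₀ ω.2.2.2.2.2 _ _ _ _ fun k hk h' =>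
      (mem_filter.1 hk).2 (by beta_reduce at h' ⊢; rw [h'])
  · simp only [Prod.mk.injEq] at h
    simp only [wd, ← h.1, ← h.2]
    exact bw_dist henc W₀ ω.2.2.2.2.2 _ _ _ _ fun k hk h' =>
      (mem_filter.1 hk).2 (by beta_reduce at h' ⊢; rw [h'])
  have hε : 0 ≤ ε := le_trans (by positivity) h2
  rw [hsplit B hB h4, hsplit B' hB' h5] at hc
  simp only [← ofReal_measureReal (measure_ne_top μ _),
    ← ENNReal.ofReal_mul measureReal_nonneg, ← ENNReal.ofReal_mul hε,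
    ← ENNReal.ofReal_mul (mul_nonneg hε measureReal_nonneg)]
  rw [← ENNReal.ofReal_sum_of_nonneg fun _ _ => by positivity,
    ← ENNReal.ofReal_add (by positivity) (by positivity)]
  refine ENNReal.ofReal_le_ofReal (le_trans ?_ (hc.trans (add_le_add ?_ h3)))
  · refine (sum_le_sum fun c _ => mul_le_mul (zero_mul (q * L') ▸ hle B h4 0 (Nat.zero_le _) c.1)
      (hle B' h5 _ le_rfl c.2) measureReal_nonneg
      (sum_nonneg fun _ _ => measureReal_nonneg)).trans_eq ?_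
    exact ep_pair (wd 0) (wd (N + 1)) _ _ _
  · gcongr
    simpa [mul_comm] using h2

/-- One epoch of the construction. Parameters: `L' = 2^λ` (code length), `m = L'/8`, `N₀ = L'/4096` tags,
`γ = 1/(2000 q)`, block length `L = q L'`, `ℓ = 2^{s₀} L`, `J = 2^{s₀ + N₀ + 1 + s₁}` blocks per array, `𝒜 = 2^{m J}` arrays,
`2^κ = 2 𝒜 J L'`. `λ` is large so that `m ≥ 1000` and `ε γ^4 N₀ ≥ 1`; `s₀ ≥ 10` is large so that
`2 L (9/10)^{2^{s₀} - 1} ≤ ε`, `2 L ≤ 2^{2^{s₀} - 1}`, `ε γ^4 ℓ ≥ 1`; `s₁` with `2 / 2^{s₁} ≤ ε`.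
Arrays: an equivalence `u : Fin 𝒜 ≃ (Fin J → Fin m → ZMod 2)`; symbol of block `j` of array `a`:
`(u a j, fun s : Fin N₀ => if 2^{s₀+s} ≤ j then ⟨u a (j - 2^{s₀+s}), u a j⟩ else 0)`; `enc` from `exists_code L'`.
`b i = xor (decide (𝒜 J L' ≤ i)) (enc (sym a j) r')` with `r' = i % L'`, `j = i / L' % J`, `a = i / (L' J) % 𝒜`; the two
halves are complementary, so `b` is balanced. At scale `s`, `n = 2^{s₀+s} L`, `N = 2^{s₀+s} - 1`;
`Ev = {j(pos) + 2^{s₀+s+1} + 1 ≤ J}` where `j(p) = p / L % J`; atoms `ω = (p, σ)` with `p < q 2^κ` in `Ev`, weight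
`1/(2 q 2^κ)`; phase `θ = (p % L, xor σ half)`; `U k = u a (j+1+k)`, `V k = u a (j + 2^{s₀+s} + 1 + k)`, `t k` = tag `s` of that
block; `Y` = (tags of the `N` full blocks, symbols of the two partial blocks). On `Ev` the names are read inside one array:
`lab (T^[i] x) = σ xor W₀ ((p+i) % q) xor half xor enc (sym a (j + (p % L + i) / L)) ((p % L + i) % L / q)`.
`C = {(p', q') | ∃ z, close}`; apply `comb` with `α ω = ν.real (A ∩ atom ω)`; finally
`(1/2)^(m N / 100) ≤ exp (-(γ n))`. -/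
theorem epoch (ε : ℝ) (hε : 0 < ε) (q : ℕ) (hq : 0 < q) :
    ∃ (κ : ℕ) (b : ℕ → Bool) (γ : ℝ) (ℓ N : ℕ), 1 ≤ κ ∧ Balanced (2 ^ κ) b ∧ 0 < γ ∧ γ ≤ 1 ∧
      1 ≤ ε * γ ^ 4 * N ∧ 1 ≤ ε * γ ^ 4 * ℓ ∧
      ∀ (W₀ : ℕ → Bool) (X : Type) [MeasurableSpace X] (μ : Measure X) [IsProbabilityMeasure μ]
        (T : X → X) (lab : X → Bool),
        Level μ T lab (q * 2 ^ κ) (fun p => xor (W₀ (p % q)) (b (p / q))) →
        ∀ s < N, HardAt μ T lab (2 ^ s * ℓ) ε γ := by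
  classical
  have hq1 : (1 : ℝ) ≤ q := Nat.one_le_cast.2 hq
  set γ : ℝ := 1 / (2000 * q) with hγ
  have hγ0 : 0 < γ := by positivity
  have hγ1 : γ ≤ 1 := by rw [hγ, div_le_one (by positivity)]; linarith
  obtain ⟨l, hl⟩ := pow_unbounded_of_one_lt (max 2 (1 / (ε * γ ^ 4))) (one_lt_two (α := ℝ))
  obtain ⟨N₀, hN₀⟩ : ∃ N₀ : ℕ, N₀ = 2 ^ l := ⟨_, rfl⟩
  rw [show (2 : ℝ) ^ l = N₀ by simp [hN₀], max_lt_iff, div_lt_iff₀' (by positivity)] at hl
  have hN2 : 2 < N₀ := by exact_mod_cast hl.1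
  obtain ⟨n₀, hn₀⟩ := exists_pow_lt_of_lt_one
    (show 0 < min ε 1 / (2 * (q * (4096 * N₀ : ℕ) : ℝ)) by positivity) (show (9 / 10 : ℝ) < 1 by norm_num)
  rw [lt_div_iff₀' (by positivity), lt_min_iff] at hn₀
  obtain ⟨J, hJ⟩ : ∃ J : ℕ, J = 2 ^ (n₀ + 10 + N₀ + 1 + l) := ⟨_, rfl⟩
  obtain ⟨A, hA⟩ : ∃ A : ℕ, A = 2 ^ (512 * N₀ * J) := ⟨_, rfl⟩
  obtain ⟨enc, henc⟩ := exists_code (4096 * N₀) ((Fin (512 * N₀) → ZMod 2) × (Fin N₀ → ZMod 2)) (by
    simp only [Fintype.card_prod, Fintype.card_fun, ZMod.card, Fintype.card_fin, ← pow_add]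
    exact Nat.pow_le_pow_right two_pos (by omega))
  let u : Fin A ≃ (Fin J → Fin (512 * N₀) → ZMod 2) := Fintype.equivOfCardEq (by
    simp only [Fintype.card_fun, ZMod.card, Fintype.card_fin, ← pow_mul, hA])
  let ua : ℕ → ℕ → Fin (512 * N₀) → ZMod 2 := fun a j =>
    if h : a < A ∧ j < J then u ⟨a, h.1⟩ ⟨j, h.2⟩ else 0
  let sym : ℕ → ℕ → (Fin (512 * N₀) → ZMod 2) × (Fin N₀ → ZMod 2) := fun a j =>
    (ua a j, fun s => ∑ i, ua a (j - 2 ^ (n₀ + 10 + s)) i * ua a j i)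
  let g : ℕ → Bool := fun i => enc (sym (i / (4096 * N₀) / J) (i / (4096 * N₀) % J)) (i % (4096 * N₀))
  obtain ⟨K, hK⟩ : ∃ K, K = A * J * (4096 * N₀) := ⟨_, rfl⟩
  have hκ : 2 ^ (1 + 512 * N₀ * J + (n₀ + 10 + N₀ + 1 + l) + (12 + l)) = K + K := by
    rw [pow_add, pow_add, pow_add, ← hJ, ← hA, pow_add, ← hN₀, hK]
    ring
  refine ⟨1 + 512 * N₀ * J + (n₀ + 10 + N₀ + 1 + l) + (12 + l),
    fun i => xor (decide (K ≤ i)) (g (i % K)), γ, 2 ^ (n₀ + 10) * (q * (4096 * N₀)), N₀, by omega,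
    ?_, hγ0, hγ1, hl.2.le, hl.2.le.trans ?_, fun W₀ X _ μ _ T lab lv s hs => ?_⟩
  · rw [Balanced, hκ, Finset.card_filter, Finset.sum_range_add, ← Finset.sum_add_distrib, two_mul,
      Finset.sum_congr rfl (g := fun _ => 1) fun i hi => ?_]
    · simp
    · have := Finset.mem_range.1 hi
      simp only [Nat.add_mod_left, Nat.le_add_right, decide_true, this.not_ge, decide_false]
      cases g (i % K) <;> simp
  · gcongr
    nlinarith [Nat.one_le_two_pow (n := n₀ + 10), Nat.mul_le_mul_right (4096 * N₀) hq]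
  obtain ⟨N, hN⟩ : ∃ N, 2 ^ (n₀ + 10 + s) = N + 1 := ⟨_, (Nat.succ_pred_eq_of_pos (by positivity)).symm⟩
  have hN1 : 1023 ≤ N := by
    have := Nat.pow_le_pow_right two_pos (show 10 ≤ n₀ + 10 + s by omega)
    omega
  have hN3 : n₀ ≤ N := by
    have := Nat.lt_two_pow_self (n := n₀ + 10 + s)
    omega
  have h9 : (9 / 10 : ℝ) ^ N ≤ (9 / 10) ^ n₀ := pow_le_pow_of_le_one (by norm_num) (by norm_num) hN3
  have hJ' : 2 * (N + 1) * N₀ ≤ J := by
    rw [← hN, hJ, pow_add _ _ l, ← hN₀, ← pow_succ']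
    exact Nat.mul_le_mul_right _ (Nat.pow_le_pow_right two_pos (by omega))
  have hx := Nat.mul_le_mul_left N₀ hN1
  rw [← mul_assoc, ← pow_add, add_comm s, hN]
  refine ep_scale henc hq (by omega) (by omega) (by omega) (by nlinarith) u sym (Equiv.refl _)
    (fun t => t ⟨s, hs⟩) (fun a j => dif_pos ⟨a.2, j.2⟩) (fun a j => ?_)
    (fun i => xor (decide (K ≤ i)) (g (i % K))) (fun h a j r ha hj hr => ?_) ?_ ?_ ?_ ?_ ?_ W₀ μ T lab
    (hκ.trans (by rw [hK]; ring)) lv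
  · simp only [sym, Equiv.refl_apply, hN, Nat.add_sub_cancel]
  · have h1 : (a * J + j) * (4096 * N₀) + r < K := by
      have := Nat.mul_le_mul_right (4096 * N₀) (show a * J + j + 1 ≤ A * J by
        nlinarith [Nat.mul_le_mul_right J ha])
      rw [hK]
      nlinarith
    rw [show ((h.toNat * A + a) * J + j) * (4096 * N₀) + r =
      h.toNat * K + ((a * J + j) * (4096 * N₀) + r) by rw [hK]; ring, (ep_dec _ _ _ h1).1]
    simp only [g, (ep_dec _ _ _ hr).1, (ep_dec _ _ _ hr).2, (ep_dec _ _ _ hj).1, (ep_dec _ _ _ hj).2]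
    cases h <;> simp [h1.not_ge]
  · have h1 : (2 * (q * (4096 * N₀ : ℕ)) : ℝ) * (1 / 2) ^ N ≤ 1 :=
      le_trans (mul_le_mul_of_nonneg_left ((pow_le_pow_left₀ (by norm_num) (by norm_num) N).trans h9)
        (by positivity)) hn₀.2.le
    rw [one_div, inv_pow, ← div_eq_mul_inv, div_le_one (by positivity)] at h1
    exact_mod_cast h1
  · simp only [Fintype.card_prod, Fintype.card_fun, ZMod.card, Fintype.card_fin, ← pow_add,
      ← pow_mul]
    refine Nat.pow_le_pow_right two_pos ?_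
    rw [mul_assoc]
    omega
  · have h1 : (2 * (N + 1) * N₀ : ℝ) ≤ J := by exact_mod_cast hJ'
    have h2 : 1 ≤ ε * N₀ := hl.2.le.trans (by
      gcongr
      exact mul_le_of_le_one_right hε.le (pow_le_one₀ hγ0.le hγ1))
    nlinarith [mul_le_mul_of_nonneg_left h1 hε.le]
  · exact le_trans (by gcongr) hn₀.1.le
  · have h1 : (N + 1) * (4096 * N₀) ≤ 1000 * (512 * N₀ * N / 100) := by
      rw [mul_assoc, add_mul, mul_left_comm, mul_comm N]
      omega
    have h2 : ((N + 1) * (4096 * N₀) : ℝ) ≤ 1000 * (512 * N₀ * N / 100 : ℕ) := by exact_mod_cast h1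
    refine (pow_le_pow_left₀ (by norm_num) (show (1 / 2 : ℝ) ≤ Real.exp (-(1 / 2)) by
      linarith [Real.add_one_le_exp (-(1 / 2))]) _).trans ?_
    rw [← Real.exp_nat_mul, Real.exp_le_exp, show γ * ((N + 1) * (q * (4096 * N₀)) : ℕ) =
      (N + 1) * (4096 * N₀) / 2000 by rw [hγ]; push_cast; field_simp]
    linarith

end Crest.Agent.R133
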