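import Crest.Agent.R133.Gram

set_option autoImplicit false

namespace Crest.Agent.R133

open MeasureTheory Set
open scoped ENNReal 

variable {d : ℕ}

theorem cpr_step (A : ℕ → (E d →L[ℝ] E d)) {a m : ℕ} (h : a ≤ m) (v : E d) :
    cpr A a (m + 1 - a) v = A m (cpr A a (m - a) v) := by
  obtain ⟨k, rfl⟩ := Nat.exists_eq_add_of_le h
  rw [add_assoc, Nat.add_sub_cancel_left, Nat.add_sub_cancel_left]
  rfl

theorem cpr_le' {Λ : ℝ} (hΛ : 1 ≤ Λ) {A : ℕ → (E d →L[ℝ] E d)} (hA : ∀ m, ‖A m‖ ≤ Λ) (a : ℕ)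
    {m w : ℕ} (h : m ≤ w) (v : E d) : ‖cpr A a m v‖ ≤ Λ ^ w * ‖v‖ :=
  (cpr_le hA a m v).trans (mul_le_mul_of_nonneg_right (pow_le_pow_right₀ hΛ h) (norm_nonneg _))

/-- Moving the base time back by at most `w` steps. Transport `v` forward to `j'` along an orbit `u`, split there into
`y', z'`, take `z = z'` and `y m = if m ≤ j' then u m - z' m else y' m`. -/
theorem split_shift (Λ R : ℝ) (hΛ : 1 ≤ Λ) (hR : 0 ≤ R) (A : ℕ → (E d →L[ℝ] E d))
    (hA : ∀ m, ‖A m‖ ≤ Λ) (M j j' w : ℕ) (hj : j ≤ j') (hw : j' ≤ j + w) (hM : j' ≤ M)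
    (h : Split A M j' 0 R) : Split A M j 0 ((R + 1) * Λ ^ w) := by
  intro v
  obtain ⟨y, z, h1, h2, h3, h4, h5⟩ := h (cpr A j (j' - j) v)
  simp only [zero_mul, Real.exp_zero, mul_one] at h4 h5 ⊢
  have h6 : R * ‖cpr A j (j' - j) v‖ ≤ R * (Λ ^ w * ‖v‖) :=
    mul_le_mul_of_nonneg_left (cpr_le' hΛ hA j (by omega) v) hR
  have h7 : 0 ≤ Λ ^ w * ‖v‖ := by positivity
  refine ⟨fun m => if m ≤ j' then cpr A j (m - j) v - z m else y m, z, by simp [hj, cpr],
    fun m hm hm' => ?_, fun m hm => h3 m (by omega), fun m hm hm' => ?_,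
    fun m hm => (h5 m (by omega)).trans (by linarith)⟩ <;> beta_reduce
  · rcases lt_trichotomy m j' with h | rfl | h
    · simp only [if_pos (Nat.succ_le_of_lt h), if_pos h.le, cpr_step A hm, h3 m h, map_sub]
    · simp only [Nat.not_succ_le_self, if_false, le_refl, if_true, h2 m le_rfl hm', ← h1,
        add_sub_cancel_right]
    · rw [if_neg (by omega), if_neg (by omega), h2 m h.le hm']
  · split_ifs with h
    · linarith [norm_sub_le (cpr A j (m - j) v) (z m), h5 m h,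
        cpr_le' hΛ hA j (show m - j ≤ w by omega) v]
    · linarith [h4 m (by omega) hm']

theorem Split.pulse {C : ℕ → (E d →L[ℝ] E d)} {M : ℕ} {R : ℝ} {m₀ : ℕ}
    (h : Split C M (m₀ + 1) 0 R) (e : E d) : ∃ p : ℕ → E d,
      (∀ m < M, p (m + 1) = C m (p m) + if m = m₀ then e else 0) ∧
      ∀ m ≤ M, ‖p m‖ ≤ R * ‖e‖ := by
  obtain ⟨y, z, h1, h2, h3, h4, h5⟩ := h e
  simp only [zero_mul, Real.exp_zero, mul_one] at h4 h5
  refine ⟨fun m => if m₀ < m then y m else -z m, fun m hm => ?_, fun m hm => ?_⟩ <;> beta_reduce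
  · rcases lt_trichotomy m m₀ with h | rfl | h
    · rw [if_neg h.ne, if_neg (by omega), if_neg (by omega), h3 m (by omega), map_neg, add_zero]
    · rw [if_pos rfl, if_pos (by omega), if_neg (by omega), map_neg, ← h3 m (by omega), ← h1]
      abel
    · rw [if_neg h.ne', if_pos h, if_pos (by omega), h2 m h hm, add_zero]
  · split_ifs with h
    · exact h4 m h hm
    · rw [norm_neg]; exact h5 m (by omega)

theorem split_hyb {Λ R g ζ : ℝ} (hΛ : 1 ≤ Λ) (hR : 1 ≤ R) (hg0 : 0 ≤ g) (hζ : 0 ≤ ζ)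
    {A B : ℕ → (E d →L[ℝ] E d)} (hBn : ∀ m, ‖B m‖ ≤ Λ) {n t : ℕ} (ht : t ≤ n)
    (hB : Split B (2 * n) (n - t) 0 R) (hg : Split A (2 * n) n g R)
    (hAB : ∀ m, n - t ≤ m → m < n → ‖A m - B m‖ ≤ ζ) (v : E d) : ∃ y b : ℕ → E d,
      ‖v - y n - b n‖ ≤ (t * ζ * R * Λ ^ t + R ^ 2 * Real.exp (-(g * t))) * ‖v‖ ∧
      (∀ m, n ≤ m → m < 2 * n → y (m + 1) = A m (y m)) ∧ (∀ m < n, b (m + 1) = B m (b m)) ∧
      (∀ m, n ≤ m → m ≤ 2 * n → ‖y m‖ ≤ R * Real.exp (g * n) * ‖v‖) ∧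
      ∀ m ≤ n, ‖b m‖ ≤ (R * Λ ^ t + R ^ 2) * ‖v‖ := by
  obtain ⟨y, z, h1, h2, h3, h4, h5⟩ := hg v
  obtain ⟨a, rfl⟩ := Nat.exists_eq_add_of_le' ht
  rw [Nat.add_sub_cancel] at hB hAB
  obtain ⟨y', z', k1, k2, k3, k4, k5⟩ := hB (z a)
  simp only [zero_mul, Real.exp_zero, mul_one] at k4 k5
  have hv := norm_nonneg v
  have z1 : ∀ m ≤ a + t, ‖z m‖ ≤ R * ‖v‖ := fun m hm => (h5 m hm).trans <| by
    have h6 : (m : ℝ) - (a + t : ℕ) ≤ 0 := sub_nonpos.2 (by exact_mod_cast hm)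
    have h7 := Real.exp_le_one_iff.2 (mul_nonpos_of_nonneg_of_nonpos hg0 h6)
    gcongr
    nlinarith
  have z2 : ‖z a‖ ≤ R * Real.exp (-(g * t)) * ‖v‖ := by
    simpa using h5 a (by omega)
  have z3 : ∀ k ≤ t, ‖z (a + k) - cpr B a k (z a)‖ ≤ k * ζ * R * Λ ^ k * ‖v‖ := fun k hk => by
    induction k with
    | zero => simp [cpr]
    | succ k ih =>
      have e1 : z (a + (k + 1)) - cpr B a (k + 1) (z a) = B (a + k) (z (a + k) - cpr B a k (z a)) +
          (A (a + k) - B (a + k)) (z (a + k)) := by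
        simp [← add_assoc, h3 (a + k) (by omega), cpr]
      have e2 := ((B (a + k)).le_opNorm _).trans
        (mul_le_mul (hBn _) (ih (by omega)) (norm_nonneg _) (by linarith))
      have e3 := ((A (a + k) - B (a + k)).le_opNorm _).trans
        (mul_le_mul (hAB _ (by omega) (by omega)) (z1 (a + k) (by omega)) (norm_nonneg _) hζ)
      have e4 : ζ * (R * ‖v‖) * 1 ≤ ζ * (R * ‖v‖) * Λ ^ (k + 1) :=
        mul_le_mul_of_nonneg_left (one_le_pow₀ hΛ) (by positivity)
      rw [e1]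
      refine (norm_add_le _ _).trans ((add_le_add e2 e3).trans ?_)
      push_cast
      rw [pow_succ] at e4 ⊢
      linarith
  have z4 : R * ‖z a‖ ≤ R * (R * ‖v‖) := by gcongr; exact z1 a (by omega)
  have z5 : Λ ^ t * ‖z a‖ ≤ Λ ^ t * (R * ‖v‖) := by gcongr; exact z1 a (by omega)
  have z6 : 0 ≤ Λ ^ t * (R * ‖v‖) := by positivity
  refine ⟨y, fun m => if m < a then z' m else cpr B a (m - a) (z a) - y' m, ?_, h2, fun m hm => ?_,
    fun m hm hm' => (h4 m hm hm').trans ?_, fun m hm => ?_⟩ <;> beta_reduce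
  · have e1 : v - y (a + t) - (cpr B a t (z a) - y' (a + t)) =
        z (a + t) - cpr B a t (z a) + y' (a + t) := by rw [← h1]; abel
    rw [if_neg (by omega), Nat.add_sub_cancel_left, e1]
    have e2 := mul_le_mul_of_nonneg_left z2 (by linarith : 0 ≤ R)
    linarith [norm_add_le (z (a + t) - cpr B a t (z a)) (y' (a + t)), z3 t le_rfl,
      k4 (a + t) (by omega) (by omega)]
  · rcases lt_trichotomy (m + 1) a with h | rfl | h
    · rw [if_pos h, if_pos (by omega), k3 m (by omega)]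
    · rw [if_neg (by omega), if_pos (by omega), ← k3 m (by omega), Nat.sub_self, ← k1]
      simp [cpr]
    · rw [if_neg (by omega), if_neg (by omega), cpr_step B (by omega), k2 m (by omega) (by omega),
        map_sub]
  · have e1 : (m : ℝ) ≤ (2 * (a + t) : ℕ) := by exact_mod_cast hm'
    gcongr
    push_cast at e1 ⊢
    linarith
  · split_ifs with h
    · linarith [k5 m h.le]
    · linarith [norm_sub_le (cpr B a (m - a) (z a)) (y' m), k4 m (by omega) (by omega),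
        cpr_le' hΛ hBn a (show m - a ≤ t by omega) (z a)]

theorem green_of_pulse {H : ℕ → (E d →L[ℝ] E d)} {M : ℕ} {K δ : ℝ} (hK : 0 ≤ K) (hδ : 0 ≤ δ)
    (h : ∀ m₀ < M, ∀ e : E d, ∃ Y r : ℕ → E d, (∀ m < M, ‖r m‖ ≤ δ * ‖e‖) ∧
      (∀ m < M, Y (m + 1) = H m (Y m) + (if m = m₀ then e else 0) + r m) ∧
      ∀ m ≤ M, ‖Y m‖ ≤ K * ‖e‖) (hs : 2 * M * d * δ ≤ 1) : Green H M (2 * M * d * K) := by
  choose Y r h1 h2 h3 using fun p : Fin M × Fin d => h p.1 p.1.2 (EuclideanSpace.single p.2 1)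
  simp only [PiLp.norm_single, norm_one, mul_one] at h1 h3
  let c : Fin M × Fin d → ((Fin M → E d) →L[ℝ] ℝ) := fun p =>
    (EuclideanSpace.proj p.2).comp (ContinuousLinearMap.proj p.1)
  have bd : ∀ (k : ℕ) (W : Fin M × Fin d → Fin k → E d) (C : ℝ), 0 ≤ C → (∀ p m, ‖W p m‖ ≤ C) →
      ∀ e, ‖(∑ p, (c p).smulRight (W p)) e‖ ≤ M * d * C * ‖e‖ := fun k W C hC hW e => by
    rw [sum_apply]
    refine (norm_sum_le _ _).trans ((Finset.sum_le_card_nsmul _ _ (‖e‖ * C) fun p _ => ?_).trans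
      (le_of_eq (by simp; ring)))
    rw [ContinuousLinearMap.smulRight_apply, norm_smul]
    exact mul_le_mul ((PiLp.norm_apply_le (e p.1) p.2).trans (norm_le_pi_norm e p.1))
      ((pi_norm_le_iff_of_nonneg hC).2 (hW p)) (norm_nonneg _) (norm_nonneg _)
  have b1 := bd (M + 1) (fun p m => Y p m) K hK fun p m => h3 p m (by omega)
  have b2 := bd M (fun p m => r p m) δ hδ fun p m => h1 p m m.2
  set G := ∑ p, (c p).smulRight fun m : Fin (M + 1) => Y p m with hG
  set Q := ∑ p, (c p).smulRight fun m : Fin M => r p m with hQ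
  have b3 : ∀ e, ‖Q e‖ ≤ 1 / 2 * ‖e‖ := fun e => (b2 e).trans (by gcongr; linarith)
  have b4 : ∀ e (m : Fin M), G e m.succ = H m (G e m.castSucc) + (e + Q e) m := fun e m => by
    have e1 : e m = ∑ p : Fin M × Fin d, c p e •
        if (m : ℕ) = p.1 then EuclideanSpace.single p.2 (1 : ℝ) else 0 := by
      rw [Fintype.sum_prod_type, Finset.sum_eq_single m (fun b _ hb => by
        simp [Fin.val_eq_val, hb.symm]) (by simp)]
      ext i
      simp [c, Pi.single_apply]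
    simp only [hG, hQ, sum_apply, ContinuousLinearMap.smulRight_apply,
      Finset.sum_apply, Pi.smul_apply, Fin.val_succ, Fin.val_castSucc, Pi.add_apply, map_sum,
      map_smul, fun p => h2 p m m.2, smul_add, Finset.sum_add_distrib, ← e1, add_assoc]
  let u := Units.oneSub (-Q) (by
    rw [norm_neg]; exact (Q.opNorm_le_bound (by norm_num) b3).trans_lt (by norm_num))
  have b5 : ∀ e, u.inv e + Q (u.inv e) = e := fun e => by
    simpa [u] using congrArg (· e) u.val_inv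
  refine ⟨G.comp u.inv, ContinuousLinearMap.opNorm_le_bound _ (by positivity) fun e =>
    (b1 _).trans ?_, fun e m => by simp only [ContinuousLinearMap.comp_apply, b4, b5]⟩
  have b6 := norm_sub_le (u.inv e + Q (u.inv e)) (Q (u.inv e))
  rw [add_sub_cancel_right, b5] at b6
  have b7 : M * d * K * ‖u.inv e‖ ≤ M * d * K * (2 * ‖e‖) := by
    gcongr; linarith [b3 (u.inv e)]
  exact b7.trans_eq (by ring)

/-- A bounded Green operator for the hybrid cocycle (past of `B`, future of `A`).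
Step 1 (approximate hybrid splitting at time `n`): split `v` by `hg` into `y, z`; `c = z (n-t)` has norm
`≤ R exp (-g t) ‖v‖`; let `u` be the `B`-orbit of `c` on `[n-t, n]`, `‖u n - z n‖ ≤ t ζ R Λ^t ‖v‖`; split `c` by `hB (n-t)`
into `y'', z''`; `b m = if m ≤ n-t then z'' m else u m - y'' m` is a `B`-orbit on `[0,n]` bounded by `(R Λ^t + R²) ‖v‖`;
`v = y n + b n + rem`, `‖rem‖ ≤ (t ζ R Λ^t + R² exp (-g t)) ‖v‖`, and `‖y m‖ ≤ R exp (g n) ‖v‖` on `[n, 2n]`.
Step 2 (one error `e` at step `m₀`, `j = m₀ + 1`): if `n < j`, split `e` by `hA j` into `y, z`, take `y` on `[j,2n]`, `-z` on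
`[n, j)`, apply step 1 to `-z n`, subtract its forward part on `[n,2n]` and use its backward part on `[0,n)`; if `j ≤ n`
do the same with `hB j`. The result solves the equation up to an error `± rem` at step `n-1`, and is bounded by
`4 R³ exp (g n) Λ^t ‖e‖`. Step 3: do this on the `2 n d` basis vectors to get a linear `G₀`, `‖L G₀ - 1‖ ≤ 1/2`, and put
`G = G₀ (L G₀)⁻¹` (Neumann series, `Units.oneSub`). -/
theorem green_hyb (Λ R g ζ : ℝ) (hΛ : 1 ≤ Λ) (hR : 1 ≤ R) (hg0 : 0 ≤ g) (hζ : 0 ≤ ζ)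
    (A B : ℕ → (E d →L[ℝ] E d)) (hAn : ∀ m, ‖A m‖ ≤ Λ) (hBn : ∀ m, ‖B m‖ ≤ Λ)
    (n t : ℕ) (hn : 1 ≤ n) (ht : t ≤ n)
    (hA : ∀ j ≤ 2 * n, Split A (2 * n) j 0 R) (hB : ∀ j ≤ 2 * n, Split B (2 * n) j 0 R)
    (hg : Split A (2 * n) n g R)
    (hAB : ∀ m, n - t ≤ m → m < n → ‖A m - B m‖ ≤ ζ)
    (hsmall : 4 * n * d * R * (t * ζ * R * Λ ^ t + R ^ 2 * Real.exp (-(g * t))) ≤ 1) :
    Green (hyb n B A) (2 * n) (16 * n * d * R ^ 3 * Real.exp (g * n) * Λ ^ t) := by
  have x1 : 1 ≤ Real.exp (g * n) := Real.one_le_exp (by positivity)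
  have x2 : 1 ≤ Λ ^ t := one_le_pow₀ hΛ
  set δ := t * ζ * R * Λ ^ t + R ^ 2 * Real.exp (-(g * t)) with hδ
  have δ0 : 0 ≤ δ := by positivity
  have sp := split_hyb hΛ hR hg0 hζ hBn ht (hB _ (by omega)) hg hAB
  set X := Real.exp (g * n)
  set P := Λ ^ t
  have y1 : R ≤ R ^ 3 * X * P := by
    calc R = R ^ 1 * 1 * 1 := by ring
      _ ≤ _ := by gcongr; norm_num
  have y2 : R * X * R ≤ R ^ 3 * X * P := by
    calc R * X * R = R ^ 2 * X * 1 := by ring
      _ ≤ _ := by gcongr; norm_num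
  have y3 : (R * P + R ^ 2) * R ≤ 2 * (R ^ 3 * X * P) := by
    calc (R * P + R ^ 2) * R = R ^ 2 * 1 * P + R ^ 3 * 1 * 1 := by ring
      _ ≤ R ^ 3 * X * P + R ^ 3 * X * P := by gcongr; norm_num
      _ = _ := by ring
  convert green_of_pulse (H := hyb n B A) (M := 2 * n) (K := 4 * (R ^ 3 * X * P)) (δ := δ * R)
    (by positivity) (by positivity) (fun m₀ hm₀ e => ?_) (by push_cast; linarith) using 1
  · push_cast; ring
  have he := norm_nonneg e
  replace y1 := mul_le_mul_of_nonneg_right y1 he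
  replace y2 := mul_le_mul_of_nonneg_right y2 he
  replace y3 := mul_le_mul_of_nonneg_right y3 he
  have y0 : 0 ≤ R * ‖e‖ := by positivity
  have key : ∀ v : E d, ‖v‖ ≤ R * ‖e‖ → ∃ y b : ℕ → E d, ‖v - y n - b n‖ ≤ δ * R * ‖e‖ ∧
      (∀ m, n ≤ m → m < 2 * n → y (m + 1) = A m (y m)) ∧ (∀ m < n, b (m + 1) = B m (b m)) ∧
      (∀ m, n ≤ m → m ≤ 2 * n → ‖y m‖ ≤ R ^ 3 * X * P * ‖e‖) ∧
      ∀ m ≤ n, ‖b m‖ ≤ 2 * (R ^ 3 * X * P) * ‖e‖ := fun v hv => by
    obtain ⟨y, b, h1, h2, h3, h4, h5⟩ := sp v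
    refine ⟨y, b, h1.trans ?_, h2, h3, fun m hm hm' => (h4 m hm hm').trans (le_trans ?_ y2),
      fun m hm => (h5 m hm).trans (le_trans ?_ y3)⟩ <;>
    · rw [mul_assoc _ R ‖e‖]; gcongr
  rcases lt_or_ge m₀ n with h | h
  · obtain ⟨p, p1, p2⟩ := (hB _ hm₀).pulse e
    obtain ⟨y, b, h1, h2, h3, h4, h5⟩ := key (p n) (p2 n (by omega))
    refine ⟨fun m => if m < n then p m - b m else y m,
      fun m => if m + 1 = n then -(p n - y n - b n) else 0, fun m hm => ?_, fun m hm => ?_,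
      fun m hm => ?_⟩ <;> beta_reduce
    · split_ifs
      · rwa [norm_neg]
      · rw [norm_zero]; positivity
    · rcases lt_trichotomy (m + 1) n with k | rfl | k
      · simp only [hyb, if_pos k, if_pos (Nat.lt_of_succ_lt k), if_neg k.ne, p1 m hm,
          h3 m (by omega), map_sub]
        abel
      · simp only [hyb, lt_irrefl, if_false, Nat.lt_succ_self, if_true, p1 m hm,
          h3 m (by omega), map_sub]
        abel
      · simp only [hyb, if_neg k.not_gt, if_neg (show ¬ m < n by omega), if_neg k.ne',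
          if_neg (show m ≠ m₀ by omega), h2 m (by omega) hm, add_zero]
    · split_ifs with k
      · linarith [norm_sub_le (p m) (b m), p2 m hm, h5 m k.le]
      · linarith [h4 m (by omega) hm]
  · obtain ⟨p, p1, p2⟩ := (hA _ hm₀).pulse e
    obtain ⟨y, b, h1, h2, h3, h4, h5⟩ := key (p n) (p2 n (by omega))
    refine ⟨fun m => if m < n then b m else p m - y m,
      fun m => if m + 1 = n then p n - y n - b n else 0, fun m hm => ?_, fun m hm => ?_,
      fun m hm => ?_⟩ <;> beta_reduce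
    · split_ifs
      · exact h1
      · rw [norm_zero]; positivity
    · rcases lt_trichotomy (m + 1) n with k | rfl | k
      · simp only [hyb, if_pos k, if_pos (Nat.lt_of_succ_lt k), if_neg k.ne,
          if_neg (show m ≠ m₀ by omega), h3 m (by omega), add_zero]
      · simp only [hyb, lt_irrefl, if_false, Nat.lt_succ_self, if_true,
          if_neg (show m ≠ m₀ by omega), h3 m (by omega)]
        abel
      · simp only [hyb, if_neg k.not_gt, if_neg (show ¬ m < n by omega), if_neg k.ne', p1 m hm,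
          h2 m (by omega) hm, map_sub]
        abel
    · split_ifs with k
      · linarith [h5 m k.le]
      · linarith [norm_sub_le (p m) (y m), p2 m hm, h4 m (by omega) hm]

end Crest.Agent.R133
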