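import Crest.Agent.R133.Defs

set_option autoImplicit false

namespace Crest.Agent.R133

open Real

theorem Split.mono {d : ℕ} {A : ℕ → (E d →L[ℝ] E d)} {M j : ℕ} {θ R R' : ℝ}
    (h : Split A M j θ R) (hR : R ≤ R') : Split A M j θ R' := by
  intro v
  obtain ⟨y, z, h1, h2, h3, h4, h5⟩ := h v
  refine ⟨y, z, h1, h2, h3, fun m a b => (h4 m a b).trans ?_, fun m a => (h5 m a).trans ?_⟩ <;>
    gcongr

theorem numA (Λ c X Y P F R n d t : ℝ) (hΛ : 1 ≤ Λ) (hc : 1 ≤ c) (hn : 1 ≤ n) (hd : 0 ≤ d)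
    (ht0 : 0 ≤ t) (ht : t ≤ n) (hX1 : 1 ≤ X) (hXY : X ^ 20 ≤ Y) (hP0 : 0 ≤ P) (hP : P ≤ Y)
    (hF0 : 0 ≤ F) (hF : F ≤ 3 * (X ^ 20)⁻¹) (hR0 : 0 ≤ R) (hR : R ≤ c * X ^ 2)
    (hB : 24 * (d + 1) * c ^ 3 * Λ * n ^ 2 ≤ X) :
    4 * n * d * R * (t * (P * Λ * (Y ^ 10)⁻¹) * R * P + R ^ 2 * F) ≤ 1 := by
  have hY1 : 1 ≤ Y := (one_le_pow₀ hX1).trans hXY
  have hc3 : c ^ 2 ≤ c ^ 3 := pow_le_pow_right₀ hc (by norm_num)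
  have hn2 : n ≤ n ^ 2 := by nlinarith
  have h1 : 4 * n * d * R * (t * (P * Λ * (Y ^ 10)⁻¹) * R * P) ≤ 1 / 2 := by
    have h2 : 8 * d * c ^ 2 * Λ * n ^ 2 ≤ X := by
      refine le_trans ?_ hB
      gcongr <;> linarith
    have h5 : X ^ 5 ≤ Y ^ 8 :=
      ((pow_le_pow_right₀ hX1 (by norm_num)).trans hXY).trans (le_self_pow₀ hY1 (by norm_num))
    calc 4 * n * d * R * (t * (P * Λ * (Y ^ 10)⁻¹) * R * P)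
        ≤ 4 * n * d * (c * X ^ 2) * (n * (Y * Λ * (Y ^ 10)⁻¹) * (c * X ^ 2) * Y) := by gcongr
      _ = (8 * d * c ^ 2 * Λ * n ^ 2) * X ^ 4 * (Y ^ 8)⁻¹ / 2 := by field_simp; ring
      _ ≤ X * X ^ 4 * (Y ^ 8)⁻¹ / 2 := by gcongr
      _ = X ^ 5 * (Y ^ 8)⁻¹ / 2 := by ring
      _ ≤ Y ^ 8 * (Y ^ 8)⁻¹ / 2 := by gcongr
      _ = 1 / 2 := by field_simp
  have h2 : 4 * n * d * R * (R ^ 2 * F) ≤ 1 / 2 := by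
    have h3 : 24 * d * c ^ 3 * n ≤ X := by
      refine le_trans ?_ hB
      calc 24 * d * c ^ 3 * n = 24 * d * c ^ 3 * 1 * n := by ring
        _ ≤ 24 * (d + 1) * c ^ 3 * Λ * n ^ 2 := by gcongr; linarith
    have h7 : X ^ 7 ≤ X ^ 20 := pow_le_pow_right₀ hX1 (by norm_num)
    calc 4 * n * d * R * (R ^ 2 * F)
        ≤ 4 * n * d * (c * X ^ 2) * ((c * X ^ 2) ^ 2 * (3 * (X ^ 20)⁻¹)) := by gcongr
      _ = (24 * d * c ^ 3 * n) * X ^ 6 * (X ^ 20)⁻¹ / 2 := by ring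
      _ ≤ X * X ^ 6 * (X ^ 20)⁻¹ / 2 := by gcongr
      _ = X ^ 7 * (X ^ 20)⁻¹ / 2 := by ring
      _ ≤ X ^ 20 * (X ^ 20)⁻¹ / 2 := by gcongr
      _ = 1 / 2 := by field_simp
  rw [mul_add]
  linarith

theorem numB (Λ c X Y P R n d : ℝ) (hΛ : 1 ≤ Λ) (hc : 1 ≤ c) (hn : 1 ≤ n) (hd : 0 ≤ d)
    (hX1 : 1 ≤ X) (hXY : X ^ 20 ≤ Y) (hP0 : 0 ≤ P) (hP : P ≤ Y)
    (hR0 : 0 ≤ R) (hR : R ≤ c * X ^ 2) (hB : 24 * (d + 1) * c ^ 3 * Λ * n ^ 2 ≤ X) :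
    16 * n * d * R ^ 3 * Y * P ≤ Y ^ 3 := by
  have hY1 : 1 ≤ Y := (one_le_pow₀ hX1).trans hXY
  have hn2 : n ≤ n ^ 2 := by nlinarith
  have h1 : 16 * n * d * c ^ 3 ≤ X := by
    refine le_trans ?_ hB
    calc 16 * n * d * c ^ 3 = 16 * d * c ^ 3 * 1 * n := by ring
      _ ≤ 24 * (d + 1) * c ^ 3 * Λ * n ^ 2 := by gcongr <;> linarith
  have h7 : X ^ 7 ≤ Y := (pow_le_pow_right₀ hX1 (by norm_num)).trans hXY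
  calc 16 * n * d * R ^ 3 * Y * P ≤ 16 * n * d * (c * X ^ 2) ^ 3 * Y * Y := by gcongr
    _ = (16 * n * d * c ^ 3) * X ^ 6 * Y ^ 2 := by ring
    _ ≤ X * X ^ 6 * Y ^ 2 := by gcongr
    _ = X ^ 7 * Y ^ 2 := by ring
    _ ≤ Y * Y ^ 2 := by gcongr
    _ = Y ^ 3 := by ring

theorem numC (Λ c X Y P W n d : ℝ) (hΛ : 1 ≤ Λ) (hc : 1 ≤ c) (hn : 1 ≤ n) (hd : 0 ≤ d)
    (hX1 : 1 ≤ X) (hXY : X ^ 20 ≤ Y) (hP : P ≤ Y) (hW : W ≤ Y ^ 3)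
    (hB : 24 * (d + 1) * c ^ 3 * Λ * n ^ 2 ≤ X) :
    4 * (W * (2 * Λ * (Y ^ 5)⁻¹)) * (d * (2 * n + 1) + 1) ≤ 1 ∧
    8 * (W * (2 * (Y ^ 10)⁻¹)) ≤ (Y ^ 5)⁻¹ ∧ P * Λ * (Y ^ 10)⁻¹ ≤ 2 * (Y ^ 5)⁻¹ := by
  have hY1 : 1 ≤ Y := (one_le_pow₀ hX1).trans hXY
  have hXY1 : X ≤ Y := (le_self_pow₀ hX1 (by norm_num)).trans hXY
  have hY2 : Y ≤ Y ^ 2 := le_self_pow₀ hY1 (by norm_num)
  have hc31 : 1 ≤ c ^ 3 := one_le_pow₀ hc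
  have hn21 : 1 ≤ n ^ 2 := one_le_pow₀ hn
  have hΛX : Λ ≤ X := by
    refine le_trans ?_ hB
    calc Λ = 1 * 1 * 1 * Λ * 1 := by ring
      _ ≤ 24 * (d + 1) * c ^ 3 * Λ * n ^ 2 := by gcongr <;> linarith
  have h24 : 24 ≤ X := by
    refine le_trans ?_ hB
    calc (24 : ℝ) = 24 * 1 * 1 * 1 * 1 := by ring
      _ ≤ 24 * (d + 1) * c ^ 3 * Λ * n ^ 2 := by gcongr; linarith
  refine ⟨?_, ?_, ?_⟩
  · have h2 : 8 * Λ * (d * (2 * n + 1) + 1) ≤ Y ^ 2 := by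
      refine le_trans ?_ (hB.trans (hXY1.trans hY2))
      have h3 : d * (2 * n + 1) + 1 ≤ 3 * (d + 1) * n ^ 2 := by
        have : 2 * n + 1 ≤ 3 * n ^ 2 := by nlinarith
        nlinarith
      calc 8 * Λ * (d * (2 * n + 1) + 1) ≤ 8 * Λ * (3 * (d + 1) * n ^ 2) := by gcongr
        _ = 24 * (d + 1) * 1 * Λ * n ^ 2 := by ring
        _ ≤ 24 * (d + 1) * c ^ 3 * Λ * n ^ 2 := by gcongr
    calc 4 * (W * (2 * Λ * (Y ^ 5)⁻¹)) * (d * (2 * n + 1) + 1)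
        ≤ 4 * (Y ^ 3 * (2 * Λ * (Y ^ 5)⁻¹)) * (d * (2 * n + 1) + 1) := by gcongr
      _ = (8 * Λ * (d * (2 * n + 1) + 1)) * (Y ^ 2)⁻¹ := by field_simp; ring
      _ ≤ Y ^ 2 * (Y ^ 2)⁻¹ := by gcongr
      _ = 1 := by field_simp
  · have h16 : 16 ≤ Y ^ 2 := by linarith
    calc 8 * (W * (2 * (Y ^ 10)⁻¹)) ≤ 8 * (Y ^ 3 * (2 * (Y ^ 10)⁻¹)) := by gcongr
      _ = 16 * (Y ^ 2)⁻¹ * (Y ^ 5)⁻¹ := by field_simp; ring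
      _ ≤ Y ^ 2 * (Y ^ 2)⁻¹ * (Y ^ 5)⁻¹ := by gcongr
      _ = (Y ^ 5)⁻¹ := by field_simp
  · have hΛY : Λ ≤ Y := hΛX.trans hXY1
    have h3 : (Y ^ 3)⁻¹ ≤ 2 := (inv_le_one_of_one_le₀ (one_le_pow₀ hY1)).trans (by norm_num)
    calc P * Λ * (Y ^ 10)⁻¹ ≤ Y * Y * (Y ^ 10)⁻¹ := by gcongr
      _ = (Y ^ 3)⁻¹ * (Y ^ 5)⁻¹ := by field_simp
      _ ≤ 2 * (Y ^ 5)⁻¹ := by gcongr

/-- All the exponent bookkeeping. `α = a n`, `β = g n`. -/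
theorem numerics (Λ c K α β g : ℝ) (d n w t : ℕ) (hΛ : 1 ≤ Λ) (hc : 1 ≤ c) (hn : 1 ≤ n)
    (hα : 0 ≤ α) (hαβ : 20 * α ≤ β) (hgβ : g * n = β)
    (hw : Λ ^ w ≤ exp α) (ht : Λ ^ t ≤ exp β) (htn : t ≤ n) (hgt : 20 * α - 1 ≤ g * t)
    (hK : K * (n : ℝ) ^ 2 ≤ exp α) (hK1 : 24 * (d + 1) * c ^ 3 * Λ ≤ K)
    (R : ℝ) (hR0 : 0 ≤ R) (hR : R ≤ c * exp α * Λ ^ w) :
    4 * n * d * R * (t * (Λ ^ (t + 1) * exp (-(10 * β))) * R * Λ ^ t + R ^ 2 * exp (-(g * t))) ≤ 1 ∧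
    4 * (16 * n * d * R ^ 3 * exp (g * n) * Λ ^ t * (2 * Λ * exp (-(5 * β)))) *
      (d * ((2 * n : ℕ) + 1) + 1) ≤ 1 ∧
    8 * (16 * n * d * R ^ 3 * exp (g * n) * Λ ^ t * (2 * exp (-(10 * β)))) ≤ exp (-(5 * β)) ∧
    Λ ^ (t + 1) * exp (-(10 * β)) ≤ 2 * exp (-(5 * β)) ∧
    K * n * exp (-(5 * β)) ≤ 1 := by
  have hn' : (1 : ℝ) ≤ n := by exact_mod_cast hn
  have hd : (0 : ℝ) ≤ d := Nat.cast_nonneg d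
  have htn' : (t : ℝ) ≤ n := by exact_mod_cast htn
  have hβ : 0 ≤ β := by linarith
  have hX1 : 1 ≤ exp α := one_le_exp hα
  have hXY : exp α ^ 20 ≤ exp β := by
    rw [← exp_nat_mul]; exact exp_le_exp.2 (by push_cast; linarith)
  have e10 : exp (-(10 * β)) = (exp β ^ 10)⁻¹ := by
    rw [exp_neg, ← exp_nat_mul]; norm_num
  have e5 : exp (-(5 * β)) = (exp β ^ 5)⁻¹ := by
    rw [exp_neg, ← exp_nat_mul]; norm_num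
  have egt : exp (-(g * t)) ≤ 3 * (exp α ^ 20)⁻¹ := by
    have h1 : exp (-(g * t)) ≤ exp 1 * exp (-(20 * α)) := by
      rw [← exp_add]; exact exp_le_exp.2 (by linarith)
    have h2 : exp (-(20 * α)) = (exp α ^ 20)⁻¹ := by
      rw [exp_neg, ← exp_nat_mul]; norm_num
    have h3 : exp 1 ≤ 3 := (Real.exp_one_lt_d9.trans (by norm_num)).le
    rw [h2] at h1
    exact h1.trans (by gcongr)
  have hR2 : R ≤ c * exp α ^ 2 := by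
    refine hR.trans ?_
    calc c * exp α * Λ ^ w ≤ c * exp α * exp α := by gcongr
      _ = c * exp α ^ 2 := by ring
  have hB : 24 * (d + 1) * c ^ 3 * Λ * (n : ℝ) ^ 2 ≤ exp α := le_trans (by gcongr) hK
  have hP0 : 0 ≤ Λ ^ t := by positivity
  have hA := numA Λ c (exp α) (exp β) (Λ ^ t) (exp (-(g * t))) R n d t hΛ hc hn' hd
    (Nat.cast_nonneg t) htn' hX1 hXY hP0 ht (exp_pos _).le egt hR0 hR2 hB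
  have hB' := numB Λ c (exp α) (exp β) (Λ ^ t) R n d hΛ hc hn' hd hX1 hXY hP0 ht hR0 hR2 hB
  obtain ⟨hC1, hC2, hC3⟩ := numC Λ c (exp α) (exp β) (Λ ^ t) _ n d hΛ hc hn' hd hX1 hXY ht hB' hB
  rw [e5, e10, pow_succ Λ t, hgβ]
  refine ⟨hA, ?_, hC2, hC3, ?_⟩
  · push_cast
    exact hC1
  · have hK0 : 0 ≤ K := le_trans (by positivity) hK1
    have hY1 : 1 ≤ exp β := one_le_exp hβ
    have hn2 : (n : ℝ) ≤ (n : ℝ) ^ 2 := by nlinarith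
    have h3 : K * n ≤ exp β ^ 5 :=
      calc K * n ≤ K * (n : ℝ) ^ 2 := by gcongr
        _ ≤ exp α := hK
        _ ≤ exp β := exp_le_exp.2 (by linarith)
        _ ≤ exp β ^ 5 := le_self_pow₀ hY1 (by norm_num)
    calc K * n * (exp β ^ 5)⁻¹ ≤ exp β ^ 5 * (exp β ^ 5)⁻¹ := by gcongr
      _ = 1 := by field_simp

theorem master (K a : ℝ) (n : ℕ) (ha : 0 ≤ a) (Z : ℝ) (hZ1 : 1 ≤ Z) (hZ : 24 * K ≤ Z)
    (h : Z ≤ a ^ 2 * n) : K * (n : ℝ) ^ 2 ≤ exp (a * n) := by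
  have h1 := Real.pow_div_factorial_le_exp (a * n) (by positivity) 4
  refine le_trans ?_ h1
  have h2 : Z ≤ (a ^ 2 * n) ^ 2 := by nlinarith
  have h3 : (a * n) ^ 4 = (a ^ 2 * n) ^ 2 * (n : ℝ) ^ 2 := by ring
  rw [h3, le_div_iff₀ (by positivity)]
  have h4 : ((Nat.factorial 4 : ℕ) : ℝ) = 24 := by norm_num [Nat.factorial]
  rw [h4]
  have h5 : (0 : ℝ) ≤ (n : ℝ) ^ 2 := by positivity
  nlinarith

end Crest.Agent.R133
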