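import Crest.Agent.R133.Good
import Crest.Agent.R133.Green
import Crest.Agent.R133.Core
import Crest.Agent.R133.Num

set_option autoImplicit false

namespace Crest.Agent.R133

open MeasureTheory Set
open scoped ENNReal

theorem good_set {M : Type*} [MeasurableSpace M] {ν : Measure M} {S : M → M}
    {d : ℕ} (ps : PS ν S d) (hS : MeasurePreserving S ν ν) (n w : ℕ) (hw : 1 ≤ w) (r R g b : ℝ)
    (hr : 0 < r) (hr' : r ≤ ps.r₀) (hR : 0 ≤ R) (hb : 0 ≤ b)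
    (h : ∀ θ : ℝ, (θ = 0 ∨ θ = g) → ∀ j ≤ 2 * n, ∃ Bad : Set M, MeasurableSet Bad ∧
      ν Bad ≤ ENNReal.ofReal b ∧ ∀ x ∉ Bad, Split (fun m => ps.A (S^[m] x)) (2 * n) j θ R) :
    ∃ Gd : Set M, MeasurableSet Gd ∧
      ν Gdᶜ ≤ ENNReal.ofReal ((2 * n + 1) * (ps.Λ * r) + (((2 * n / w : ℕ) : ℝ) + 3) * b) ∧
      ∀ x ∈ Gd, (∀ m, m ≤ 2 * n → S^[m] x ∈ ps.reg r) ∧
        (∀ j ≤ 2 * n, Split (fun m => ps.A (S^[m] x)) (2 * n) j 0 ((R + 1) * ps.Λ ^ w)) ∧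
        Split (fun m => ps.A (S^[m] x)) (2 * n) n g R := by
  obtain ⟨Bg, hBg1, hBg2, hBg3⟩ := h g (Or.inr rfl) n (by omega)
  choose B hB1 hB2 hB3 using fun i : ℕ => h 0 (Or.inl rfl) (min (i * w) (2 * n)) (min_le_right _ _)
  have hΛ := ps.one_le
  refine ⟨((⋃ m ∈ Finset.range (2 * n + 1), S^[m] ⁻¹' (ps.reg r)ᶜ) ∪
    ((⋃ i ∈ Finset.range (2 * n / w + 2), B i) ∪ Bg))ᶜ, ?_, ?_, ?_⟩
  · refine MeasurableSet.compl (MeasurableSet.union ?_ (MeasurableSet.union ?_ hBg1))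
    · exact Finset.measurableSet_biUnion _ fun m _ =>
        (hS.measurable.iterate m) (ps.meas_reg r).compl
    · exact Finset.measurableSet_biUnion _ fun i _ => hB1 i
  · rw [compl_compl]
    have h1 : ν (⋃ m ∈ Finset.range (2 * n + 1), S^[m] ⁻¹' (ps.reg r)ᶜ) ≤
        ENNReal.ofReal ((2 * n + 1) * (ps.Λ * r)) := by
      refine (measure_biUnion_finset_le _ _).trans ?_
      refine (Finset.sum_le_sum (g := fun _ => ENNReal.ofReal (ps.Λ * r)) fun m _ => ?_).trans ?_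
      · rw [(hS.iterate m).measure_preimage (ps.meas_reg r).compl.nullMeasurableSet]
        exact ps.reg_small r hr hr'
      · rw [Finset.sum_const, Finset.card_range, nsmul_eq_mul,
          ENNReal.ofReal_mul (p := 2 * n + 1) (by positivity)]
        refine le_of_eq ?_
        congr 1
        rw [← ENNReal.ofReal_natCast]
        push_cast
        rfl
    have h2 : ν (⋃ i ∈ Finset.range (2 * n / w + 2), B i) ≤
        ENNReal.ofReal ((((2 * n / w : ℕ) : ℝ) + 2) * b) := by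
      refine (measure_biUnion_finset_le _ _).trans ?_
      refine (Finset.sum_le_sum (g := fun _ => ENNReal.ofReal b) fun m _ => hB2 m).trans ?_
      rw [Finset.sum_const, Finset.card_range, nsmul_eq_mul,
        ENNReal.ofReal_mul (p := ((2 * n / w : ℕ) : ℝ) + 2) (by positivity)]
      refine le_of_eq ?_
      congr 1
      rw [← ENNReal.ofReal_natCast]
      simp only [Nat.cast_add, Nat.cast_ofNat]
    refine (measure_union_le _ _).trans ((add_le_add h1 ((measure_union_le _ _).trans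
      (add_le_add h2 hBg2))).trans (le_of_eq ?_))
    rw [← ENNReal.ofReal_add (by positivity) hb, ← ENNReal.ofReal_add (by positivity) (by positivity)]
    congr 1
    ring
  · intro x hx
    simp only [Set.mem_compl_iff, Set.mem_union, Set.mem_iUnion, Finset.mem_range, Set.mem_preimage,
      not_or, not_exists, not_not] at hx
    obtain ⟨hx1, hx2, hx3⟩ := hx
    refine ⟨fun m hm => hx1 m (by omega), fun j hj => ?_, hBg3 x hx3⟩
    have hi1 : j ≤ (j / w + 1) * w := by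
      have := Nat.lt_div_mul_add (a := j) (show 0 < w by omega)
      nlinarith
    have hi2 : (j / w + 1) * w ≤ j + w := by
      have := Nat.div_mul_le_self j w
      nlinarith
    have hi3 : j / w + 1 < 2 * n / w + 2 := by
      have := Nat.div_le_div_right (c := w) hj
      omega
    exact split_shift ps.Λ R hΛ hR _ (fun m => ps.A_le _) (2 * n) j _ w (le_min hi1 hj)
      ((min_le_left _ _).trans hi2) (min_le_right _ _) (hB3 _ x (hx2 _ hi3))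

set_option maxHeartbeats 4000000 in
/-- A piecewise smooth system is never hard. -/
theorem not_hard {M : Type} [MeasurableSpace M] {ν : Measure M} [IsProbabilityMeasure ν] (S : M ≃ᵐ M)
    {d : ℕ} (ps : PS ν S d) (hS : MeasurePreserving S ν ν) (lab : M → Bool) (hl : Measurable lab) :
    ¬ Hard ν S lab := by
  intro H
  have hΛ := ps.one_le
  have hr₀ := ps.r₀_pos
  obtain ⟨C₀, hC₀, hgood⟩ := good_scale d ps.Λ hΛ
  obtain ⟨C₃, hC₃, hcells⟩ := exists_cells ps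
  obtain ⟨vb, hvb⟩ : ∃ vb : ℝ, vb = (volume (Metric.closedBall (0 : E d) 1)).toReal := ⟨_, rfl⟩
  have hvb0 : 0 ≤ vb := hvb ▸ ENNReal.toReal_nonneg
  obtain ⟨C₄, hC₄⟩ : ∃ C₄ : ℝ, C₄ = C₃ * (ps.Λ ^ 3 * (4 * 8 ^ d) * vb) + 1 := ⟨_, rfl⟩
  have hC₄1 : 1 ≤ C₄ := by
    rw [hC₄]; exact le_add_of_nonneg_left (by positivity)
  obtain ⟨b, hb⟩ : ∃ b : ℝ, b = 1 / (64 * C₄) := ⟨_, rfl⟩
  have hb0 : 0 < b := by rw [hb]; positivity
  have hb1 : b ≤ 1 / 64 := by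
    rw [hb]; exact one_div_le_one_div_of_le (by norm_num) (by linarith)
  obtain ⟨Cl, ρ₀, hCl, hρ₀, hCl', hclear⟩ := exists_clear ps lab hl (b / 400000) (by positivity)
  obtain ⟨L, hL⟩ : ∃ L : ℝ, L = Real.log ps.Λ + 1 := ⟨_, rfl⟩
  have hlog : 0 ≤ Real.log ps.Λ := Real.log_nonneg hΛ
  have hL1 : 1 ≤ L := by rw [hL]; linarith
  have hΛL : ps.Λ ≤ Real.exp L := by
    rw [hL, Real.exp_add, Real.exp_log (by linarith)]
    exact le_mul_of_one_le_right (by linarith) (Real.one_le_exp (by norm_num))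
  have hΛpow : ∀ (k : ℕ) (x : ℝ), k * L ≤ x → ps.Λ ^ k ≤ Real.exp x := fun k x hk =>
    (pow_le_pow_left₀ (by linarith) hΛL k).trans (by
      rw [← Real.exp_nat_mul]; exact Real.exp_le_exp.2 hk)
  obtain ⟨c, hc⟩ : ∃ c : ℝ, c = 3 * (1 + ps.Λ ^ 2) ^ d := ⟨_, rfl⟩
  have hpow1 : 1 ≤ (1 + ps.Λ ^ 2) ^ d := one_le_pow₀ (by nlinarith)
  have hc1 : 1 ≤ c := by rw [hc]; linarith
  obtain ⟨K, hK⟩ : ∃ K : ℝ, K = 24 * (d + 1) * c ^ 3 * ps.Λ + 2 / ps.r₀ + 1 / ρ₀ + 48 * ps.Λ +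
    32 * C₃ ^ 2 := ⟨_, rfl⟩
  have hp1 : 0 ≤ 24 * (d + 1) * c ^ 3 * ps.Λ := by positivity
  have hp2 : 0 ≤ 2 / ps.r₀ := by positivity
  have hp3 : 0 ≤ 1 / ρ₀ := by positivity
  have hp4 : 0 ≤ 48 * ps.Λ := by positivity
  have hp5 : 0 ≤ 32 * C₃ ^ 2 := by positivity
  have hK0 : 0 ≤ K := by rw [hK]; positivity
  obtain ⟨Z, hZ⟩ : ∃ Z : ℝ, Z = 24 * K + L + 56 * L * C₀ + 1 := ⟨_, rfl⟩
  have hp6 : 0 ≤ 56 * L * C₀ := by positivity
  have hZ1 : 1 ≤ Z := by rw [hZ]; linarith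
  obtain ⟨κ₀, hκ₀⟩ : ∃ κ₀ : ℝ, κ₀ = 1 / (400 * L ^ 2 * (40 * (d + 1)) ^ 4) := ⟨_, rfl⟩
  have hκ₀0 : 0 < κ₀ := by rw [hκ₀]; positivity
  obtain ⟨γ, ℓ, N, hγ0, hγ1, hN, hℓ, HH⟩ := H (min b (κ₀ / Z)) (by positivity)
  obtain ⟨g, hg⟩ : ∃ g : ℝ, g = γ / (40 * (d + 1)) := ⟨_, rfl⟩
  have hd0 : (0 : ℝ) ≤ d := Nat.cast_nonneg d
  have hg0 : 0 < g := by rw [hg]; positivity
  have hgγ : g * (40 * (d + 1)) = γ := by rw [hg]; field_simp
  have hg1 : g ≤ 1 := by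
    have : g * 1 ≤ g * (40 * (d + 1)) := by gcongr; linarith
    linarith
  obtain ⟨a, ha⟩ : ∃ a : ℝ, a = g ^ 2 / (20 * L) := ⟨_, rfl⟩
  have ha0 : 0 < a := by rw [ha]; positivity
  have haL : a * (20 * L) = g ^ 2 := by rw [ha]; field_simp
  have hag : 20 * a ≤ g := by
    have h1 : a * (20 * 1) ≤ a * (20 * L) := by gcongr
    have h2 : g ^ 2 ≤ g := by rw [sq]; exact mul_le_of_le_one_left hg0.le hg1
    linarith
  have ha2 : a ^ 2 = κ₀ * γ ^ 4 := by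
    rw [ha, hκ₀, hg]; field_simp; ring
  have hbig : ∀ k : ℕ, 1 ≤ min b (κ₀ / Z) * γ ^ 4 * k → Z ≤ a ^ 2 * k := by
    intro k hk
    have h1 : 1 ≤ κ₀ / Z * γ ^ 4 * k := hk.trans (by gcongr; exact min_le_right _ _)
    rw [ha2]
    have h2 : κ₀ / Z * γ ^ 4 * k = κ₀ * γ ^ 4 * k / Z := by ring
    rw [h2, le_div_iff₀ (by linarith)] at h1
    linarith
  have hN' := hbig N hN
  have hℓ' := hbig ℓ hℓ
  have hN1 : 1 ≤ N := by
    rcases Nat.eq_zero_or_pos N with h | h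
    · rw [h] at hN'; simp at hN'; linarith
    · exact h
  have hℓ1 : 1 ≤ ℓ := by
    rcases Nat.eq_zero_or_pos ℓ with h | h
    · rw [h] at hℓ'; simp at hℓ'; linarith
    · exact h
  obtain ⟨s, hs, hsp⟩ := hgood M ν S ps.A hS ps.meas_A ps.A_le ps.A_ge g ℓ N hg0.le hℓ1 hN1
  have Hn := HH s hs
  have hsp' := hsp a ha0
  have hnℓ : ℓ ≤ 2 ^ s * ℓ := Nat.le_mul_of_pos_left _ (by positivity)
  generalize 2 ^ s * ℓ = n at Hn hsp' hnℓ
  clear hsp HH hgood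
  have hn1 : 1 ≤ n := hℓ1.trans hnℓ
  have hn' : (1 : ℝ) ≤ n := by exact_mod_cast hn1
  have hZn : Z ≤ a ^ 2 * n := hℓ'.trans (by gcongr)
  have hmaster := master K a n ha0.le Z hZ1 (by rw [hZ]; linarith) hZn
  have ha1 : a ≤ 1 := by linarith
  have hanL : L ≤ a * n := by
    have h1 : a ^ 2 * n ≤ a * n := by
      have : a ^ 2 ≤ a := by rw [sq]; exact mul_le_of_le_one_left ha0.le ha1
      gcongr
    rw [hZ] at hZn
    linarith
  obtain ⟨w, hw⟩ : ∃ w : ℕ, w = ⌊a * n / L⌋₊ := ⟨_, rfl⟩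
  obtain ⟨t, ht⟩ : ∃ t : ℕ, t = ⌊g * n / L⌋₊ := ⟨_, rfl⟩
  have hw1 : 1 ≤ w := by
    rw [hw]; exact Nat.le_floor (by rw [Nat.cast_one, le_div_iff₀ (by linarith)]; linarith)
  have hw1' : (1 : ℝ) ≤ w := by exact_mod_cast hw1
  have hwle : (w : ℝ) * L ≤ a * n := by
    rw [← le_div_iff₀ (by linarith), hw]; exact Nat.floor_le (by positivity)
  have hwge : a * n ≤ 2 * w * L := by
    have h1 : a * n / L < w + 1 := by rw [hw]; exact Nat.lt_floor_add_one _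
    rw [div_lt_iff₀ (by linarith)] at h1
    have h2 : ((w : ℝ) + 1) * L ≤ (2 * w) * L := by gcongr; linarith
    linarith
  have htle : (t : ℝ) * L ≤ g * n := by
    rw [← le_div_iff₀ (by linarith), ht]; exact Nat.floor_le (by positivity)
  have htn : t ≤ n := by
    have h1 : (t : ℝ) ≤ n := by
      have h2 : (t : ℝ) ≤ t * L := le_mul_of_one_le_right (Nat.cast_nonneg t) hL1
      have h3 : g * n ≤ n := mul_le_of_le_one_left (by linarith) hg1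
      linarith
    exact_mod_cast h1
  have hgt : 20 * (a * n) - 1 ≤ g * t := by
    have h1 : g * n / L < t + 1 := by rw [ht]; exact Nat.lt_floor_add_one _
    have h2 : 20 * (a * n) = g * (g * n / L) := by
      rw [ha]; field_simp
    have h3 : g * (g * n / L) ≤ g * (t + 1) := by gcongr
    rw [mul_add, mul_one] at h3
    linarith
  obtain ⟨R₀, hR₀⟩ : ∃ R₀ : ℝ, R₀ = 2 * (1 + ps.Λ ^ 2) ^ d * Real.exp (a * n) := ⟨_, rfl⟩
  rw [← hR₀] at hsp'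
  have hX1 : 1 ≤ Real.exp (a * n) := Real.one_le_exp (by positivity)
  have hR₀0 : 0 ≤ R₀ := by rw [hR₀]; positivity
  have hΛw1 : 1 ≤ ps.Λ ^ w := one_le_pow₀ hΛ
  have hR01 : R₀ + 1 ≤ (R₀ + 1) * ps.Λ ^ w := le_mul_of_one_le_right (by linarith) hΛw1
  have hR1 : 1 ≤ (R₀ + 1) * ps.Λ ^ w := by linarith
  have hR0R : R₀ ≤ (R₀ + 1) * ps.Λ ^ w := by linarith
  have hRc : (R₀ + 1) * ps.Λ ^ w ≤ c * Real.exp (a * n) * ps.Λ ^ w := by
    gcongr
    rw [hR₀, hc]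
    linarith [one_le_mul_of_one_le_of_one_le hpow1 hX1]
  obtain ⟨hN1', hN3, hN4, hN5, hN6⟩ := numerics ps.Λ c K (a * n) (g * n) g d n w t hΛ hc1 hn1
    (by positivity) (by rw [← mul_assoc]; gcongr) rfl (hΛpow w _ hwle) (hΛpow t _ htle) htn hgt hmaster
    (by rw [hK]; linarith) _ (by linarith) hRc
  obtain ⟨ρ, hρ⟩ : ∃ ρ : ℝ, ρ = Real.exp (-(5 * (g * n))) := ⟨_, rfl⟩
  obtain ⟨ρ', hρ'⟩ : ∃ ρ' : ℝ, ρ' = Real.exp (-(10 * (g * n))) := ⟨_, rfl⟩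
  rw [← hρ'] at hN1' hN4 hN5
  rw [← hρ] at hN3 hN4 hN5 hN6
  have hρ0 : 0 < ρ := hρ ▸ Real.exp_pos _
  have hρ'0 : 0 < ρ' := hρ' ▸ Real.exp_pos _
  have hρ'1 : ρ' ≤ 1 := by
    rw [hρ']; exact Real.exp_le_one_iff.2 (neg_nonpos.2 (by positivity))
  have hKρ : ∀ k : ℝ, 0 ≤ k → k ≤ K → k * n * ρ ≤ 1 := fun k hk0 hk => le_trans (by gcongr) hN6
  have hKρ' : ∀ k : ℝ, 0 ≤ k → k ≤ K → k * ρ ≤ 1 := fun k hk0 hk => by
    refine le_trans ?_ (hKρ k hk0 hk)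
    have : k * ρ = k * 1 * ρ := by ring
    rw [this]; gcongr
  have hr : 2 * ρ ≤ ps.r₀ := by
    have h1 := hKρ' (2 / ps.r₀) hp2 (by rw [hK]; linarith)
    rw [div_mul_eq_mul_div, div_le_one hr₀] at h1
    exact h1
  have hρρ₀ : ρ ≤ ρ₀ := by
    have h1 := hKρ' (1 / ρ₀) hp3 (by rw [hK]; linarith)
    rw [div_mul_eq_mul_div, div_le_one hρ₀, one_mul] at h1
    exact h1
  obtain ⟨Gd, hGd, hGd', hGp⟩ := good_set ps hS n w hw1 (2 * ρ) R₀ g (C₀ / (N * a)) (by positivity) hr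
    hR₀0 (by positivity) hsp'
  obtain ⟨cell, Kc, hcm, hcK, hKc, hcell⟩ := hcells ρ' hρ'0 hρ'1
  have hεb : min b (κ₀ / Z) ≤ b := min_le_left _ _
  have hε0 : 0 ≤ min b (κ₀ / Z) := by positivity
  refine core ps hS lab hl n hn1 _ γ (b / 400000) ρ ρ' ρ₀ _ hε0 (by linarith) (by positivity) Hn
    Cl hCl hCl' hclear hρ0 hρ'0 hρρ₀ hr hN3 hN4 cell Kc hcm hcK hcell Gd hGd
    (hGd'.trans (ENNReal.ofReal_le_ofReal ?_)) (fun x hx => (hGp x hx).1) ?_ (by linarith) ?_ ?_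
  · have h1 := hKρ (48 * ps.Λ) hp4 (by rw [hK]; linarith)
    have h2 : (2 * (n : ℝ) + 1) * (ps.Λ * (2 * ρ)) ≤ 1 / 8 := by
      have h3 : (2 * (n : ℝ) + 1) * (ps.Λ * (2 * ρ)) ≤ (3 * n) * (ps.Λ * (2 * ρ)) := by
        gcongr; linarith
      linarith
    have h3 : ((2 * n / w : ℕ) : ℝ) ≤ 4 * L / a := by
      refine (Nat.cast_div_le).trans ?_
      rw [div_le_div_iff₀ (by linarith) ha0]
      push_cast
      linarith
    have h4 : (3 : ℝ) ≤ 3 * L / a := by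
      rw [le_div_iff₀ ha0]; linarith
    have hN0 : (0 : ℝ) < N := by exact_mod_cast hN1
    have h5 : (((2 * n / w : ℕ) : ℝ) + 3) * (C₀ / (N * a)) ≤ (7 * L / a) * (C₀ / (N * a)) := by
      gcongr
      have : 7 * L / a = 4 * L / a + 3 * L / a := by ring
      linarith
    have h6 : (7 * L / a) * (C₀ / (N * a)) ≤ 1 / 8 := by
      have : (7 * L / a) * (C₀ / (N * a)) = 7 * L * C₀ / (a ^ 2 * N) := by field_simp
      rw [this, div_le_iff₀ (by positivity)]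
      rw [hZ] at hN'
      linarith
    linarith
  · intro x hx y hy hi hdist
    refine green_hyb ps.Λ _ g (ps.Λ ^ (t + 1) * ρ') hΛ hR1 hg0.le (by positivity) _ _
      (fun m => ps.A_le _) (fun m => ps.A_le _) n t hn1 htn (hGp y hy).2.1 (hGp x hx).2.1
      ((hGp y hy).2.2.mono hR0R) ?_ hN1'
    exact close_back ps n t htn (2 * ρ) ρ' (by positivity) hr hρ'0.le hN5 x y
      (fun m hm => (hGp x hx).1 m (by omega)) (fun m hm => (hGp y hy).1 m (by omega)) hi hdist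
  · rw [← hvb]
    have h1 : min b (κ₀ / Z) + 400000 * (b / 400000) ≤ 2 * b := by linarith
    calc (Kc : ℝ) * (ps.Λ ^ 3 * (4 * 8 ^ d) * ρ' ^ d * vb * (min b (κ₀ / Z) + 400000 * (b / 400000)))
        ≤ Kc * (ps.Λ ^ 3 * (4 * 8 ^ d) * ρ' ^ d * vb * (2 * b)) := by gcongr
      _ = (Kc * ρ' ^ d) * (ps.Λ ^ 3 * (4 * 8 ^ d) * vb) * (2 * b) := by ring
      _ ≤ C₃ * (ps.Λ ^ 3 * (4 * 8 ^ d) * vb) * (2 * b) := by gcongr
      _ ≤ C₄ * (2 * b) := by gcongr; rw [hC₄]; linarith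
      _ = 1 / 32 := by rw [hb]; field_simp; norm_num
  · have h1 : Real.exp (-(γ * n)) ≤ (ρ' ^ d) ^ 2 * (Real.exp (a * n))⁻¹ := by
      rw [hρ', ← Real.exp_nat_mul, ← Real.exp_nat_mul, ← Real.exp_neg, ← Real.exp_add]
      refine Real.exp_le_exp.2 ?_
      rw [← hgγ]
      have h2 : 0 ≤ g * n := by positivity
      have h3 : 0 ≤ d * (g * n) := by positivity
      have h4 : a * n ≤ g * n := by gcongr; linarith
      push_cast
      linarith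
    have h2 : 32 * C₃ ^ 2 ≤ Real.exp (a * n) := by
      refine le_trans ?_ hmaster
      calc 32 * C₃ ^ 2 ≤ K * 1 := by rw [hK]; linarith
        _ ≤ K * (n : ℝ) ^ 2 := by gcongr; exact one_le_pow₀ hn'
    calc (Kc : ℝ) ^ 2 * Real.exp (-(γ * n)) ≤ Kc ^ 2 * ((ρ' ^ d) ^ 2 * (Real.exp (a * n))⁻¹) := by gcongr
      _ = (Kc * ρ' ^ d) ^ 2 * (Real.exp (a * n))⁻¹ := by ring
      _ ≤ C₃ ^ 2 * (Real.exp (a * n))⁻¹ := by gcongr
      _ ≤ 1 / 32 := by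
        rw [← div_eq_mul_inv, div_le_iff₀ (by linarith)]
        linarith

end Crest.Agent.R133
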