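import Crest.Agent.R133.Defs

set_option autoImplicit false

namespace Crest.Agent.R133

open MeasureTheory Set
open scoped ENNReal 

variable {d : ℕ}

section Aux
open scoped InnerProductSpace

theorem gram_spec {T : E d →ₗ[ℝ] E d} (hT : T.IsSymmetric) : ∃ l : Fin d → ℝ,
    LinearMap.det T = ∏ i, l i ∧ (∀ i, ∃ v, ‖v‖ = 1 ∧ ⟪T v, v⟫_ℝ = l i) ∧
    ∀ v, ∃ c : Fin d → ℝ, ‖v‖ ^ 2 = ∑ i, c i ^ 2 ∧ ⟪T v, v⟫_ℝ = ∑ i, l i * c i ^ 2 := by
  have hn : Module.finrank ℝ (E d) = d := by simp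
  refine ⟨hT.eigenvalues hn, by simpa using hT.det_eq_prod_eigenvalues hn, fun i =>
    ⟨hT.eigenvectorBasis hn i, (hT.eigenvectorBasis hn).norm_eq_one i, ?_⟩, fun v =>
    ⟨(hT.eigenvectorBasis hn).repr v, ?_, ?_⟩⟩
  · rw [hT.apply_eigenvectorBasis, inner_smul_left, real_inner_self_eq_norm_sq,
      (hT.eigenvectorBasis hn).norm_eq_one i]
    simp
  · rw [← (hT.eigenvectorBasis hn).repr.norm_map, EuclideanSpace.real_norm_sq_eq]
  · rw [← (hT.eigenvectorBasis hn).repr.inner_map_map, PiLp.inner_apply]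
    refine Finset.sum_congr rfl fun i _ => ?_
    rw [hT.eigenvectorBasis_apply_self_apply]
    simp only [RCLike.ofReal_real_eq_id, id, RCLike.inner_apply, conj_trivial]
    ring

theorem gram_det_ge {T : E d →ₗ[ℝ] E d} (hT : T.IsSymmetric) (h : ∀ v, ‖v‖ ^ 2 ≤ ⟪T v, v⟫_ℝ) :
    1 ≤ LinearMap.det T := by
  obtain ⟨l, h1, h2, -⟩ := gram_spec hT
  rw [h1]
  refine Finset.one_le_prod fun i _ => ?_
  obtain ⟨v, hv, hv'⟩ := h2 i
  simpa [hv, hv'] using h v

theorem gram_det_le {T : E d →ₗ[ℝ] E d} (hT : T.IsSymmetric) {C : ℝ} (hC : 1 ≤ C)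
    (h0 : ∀ v, 0 ≤ ⟪T v, v⟫_ℝ) (h : ∀ v, ⟪T v, v⟫_ℝ ≤ C * ‖v‖ ^ 2) :
    LinearMap.det T ≤ C ^ d ∧ ∀ v, LinearMap.det T * ‖v‖ ^ 2 ≤ C ^ d * ⟪T v, v⟫_ℝ := by
  obtain ⟨l, h1, h2, h3⟩ := gram_spec hT
  have h4 : ∀ i, 0 ≤ l i ∧ l i ≤ C := fun i => by
    obtain ⟨v, hv, hv'⟩ := h2 i
    exact ⟨hv' ▸ h0 v, by simpa [hv, hv'] using h v⟩
  have h5 : ∀ s : Finset (Fin d), ∏ i ∈ s, l i ≤ C ^ d := fun s =>
    (Finset.prod_le_prod (fun i _ => (h4 i).1) fun i _ => (h4 i).2).trans (by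
      rw [Finset.prod_const]
      exact pow_le_pow_right₀ hC (by simpa using s.card_le_univ))
  refine ⟨h1 ▸ h5 _, fun v => ?_⟩
  obtain ⟨c, hc, hc'⟩ := h3 v
  rw [hc, hc', Finset.mul_sum, Finset.mul_sum, h1]
  refine Finset.sum_le_sum fun i _ => ?_
  rw [← mul_assoc, ← Finset.prod_erase_mul _ _ (Finset.mem_univ i)]
  exact mul_le_mul_of_nonneg_right (mul_le_mul_of_nonneg_right (h5 _) (h4 i).1) (sq_nonneg _)

theorem gram_inner (θ : ℝ) (A : ℕ → (E d →L[ℝ] E d)) (a n : ℕ) (v w : E d) :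
    ⟪gram θ A a n v, w⟫_ℝ =
      ∑ m ∈ Finset.range n, Real.exp (-(2 * θ * m)) * ⟪cpr A a m v, cpr A a m w⟫_ℝ := by
  simp [gram, sum_inner, inner_smul_left, ContinuousLinearMap.adjoint_inner_left]

theorem gram_symm (θ : ℝ) (A : ℕ → (E d →L[ℝ] E d)) (a n : ℕ) :
    (gram θ A a n : E d →ₗ[ℝ] E d).IsSymmetric := fun v w => by
  rw [real_inner_comm _ v]
  simp only [ContinuousLinearMap.coe_coe, gram_inner, real_inner_comm (cpr A a _ v)]

theorem gram_term (θ : ℝ) (A : ℕ → (E d →L[ℝ] E d)) (a : ℕ) {n m : ℕ} (hm : m < n) (v : E d) :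
    Real.exp (-(2 * θ * m)) * ‖cpr A a m v‖ ^ 2 ≤ ⟪gram θ A a n v, v⟫_ℝ := by
  simp only [gram_inner, real_inner_self_eq_norm_sq]
  exact Finset.single_le_sum (f := fun m : ℕ => Real.exp (-(2 * θ * m)) * ‖cpr A a m v‖ ^ 2)
    (fun _ _ => by positivity) (Finset.mem_range.2 hm)

theorem gram_ge (θ : ℝ) (A : ℕ → (E d →L[ℝ] E d)) (a : ℕ) {n : ℕ} (hn : 1 ≤ n) (v : E d) :
    ‖v‖ ^ 2 ≤ ⟪gram θ A a n v, v⟫_ℝ := by simpa [cpr] using gram_term θ A a hn v

theorem gram_one_le (θ : ℝ) (A : ℕ → (E d →L[ℝ] E d)) (a : ℕ) {n : ℕ} (hn : 1 ≤ n) :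
    1 ≤ (gram θ A a n).det := gram_det_ge (gram_symm θ A a n) (gram_ge θ A a hn)

theorem cpr_le {Λ : ℝ} {A : ℕ → (E d →L[ℝ] E d)} (hA : ∀ m, ‖A m‖ ≤ Λ) (a m : ℕ) (v : E d) :
    ‖cpr A a m v‖ ≤ Λ ^ m * ‖v‖ := by
  induction m with
  | zero => simp [cpr]
  | succ m ih =>
    rw [pow_succ', mul_assoc]
    exact ((A _).le_opNorm _).trans
      (mul_le_mul (hA _) ih (norm_nonneg _) ((norm_nonneg _).trans (hA 0)))

theorem cpr_add (A : ℕ → (E d →L[ℝ] E d)) (n m : ℕ) (v : E d) :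
    cpr A 0 (n + m) v = cpr A n m (cpr A 0 n v) := by
  induction m with
  | zero => rfl
  | succ m ih =>
    rw [← add_assoc]
    simp only [cpr, ContinuousLinearMap.comp_apply, ih, zero_add]

theorem gram_double (θ : ℝ) (A : ℕ → (E d →L[ℝ] E d)) (n : ℕ) (v : E d) :
    gram θ A 0 (2 * n) v = gram θ A 0 n v + Real.exp (-(2 * θ * n)) •
      ContinuousLinearMap.adjoint (cpr A 0 n) (gram θ A n n (cpr A 0 n v)) := by
  refine ext_inner_right ℝ fun w => ?_
  rw [inner_add_left, inner_smul_left, ContinuousLinearMap.adjoint_inner_left, gram_inner,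
    gram_inner, gram_inner, two_mul n, Finset.sum_range_add, Finset.mul_sum]
  simp only [cpr_add, Nat.cast_add, mul_add, neg_add, Real.exp_add, mul_assoc, conj_trivial]

theorem gram_inv {T : E d →ₗ[ℝ] E d} (hT : T.IsSymmetric) (h : LinearMap.det T ≠ 0) :
    ∃ S : E d →ₗ[ℝ] E d, S.IsSymmetric ∧ T * S = 1 ∧ S * T = 1 := by
  obtain ⟨u, rfl⟩ := (LinearMap.isUnit_iff_isUnit_det T).2 (Ne.isUnit h)
  refine ⟨↑u⁻¹, fun v w => ?_, u.mul_inv, u.inv_mul⟩
  have h1 := fun x => LinearMap.congr_fun u.mul_inv x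
  simp only [Module.End.mul_apply, Module.End.one_apply] at h1
  conv_lhs => rw [← h1 w, ← hT, h1]

theorem gram_det_comm (X Y : E d →ₗ[ℝ] E d) : LinearMap.det (1 + X * Y) = LinearMap.det (1 + Y * X) := by
  have b := (EuclideanSpace.basisFun (Fin d) ℝ).toBasis
  simp only [← LinearMap.det_toMatrix b, map_add, LinearMap.toMatrix_one, LinearMap.toMatrix_mul]
  exact Matrix.det_one_add_mul_comm _ _

theorem gram_norm_le {x K t r : ℝ} (hK : 1 ≤ K) (hr : 0 ≤ r)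
    (h : Real.exp (-(2 * t)) * x ^ 2 ≤ K * r ^ 2) : x ≤ K * Real.exp t * r := by
  refine (abs_le_of_sq_le_sq' ?_ (by positivity)).2
  have h1 : Real.exp t ^ 2 * Real.exp (-(2 * t)) = 1 := by
    rw [← Real.exp_nat_mul, ← Real.exp_add]; simp
  have h2 := mul_le_mul_of_nonneg_left h (sq_nonneg (Real.exp t))
  rw [← mul_assoc, h1, one_mul] at h2
  refine h2.trans ?_
  have : 0 ≤ K * (Real.exp t * r) ^ 2 := by positivity
  nlinarith

end Aux

/-- `1 ≤ gram ≤ n Λ^(2n)` as quadratic forms, so the determinant (product of the eigenvalues of a symmetric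
operator) lies in `[1, (n Λ^(2n))^d]`. -/
theorem lgram_bounds (Λ θ : ℝ) (hΛ : 1 ≤ Λ) (hθ : 0 ≤ θ) (A : ℕ → (E d →L[ℝ] E d))
    (hA : ∀ m, ‖A m‖ ≤ Λ) (a n : ℕ) (hn : 1 ≤ n) :
    0 ≤ lgram θ A a n ∧ lgram θ A a n ≤ d * (1 + 2 * Real.log Λ) * n := by
  refine ⟨Real.log_nonneg (gram_one_le θ A a hn), ?_⟩
  have hn' : (1 : ℝ) ≤ n := by exact_mod_cast hn
  have h1 := (gram_det_le (gram_symm θ A a n) (C := n * Λ ^ (2 * n))
    (one_le_mul_of_one_le_of_one_le hn' (one_le_pow₀ hΛ))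
    (fun v => (sq_nonneg _).trans (gram_ge θ A a hn v)) fun v => by
      simp only [ContinuousLinearMap.coe_coe, gram_inner, real_inner_self_eq_norm_sq]
      rw [mul_assoc, ← nsmul_eq_mul]
      refine (Finset.sum_le_card_nsmul _ _ _ fun m hm => ?_).trans_eq (by rw [Finset.card_range])
      rw [pow_mul', ← mul_pow]
      refine (mul_le_of_le_one_left (sq_nonneg _) (Real.exp_le_one_iff.2 (by
        simp only [Left.neg_nonpos_iff]; positivity))).trans
        (pow_le_pow_left₀ (norm_nonneg _) ((cpr_le hA a m v).trans ?_) 2)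
      gcongr
      exact (Finset.mem_range.1 hm).le).1
  refine (Real.log_le_log (zero_lt_one.trans_le (gram_one_le θ A a hn)) h1).trans ?_
  rw [Real.log_pow, Real.log_mul (by positivity) (by positivity), Real.log_pow, mul_assoc]
  refine mul_le_mul_of_nonneg_left ?_ (Nat.cast_nonneg d)
  have := Real.log_le_sub_one_of_pos (zero_lt_one.trans_le hn')
  push_cast
  linarith

/-- The defect of additivity controls the splitting at the middle time.
Proof: `G = cpr A 0 n` is invertible (`hA'`). `gram θ A 0 (2n) = gram θ A 0 n + exp (-2θn) • G† (gram θ A n n) G`. Put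
`Qp = gram θ A n n ≥ 1`, `Qm = exp (2θn) • G⁻¹† (gram θ A 0 n) G⁻¹ ≥ Λ⁻²` (term `m = n-1`), `P = (Qp⁻¹ + Qm⁻¹)⁻¹`.
Then `Qp (Qp⁻¹ + Qm⁻¹) Qm = Qm + Qp` gives `log det P = defect`. For `v` put `a = Qp⁻¹ P v`, `b = Qm⁻¹ P v`: `a + b = v`,
`⟪Qp a, a⟫ + ⟪Qm b, b⟫ = ⟪P v, v⟫ ≥ ‖v‖² / (1 + Λ²)`. So all eigenvalues of `P` are `≥ (1+Λ²)⁻¹`, whence
`det P ≥ (1+Λ²)^{-d}` and each eigenvalue is `≤ (1+Λ²)^d det P`. Take `y m = cpr A n (m - n) a`,
`z m = cpr A 0 m (G⁻¹ b)`; for `m = n` use `‖b‖ ≤ ‖v‖ + ‖a‖`. -/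
theorem split_of_defect (Λ θ : ℝ) (hΛ : 1 ≤ Λ) (hθ : 0 ≤ θ) (A : ℕ → (E d →L[ℝ] E d))
    (hA : ∀ m, ‖A m‖ ≤ Λ) (hA' : ∀ m v, ‖v‖ ≤ Λ * ‖A m v‖) (n : ℕ) (hn : 1 ≤ n) :
    -(d * Real.log (1 + Λ ^ 2)) ≤ lgram θ A n n + lgram θ A 0 n - lgram θ A 0 (2 * n) ∧
    ∀ a : ℝ, 0 ≤ a → lgram θ A n n + lgram θ A 0 n - lgram θ A 0 (2 * n) ≤ a →
      Split A (2 * n - 1) n θ (2 * (1 + Λ ^ 2) ^ d * Real.exp a) := by
  have d0 := gram_one_le θ A 0 hn
  have dp := gram_one_le θ A n hn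
  have d2 := gram_one_le θ A 0 (n := 2 * n) (by omega)
  obtain ⟨I0, s0, r0, l0⟩ := gram_inv (gram_symm θ A 0 n) (zero_lt_one.trans_le d0).ne'
  obtain ⟨Ip, sp, rp, lp⟩ := gram_inv (gram_symm θ A n n) (zero_lt_one.trans_le dp).ne'
  have r0' : ∀ v, gram θ A 0 n (I0 v) = v := LinearMap.congr_fun r0
  have l0' : ∀ v, I0 (gram θ A 0 n v) = v := LinearMap.congr_fun l0
  have rp' : ∀ v, gram θ A n n (Ip v) = v := LinearMap.congr_fun rp
  set e := Real.exp (-(2 * θ * n)) with he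
  have e0 : 0 < e := Real.exp_pos _
  set G := cpr A 0 n with hG
  set S : E d →ₗ[ℝ] E d := Ip + (G : E d →ₗ[ℝ] E d) *
    (e • I0 * (ContinuousLinearMap.adjoint G : E d →L[ℝ] E d)) with hS
  have Sa : ∀ v, S v = Ip v + G (e • I0 (ContinuousLinearMap.adjoint G v)) := fun v => rfl
  have Si : ∀ v w, inner ℝ (S v) w = inner ℝ (Ip v) w +
      e * inner ℝ (I0 (ContinuousLinearMap.adjoint G v)) (ContinuousLinearMap.adjoint G w) := by
    intro v w
    rw [Sa, inner_add_left, ContinuousLinearMap.adjoint_inner_right, map_smul, inner_smul_left]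
    rfl
  have Ss : S.IsSymmetric := fun v w => by
    rw [real_inner_comm (S w), Si, Si, sp, s0, real_inner_comm (Ip w), real_inner_comm (I0 _)]
  have hdet : (gram θ A n n).det * LinearMap.det S * (gram θ A 0 n).det =
      (gram θ A 0 (2 * n)).det := by
    simp only [ContinuousLinearMap.det]
    rw [← map_mul, hS, mul_add, rp, ← mul_assoc, gram_det_comm, mul_comm, ← map_mul]
    congr 1
    refine LinearMap.ext fun v => ?_
    simp [gram_double, r0', ← he, ← hG]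
  have Sp : 0 < LinearMap.det S := by
    by_contra h
    have : (gram θ A n n).det * LinearMap.det S * (gram θ A 0 n).det ≤ 0 :=
      mul_nonpos_of_nonpos_of_nonneg (mul_nonpos_of_nonneg_of_nonpos (by linarith) (not_lt.1 h))
        (by linarith)
    linarith
  have hlog : lgram θ A n n + lgram θ A 0 n - lgram θ A 0 (2 * n) = -Real.log (LinearMap.det S) := by
    simp only [lgram]
    rw [← hdet, Real.log_mul (by positivity) (by positivity), Real.log_mul (by positivity) Sp.ne']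
    ring
  have qp : ∀ v, inner ℝ (Ip v) v = inner ℝ (gram θ A n n (Ip v)) (Ip v) := fun v => by
    rw [rp', real_inner_comm]
  have q0 : ∀ v, inner ℝ (I0 v) v = inner ℝ (gram θ A 0 n (I0 v)) (I0 v) := fun v => by
    rw [r0', real_inner_comm]
  have pp : ∀ v, 0 ≤ inner ℝ (Ip v) v := fun v => qp v ▸ (sq_nonneg _).trans (gram_ge θ A n hn _)
  have p0 : ∀ v, 0 ≤ inner ℝ (I0 v) v := fun v => q0 v ▸ (sq_nonneg _).trans (gram_ge θ A 0 hn _)
  have hC : 1 ≤ 1 + Λ ^ 2 := le_add_of_nonneg_right (sq_nonneg _)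
  obtain ⟨h1, h2⟩ := gram_det_le Ss hC (fun v => by
    rw [Si]; exact add_nonneg (pp v) (mul_nonneg e0.le (p0 _))) fun v => by
    rw [Si, add_mul, one_mul]
    refine add_le_add ?_ ?_
    · have k1 := (gram_ge θ A n hn (Ip v)).trans_eq (qp v).symm
      have k2 := real_inner_le_norm (Ip v) v
      nlinarith [norm_nonneg (Ip v), norm_nonneg v]
    · set w := I0 (ContinuousLinearMap.adjoint G v) with hw
      obtain ⟨m, rfl⟩ : ∃ m, n = m + 1 := ⟨n - 1, by omega⟩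
      have k1 := (gram_term θ A 0 (Nat.lt_succ_self m) w).trans_eq (q0 _).symm
      have k2 : ‖G w‖ ≤ Λ * ‖cpr A 0 m w‖ :=
        ((A _).le_opNorm _).trans (mul_le_mul_of_nonneg_right (hA _) (norm_nonneg _))
      have k3 : e ≤ Real.exp (-(2 * θ * m)) := Real.exp_le_exp.2 (by push_cast; nlinarith)
      have k4 := real_inner_le_norm (G w) v
      rw [← ContinuousLinearMap.adjoint_inner_right] at k4
      rw [← hw] at k1
      have k5 := p0 (ContinuousLinearMap.adjoint G v)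
      rw [← hw] at k5
      set q := inner ℝ w (ContinuousLinearMap.adjoint G v)
      rcases k5.eq_or_lt with k6 | k6
      · rw [← k6, mul_zero]; positivity
      · refine le_of_mul_le_mul_right ?_ k6
        have k7 : e * ‖G w‖ ^ 2 ≤ Λ ^ 2 * q := by
          calc e * ‖G w‖ ^ 2 ≤ Real.exp (-(2 * θ * m)) * (Λ * ‖cpr A 0 m w‖) ^ 2 := by gcongr
            _ = Λ ^ 2 * (Real.exp (-(2 * θ * m)) * ‖cpr A 0 m w‖ ^ 2) := by ring
            _ ≤ _ := by gcongr
        calc e * q * q = e * q ^ 2 := by ring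
          _ ≤ e * (‖G w‖ * ‖v‖) ^ 2 := by gcongr
          _ = e * ‖G w‖ ^ 2 * ‖v‖ ^ 2 := by ring
          _ ≤ Λ ^ 2 * q * ‖v‖ ^ 2 := by gcongr
          _ = _ := by ring
  rw [hlog]
  refine ⟨neg_le_neg ((Real.log_le_log Sp h1).trans_eq (Real.log_pow _ _)), fun a ha h v => ?_⟩
  obtain ⟨J, -, rS, -⟩ := gram_inv Ss Sp.ne'
  have hu : S (J v) = v := LinearMap.congr_fun rS v
  set u := J v
  set K := (1 + Λ ^ 2) ^ d * Real.exp a with hK
  have K1 : 1 ≤ K := one_le_mul_of_one_le_of_one_le (one_le_pow₀ hC) (Real.one_le_exp ha)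
  have h3 : 1 ≤ Real.exp a * LinearMap.det S := by
    rw [← Real.exp_log Sp, ← Real.exp_add]
    exact Real.one_le_exp (by linarith)
  have h4 : inner ℝ v u ≤ K * ‖v‖ ^ 2 := by
    have k1 := mul_le_mul_of_nonneg_left (h2 u) (Real.exp_pos a).le
    rw [hu] at k1
    have k2 : ‖u‖ ^ 2 ≤ K * inner ℝ v u := by nlinarith [sq_nonneg ‖u‖]
    have k3 := real_inner_le_norm v u
    rcases (norm_nonneg u).eq_or_lt with k4 | k4
    · rw [← k4, mul_zero] at k3
      exact k3.trans (by positivity)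
    · have k5 : ‖u‖ ≤ K * ‖v‖ := le_of_mul_le_mul_right (by nlinarith) k4
      nlinarith [norm_nonneg v]
  rw [← hu, Si, hu] at h4
  set w := e • I0 (ContinuousLinearMap.adjoint G u) with hw
  have hy : ∀ m, n ≤ m → m < 2 * n →
      ‖cpr A n (m - n) (Ip u)‖ ≤ K * Real.exp (θ * ((m : ℝ) - n)) * ‖v‖ := fun m hm hm' => by
    refine gram_norm_le K1 (norm_nonneg _) ?_
    have k1 := (gram_term θ A n (show m - n < n by omega) (Ip u)).trans_eq (qp u).symm
    rw [Nat.cast_sub hm, mul_assoc] at k1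
    linarith [mul_nonneg e0.le (p0 (ContinuousLinearMap.adjoint G u))]
  have hv : 0 ≤ K * ‖v‖ := by positivity
  refine ⟨fun m => cpr A n (m - n) (Ip u), fun m => cpr A 0 m w, ?_, fun m hm _ => ?_,
    fun m _ => by simp [cpr], fun m hm hm' => (hy m hm (by omega)).trans ?_, fun m hm => ?_⟩
  · simp only [Nat.sub_self, cpr, ContinuousLinearMap.id_apply]
    rw [← hu, Sa]
  · simp only [Nat.succ_sub hm, cpr, ContinuousLinearMap.comp_apply, Nat.add_sub_cancel' hm]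
  · rw [mul_assoc 2, ← hK]
    gcongr
    linarith
  · rw [mul_assoc 2, ← hK]
    rcases hm.eq_or_lt with rfl | hm
    · have k1 := hy m le_rfl (by omega)
      have k2 : cpr A 0 m w = v - Ip u := by rw [← hu, Sa]; simp [hG, hw]
      simp only [sub_self, mul_zero, Real.exp_zero, mul_one, cpr, Nat.sub_self,
        ContinuousLinearMap.id_apply] at k1 ⊢
      rw [k2]
      nlinarith [norm_sub_le v (Ip u), norm_nonneg v]
    · refine (gram_norm_le K1 (norm_nonneg _) ?_).trans (by gcongr; linarith)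
      have k1 := mul_le_mul_of_nonneg_left ((gram_term θ A 0 hm
        (I0 (ContinuousLinearMap.adjoint G u))).trans_eq (q0 _).symm) e0.le
      have k2 : Real.exp (-(2 * (θ * ((m : ℝ) - n)))) * e ^ 2 = e * Real.exp (-(2 * θ * m)) := by
        rw [he, ← Real.exp_nat_mul, ← Real.exp_add, ← Real.exp_add]
        congr 1; push_cast; ring
      beta_reduce
      rw [hw, map_smul, norm_smul, mul_pow, Real.norm_of_nonneg e0.le, ← mul_assoc, k2, mul_assoc]
      linarith [pp u]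

end Crest.Agent.R133
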