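import Crest.Agent.R133.Defs
import Crest.Agent.R133.Gram
set_option autoImplicit false

namespace Crest.Agent.R133

open MeasureTheory Set
open scoped ENNReal 

section Aux
variable {d : ℕ}

theorem good_cont (θ : ℝ) (a n : ℕ) :
    Continuous fun B : ℕ → (E d →L[ℝ] E d) => (gram θ B a n).det := by
  have h : ∀ m, Continuous fun B : ℕ → (E d →L[ℝ] E d) => cpr B a m := fun m => by
    induction m with
    | zero => exact continuous_const
    | succ m ih => exact (continuous_apply _).clm_comp ih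
  exact ContinuousLinearMap.continuous_det.comp (continuous_finsetSum _ fun m _ =>
    ((ContinuousLinearMap.adjoint.continuous.comp (h m)).clm_comp (h m)).fun_const_smul _)

theorem good_shift (θ : ℝ) (B : ℕ → (E d →L[ℝ] E d)) (a n : ℕ) :
    lgram θ B a n = lgram θ (fun m => B (m + a)) 0 n := by
  have h : ∀ m, cpr B a m = cpr (fun m => B (m + a)) 0 m := fun m => by
    induction m with
    | zero => rfl
    | succ m ih => simp only [cpr, ih, zero_add]; rw [add_comm]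
  simp only [lgram, gram, h]

theorem Split.restrict {B : ℕ → (E d →L[ℝ] E d)} {M M' j k : ℕ} {θ R : ℝ}
    (h : Split B M (j + k) θ R) (hM : M' + k ≤ M) : Split (fun m => B (m + k)) M' j θ R := by
  intro v
  obtain ⟨y, z, h1, h2, h3, h4, h5⟩ := h v
  refine ⟨fun m => y (m + k), fun m => z (m + k), h1, fun m hm hm' => ?_, fun m hm => ?_,
    fun m hm hm' => ?_, fun m hm => ?_⟩
  · simpa only [add_right_comm] using h2 (m + k) (by omega) (by omega)
  · simpa only [add_right_comm] using h3 (m + k) (by omega)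
  · simpa using h4 (m + k) (by omega) (by omega)
  · simpa using h5 (m + k) (by omega)

end Aux

/-- At one of `N` doubling scales the splitting holds with high probability.
Proof: `F θ n x = lgram θ (fun m => A (S^[m] x)) 0 n` is measurable and bounded (`lgram_bounds`), and
`lgram θ (fun m => A (S^[m] x)) n n = F θ n (S^[n] x)`. With `u θ n = ∫ F θ n`, `n_s = 4 * 2^s * ℓ`,
`Δ θ s = F θ n_s ∘ S^[n_s] + F θ n_s - F θ (2 n_s)`, `c₀ = d log (1+Λ²)`: `Δ + c₀ ≥ 0`,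
`∑_{s<N} ∫ (Δ θ s + c₀) / (2 n_s)` telescopes and is `≤ d (1 + 2 log Λ) + c₀`. Add `θ = 0` and `θ = g`, pick `s` by
pigeonhole, Markov: `ν {Δ θ s > a n} ≤ C₀ / (N a)`, `n = 2^s ℓ`. To move the base time from `4n` to `j ≤ 2n` without
inverting `S`: the set `Bad = {x | ¬ ∃ …}` is avoided by using that `S` is a measurable equivalence:
`Bad = (S.symm^[4n - j]) ⁻¹' {Δ > a n}`; for `x ∉ Bad`, `y = S.symm^[4n-j] x`, `Split` for `y` on `[0, 8n-1]` at `4n`
(`split_of_defect`) restricts to `Split` for `x` on `[0, 2n]` at `j` (shift the sequences by `4n - j`). -/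
theorem good_scale (d : ℕ) (Λ : ℝ) (hΛ : 1 ≤ Λ) : ∃ C₀ : ℝ, 0 < C₀ ∧
    ∀ (M : Type) [MeasurableSpace M] (ν : Measure M) [IsProbabilityMeasure ν] (S : M ≃ᵐ M)
      (A : M → (E d →L[ℝ] E d)), MeasurePreserving S ν ν → Measurable A →
      (∀ x, ‖A x‖ ≤ Λ) → (∀ x v, ‖v‖ ≤ Λ * ‖A x v‖) →
      ∀ (g : ℝ) (ℓ N : ℕ), 0 ≤ g → 1 ≤ ℓ → 1 ≤ N → ∃ s < N, ∀ a : ℝ, 0 < a →
        ∀ θ : ℝ, (θ = 0 ∨ θ = g) → ∀ j ≤ 2 * (2 ^ s * ℓ), ∃ Bad : Set M, MeasurableSet Bad ∧
          ν Bad ≤ ENNReal.ofReal (C₀ / (N * a)) ∧ ∀ x ∉ Bad,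
            Split (fun m => A (S^[m] x)) (2 * (2 ^ s * ℓ)) j θ
              (2 * (1 + Λ ^ 2) ^ d * Real.exp (a * ((2 ^ s * ℓ : ℕ) : ℝ))) := by
  obtain ⟨L, hL⟩ : ∃ L, L = d * (1 + 2 * Real.log Λ) := ⟨_, rfl⟩
  obtain ⟨c, hc⟩ : ∃ c, c = d * Real.log (1 + Λ ^ 2) := ⟨_, rfl⟩
  have hL0 : 0 ≤ L := by have := Real.log_nonneg hΛ; rw [hL]; positivity
  have hc0 : 0 ≤ c := by
    have := Real.log_nonneg (le_add_of_nonneg_right (a := (1 : ℝ)) (sq_nonneg Λ))
    rw [hc]; positivity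
  refine ⟨16 * (L + c) + 1, by positivity, fun M _ ν _ S A hS hA hA1 hA2 g ℓ N hg hℓ hN => ?_⟩
  set F : ℝ → ℕ → M → ℝ := fun θ n x => lgram θ (fun m => A (S^[m] x)) 0 n with hF
  have Fm : ∀ θ n, Measurable (F θ n) := fun θ n =>
    Real.measurable_log.comp ((good_cont θ 0 n).measurable.comp
      (measurable_pi_lambda _ fun m => hA.comp (S.measurable.iterate m)))
  have Fb : ∀ θ, 0 ≤ θ → ∀ n, 1 ≤ n → ∀ x, 0 ≤ F θ n x ∧ F θ n x ≤ L * n := fun θ hθ n hn x =>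
    hL ▸ lgram_bounds Λ θ hΛ hθ _ (fun m => hA1 _) 0 n hn
  have Fi : ∀ θ, 0 ≤ θ → ∀ n, 1 ≤ n → Integrable (F θ n) ν := fun θ hθ n hn =>
    Integrable.of_bound (Fm θ n).aestronglyMeasurable (L * n) (.of_forall fun x => by
      rw [Real.norm_of_nonneg (Fb θ hθ n hn x).1]; exact (Fb θ hθ n hn x).2)
  set D : ℝ → ℕ → M → ℝ := fun θ n x => F θ n (S^[n] x) + F θ n x - F θ (2 * n) x + c with hD
  have Ds : ∀ θ, 0 ≤ θ → ∀ n, 1 ≤ n → ∀ x, 0 ≤ D θ n x ∧ ∀ a : ℝ, 0 ≤ a → D θ n x ≤ a →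
      Split (fun m => A (S^[m] x)) (2 * n - 1) n θ (2 * (1 + Λ ^ 2) ^ d * Real.exp a) := by
    intro θ hθ n hn x
    obtain ⟨h1, h2⟩ := split_of_defect Λ θ hΛ hθ (fun m => A (S^[m] x)) (fun m => hA1 _)
      (fun m => hA2 _) n hn
    rw [good_shift θ _ n n] at h1 h2
    simp only [Function.iterate_add_apply, ← hc] at h1 h2
    exact ⟨by simp only [hD, hF]; linarith, fun a ha h => h2 a ha (by
      simp only [hD, hF] at h; linarith)⟩
  have Fc : ∀ θ, 0 ≤ θ → ∀ n, 1 ≤ n → Integrable (fun x => F θ n (S^[n] x)) ν := fun θ hθ n hn =>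
    ((hS.iterate n).integrable_comp (Fm θ n).aestronglyMeasurable).2 (Fi θ hθ n hn)
  have Di : ∀ θ, 0 ≤ θ → ∀ n, 1 ≤ n → Integrable (D θ n) ν := fun θ hθ n hn =>
    (((Fc θ hθ n hn).add (Fi θ hθ n hn)).sub (Fi θ hθ _ (by omega))).add (integrable_const c)
  have De : ∀ θ, 0 ≤ θ → ∀ n, 1 ≤ n → (∫ x, D θ n x ∂ν) / (2 * n) =
      (∫ x, F θ n x ∂ν + c) / n - (∫ x, F θ (2 * n) x ∂ν + c) / (2 * n : ℕ) := by
    intro θ hθ n hn
    have h1 : ∫ x, F θ n (S^[n] x) ∂ν = ∫ x, F θ n x ∂ν := by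
      rw [← integral_map (hS.iterate n).aemeasurable (Fm θ n).aestronglyMeasurable,
        (hS.iterate n).map_eq]
    have h2 : (n : ℝ) ≠ 0 := by positivity
    simp only [hD]
    have h3 : Integrable (fun x => F θ n (S^[n] x) + F θ n x) ν := (Fc θ hθ n hn).add (Fi θ hθ n hn)
    have h4 : Integrable (fun x => F θ n (S^[n] x) + F θ n x - F θ (2 * n) x) ν :=
      h3.sub (Fi θ hθ _ (by omega))
    rw [integral_add h4 (integrable_const c), integral_sub h3 (Fi θ hθ _ (by omega)),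
      integral_add (Fc θ hθ n hn) (Fi θ hθ n hn), h1]
    simp only [integral_const, probReal_univ, smul_eq_mul, one_mul]
    push_cast
    field_simp
    ring
  have n1 : ∀ s, 1 ≤ 2 ^ s * ℓ := fun s => Nat.mul_pos (by positivity) hℓ
  have n4 : ∀ s, 1 ≤ 4 * (2 ^ s * ℓ) := fun s => by have := n1 s; omega
  have tel : ∀ θ, 0 ≤ θ → ∑ s ∈ Finset.range N,
      (∫ x, D θ (4 * (2 ^ s * ℓ)) x ∂ν) / (2 * (4 * (2 ^ s * ℓ) : ℕ)) ≤ L + c := fun θ hθ => by
    have h1 : ∀ s, 2 * (4 * (2 ^ s * ℓ)) = 4 * (2 ^ (s + 1) * ℓ) := fun s => by ring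
    simp only [fun s => De θ hθ _ (n4 s), h1]
    rw [Finset.sum_range_sub' fun s =>
      (∫ x, F θ (4 * (2 ^ s * ℓ)) x ∂ν + c) / (4 * (2 ^ s * ℓ) : ℕ)]
    refine (sub_le_self _ (div_nonneg (add_nonneg (integral_nonneg fun x =>
      (Fb θ hθ _ (n4 N) x).1) hc0) (Nat.cast_nonneg _))).trans ?_
    have h2 : (1 : ℝ) ≤ (4 * (2 ^ 0 * ℓ) : ℕ) := by exact_mod_cast n4 0
    have h3 := integral_mono (Fi θ hθ _ (n4 0)) (integrable_const _) fun x => (Fb θ hθ _ (n4 0) x).2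
    simp only [integral_const, probReal_univ, smul_eq_mul, one_mul] at h3
    rw [div_le_iff₀ (by linarith)]
    nlinarith
  have N0 : (0 : ℝ) < N := by exact_mod_cast hN
  obtain ⟨s, hs, h1⟩ := Finset.exists_le_of_sum_le (s := Finset.range N)
    (f := fun s => (∫ x, D 0 (4 * (2 ^ s * ℓ)) x ∂ν) / (2 * (4 * (2 ^ s * ℓ) : ℕ)) +
      (∫ x, D g (4 * (2 ^ s * ℓ)) x ∂ν) / (2 * (4 * (2 ^ s * ℓ) : ℕ)))
    (g := fun _ => 2 * (L + c) / N) ⟨0, Finset.mem_range.2 hN⟩ (by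
      rw [Finset.sum_add_distrib, Finset.sum_const, Finset.card_range, nsmul_eq_mul,
        mul_div_cancel₀ _ N0.ne']
      linarith [tel 0 le_rfl, tel g hg])
  refine ⟨s, Finset.mem_range.1 hs, fun a ha θ hθ j hj => ?_⟩
  have hθ0 : 0 ≤ θ := by rcases hθ with rfl | rfl <;> [exact le_rfl; exact hg]
  have k1 := n1 s
  have k4 := n4 s
  set n := 2 ^ s * ℓ with hn
  have n0 : (0 : ℝ) < n := by exact_mod_cast k1
  have h2 : (∫ x, D θ (4 * n) x ∂ν) / (2 * (4 * n : ℕ)) ≤ 2 * (L + c) / N := by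
    have h3 : ∀ θ, 0 ≤ θ → 0 ≤ (∫ x, D θ (4 * n) x ∂ν) / (2 * (4 * n : ℕ)) := fun θ hθ =>
      div_nonneg (integral_nonneg fun x => (Ds θ hθ _ k4 x).1) (by positivity)
    rcases hθ with rfl | rfl
    · linarith [h3 g hg]
    · linarith [h3 0 le_rfl]
  have Dm : Measurable (D θ (4 * n)) :=
    ((((Fm θ _).comp (S.measurable.iterate _)).add (Fm θ _)).sub (Fm θ _)).add_const c
  have hB : MeasurableSet {y | a * n ≤ D θ (4 * n) y} := measurableSet_le measurable_const Dm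
  have hS' := (hS.symm S).iterate (4 * n - j)
  refine ⟨_, hS'.measurable hB, ?_, fun x hx => ?_⟩
  · rw [hS'.measure_preimage hB.nullMeasurableSet, ← ofReal_measureReal]
    refine ENNReal.ofReal_le_ofReal ?_
    have h3 := mul_meas_ge_le_integral_of_nonneg (.of_forall fun x => (Ds θ hθ0 _ k4 x).1)
      (Di θ hθ0 _ k4) (a * n)
    rw [div_le_div_iff₀ (by positivity) N0] at h2
    rw [le_div_iff₀ (by positivity)]
    push_cast at h2
    refine le_of_mul_le_mul_right ?_ n0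
    nlinarith [mul_le_mul_of_nonneg_right h3 N0.le]
  · have h3 := (Ds θ hθ0 _ k4 _).2 (a * n) (by positivity) (not_le.1 hx).le
    have h4 := Split.restrict (M' := 2 * n) (j := j) (k := 4 * n - j)
      (by rwa [show j + (4 * n - j) = 4 * n by omega]) (by omega)
    simpa only [Function.iterate_add_apply,
      (Function.LeftInverse.iterate S.apply_symm_apply (4 * n - j)) x] using h4

end Crest.Agent.R133
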