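import Crest.Agent.R133.Defs

set_option autoImplicit false

namespace Crest.Agent.R133

open MeasureTheory Set
open scoped ENNReal 

variable {d : ℕ}

/-- Determinant of a near-identity operator (compare volumes of balls: `addHaar_image_linearMap`,
`addHaar_preimage_linearMap`, `addHaar_closedBall`). -/
theorem det_near_one {V : Type*} [NormedAddCommGroup V] [NormedSpace ℝ V] [FiniteDimensional ℝ V]
    (X : V →L[ℝ] V) (a : ℝ) (ha : ‖X‖ ≤ a) (h : 2 * a * Module.finrank ℝ V ≤ 1) :
    1 / 2 ≤ |(ContinuousLinearMap.id ℝ V - X).det| ∧ |(ContinuousLinearMap.id ℝ V - X).det| ≤ 2 := by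
  rcases Nat.eq_zero_or_pos (Module.finrank ℝ V) with h0 | h0
  · rw [ContinuousLinearMap.det, LinearMap.det_eq_one_of_finrank_eq_zero h0]
    norm_num
  borelize V
  have ha0 : 0 ≤ a := (norm_nonneg _).trans ha
  have hn : (1 : ℝ) ≤ Module.finrank ℝ V := by exact_mod_cast h0
  have ha1 : a ≤ 1 / 2 := by nlinarith
  set Y := ContinuousLinearMap.id ℝ V - X with hY
  have hX : ∀ v, ‖X v‖ ≤ a * ‖v‖ := fun v => X.le_of_opNorm_le ha v
  have hlo : ∀ v, (1 - a) * ‖v‖ ≤ ‖Y v‖ := fun v => by
    have := norm_sub_norm_le v (X v)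
    have := hX v
    simp only [hY, sub_apply, ContinuousLinearMap.id_apply]
    linarith
  have hsurj : Function.Surjective Y := by
    refine LinearMap.injective_iff_surjective (f := (Y : V →ₗ[ℝ] V)).1
      ((injective_iff_map_eq_zero _).2 fun v hv => ?_)
    have := hlo v
    rw [show Y v = 0 from hv, norm_zero] at this
    exact norm_le_zero_iff.1 (by nlinarith [norm_nonneg v])
  let μ : Measure V := Measure.addHaar
  have h₀ : μ (Metric.closedBall 0 1) ≠ 0 := (Metric.measure_closedBall_pos μ _ one_pos).ne'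
  have h₁ : μ (Metric.closedBall 0 1) ≠ ∞ := measure_closedBall_lt_top.ne
  have hb : 1 / 2 ≤ (1 - a) ^ Module.finrank ℝ V := by
    have := one_add_mul_le_pow (a := -a) (by linarith) (Module.finrank ℝ V)
    rw [← sub_eq_add_neg] at this
    linarith
  constructor
  · have : Metric.closedBall 0 (1 - a) ⊆ Y '' Metric.closedBall 0 1 := fun w hw => by
      obtain ⟨v, rfl⟩ := hsurj w
      refine ⟨v, ?_, rfl⟩
      rw [mem_closedBall_zero_iff] at hw ⊢
      have := hlo v
      nlinarith
    have := measure_mono (μ := μ) this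
    rw [Measure.addHaar_image_continuousLinearMap, Measure.addHaar_closedBall' _ _ (by linarith),
      ENNReal.mul_le_mul_iff_left h₀ h₁, ENNReal.ofReal_le_ofReal_iff (abs_nonneg _)] at this
    exact hb.trans this
  · have : Y '' Metric.closedBall 0 1 ⊆ Metric.closedBall 0 (1 + a) := by
      rintro _ ⟨v, hv, rfl⟩
      rw [mem_closedBall_zero_iff] at hv ⊢
      have := norm_sub_le v (X v)
      have := hX v
      simp only [hY, sub_apply, ContinuousLinearMap.id_apply]
      nlinarith
    have := measure_mono (μ := μ) this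
    rw [Measure.addHaar_image_continuousLinearMap, Measure.addHaar_closedBall' _ (r := 1 + a) _
      (by linarith), ENNReal.mul_le_mul_iff_left h₀ h₁,
      ENNReal.ofReal_le_ofReal_iff (by positivity)] at this
    refine this.trans ?_
    have h₂ : (1 + a) ^ Module.finrank ℝ V * (1 - a) ^ Module.finrank ℝ V ≤ 1 := by
      rw [← mul_pow]
      exact pow_le_one₀ (by nlinarith) (by nlinarith)
    nlinarith [pow_nonneg (show 0 ≤ 1 + a by linarith) (Module.finrank ℝ V)]

theorem jac_det_nil {V : Type*} [AddCommGroup V] [Module ℝ V] [FiniteDimensional ℝ V]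
    {N : Module.End ℝ V} (h : IsNilpotent N) : LinearMap.det (1 - N) = 1 := by
  have := N.eval_charpoly 1
  rw [h.charpoly_eq_X_pow_finrank, map_one] at this
  simpa using this.symm

/-- The shift part of the cocycle operator. -/
noncomputable def jacN (A : ℕ → (E d →L[ℝ] E d)) (M : ℕ) : Module.End ℝ (Fin (M + 1) → E d) :=
  LinearMap.pi (Fin.cons 0 fun m : Fin M =>
    (A m : E d →ₗ[ℝ] E d) ∘ₗ LinearMap.proj (R := ℝ) (φ := fun _ : Fin (M + 1) => E d) m.castSucc)

theorem jacN_zero (A : ℕ → (E d →L[ℝ] E d)) (M : ℕ) (y : Fin (M + 1) → E d) :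
    jacN A M y 0 = 0 := by simp [jacN]

theorem jacN_succ (A : ℕ → (E d →L[ℝ] E d)) (M : ℕ) (y : Fin (M + 1) → E d) (m : Fin M) :
    jacN A M y m.succ = A m (y m.castSucc) := by simp [jacN]

theorem jacN_nil (A : ℕ → (E d →L[ℝ] E d)) (M : ℕ) : IsNilpotent (jacN A M) := by
  have : ∀ (k : ℕ) (y : Fin (M + 1) → E d) (i : Fin (M + 1)), (i : ℕ) < k →
      (jacN A M ^ k) y i = 0 := by
    intro k
    induction k with
    | zero => intro y i hi; omega
    | succ k ih =>
      intro y i hi
      rw [pow_succ', Module.End.mul_apply]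
      induction i using Fin.cases with
      | zero => exact jacN_zero _ _ _
      | succ m => rw [jacN_succ, ih y _ (by simpa using hi), map_zero]
  exact ⟨M + 1, LinearMap.ext fun y => funext fun i => this _ y i i.2⟩

/-- The Jacobian. `V = Fin (M+1) → E d`. For a cocycle `B` let `ι_B v = (m ↦ cpr B 0 m v)`,
`(L_A y) m = y m.succ - A m (y m.castSucc)`. The map `T v = (ι_B v - G (L_A (ι_B v))) 0` has `|det T| ∈ [1/2, 2]`.
Proof: `N_A y = Fin.cons 0 (m ↦ A m (y m.castSucc))` is nilpotent, `det (1 - N_A) = 1 = det (1 - N_B)`.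
`X = G ∘ (L_A - L_B)` has norm `≤ R η`; `Z = (1 - N_A) (1 - X) (1 - N_B)⁻¹` fixes all coordinates `m ≥ 1`, so
`Z = 1 + ι₀ ∘ W` and `det Z = det (1 + W ∘ ι₀) = det T` (`Matrix.det_one_add_mul_comm` / block triangular). -/
theorem det_jac (A B : ℕ → (E d →L[ℝ] E d)) (M : ℕ) (R η : ℝ)
    (G : (Fin M → E d) →L[ℝ] (Fin (M + 1) → E d)) (hG : ‖G‖ ≤ R)
    (hGA : ∀ (e : Fin M → E d) (m : Fin M), G e m.succ = A m (G e m.castSucc) + e m)
    (hη : 0 ≤ η) (hAB : ∀ m, m < M → ‖B m - A m‖ ≤ η) (hs : 2 * (R * η) * (d * (M + 1)) ≤ 1)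
    (T : E d →L[ℝ] E d)
    (hT : ∀ v, T v = v - G (fun m : Fin M => cpr B 0 (m + 1) v - A m (cpr B 0 m v)) 0) :
    1 / 2 ≤ |T.det| ∧ |T.det| ≤ 2 := by
  let X : (Fin (M + 1) → E d) →L[ℝ] (Fin (M + 1) → E d) := G.comp
    (ContinuousLinearMap.pi fun m : Fin M => (B m - A m).comp (ContinuousLinearMap.proj m.castSucc))
  have hX : ∀ y, X y = G fun m : Fin M => B m (y m.castSucc) - A m (y m.castSucc) := fun y => rfl
  have hR : 0 ≤ R := (norm_nonneg _).trans hG
  have hXn : ‖X‖ ≤ R * η := by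
    refine ContinuousLinearMap.opNorm_le_bound _ (by positivity) fun y => ?_
    rw [hX, mul_assoc]
    refine (G.le_of_opNorm_le hG _).trans (mul_le_mul_of_nonneg_left ?_ hR)
    refine (pi_norm_le_iff_of_nonneg (by positivity)).2 fun m => ?_
    exact ((B m - A m).le_of_opNorm_le (hAB m m.2) _).trans
      (mul_le_mul_of_nonneg_left (norm_le_pi_norm y _) hη)
  have h := det_near_one X _ hXn (by
    simpa [Module.finrank_pi_fintype, mul_comm (d : ℝ)] using hs)
  suffices (ContinuousLinearMap.id ℝ _ - X).det = T.det by rwa [this] at h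
  obtain ⟨u, hu⟩ := (jacN_nil B M).isUnit_one_sub
  let Q : Module.End ℝ (Fin (M + 1) → E d) := ↑u⁻¹
  have hQ : Q * (1 - jacN B M) = 1 := by rw [← hu]; exact u.inv_mul
  have hQ' : (1 - jacN B M) * Q = 1 := by rw [← hu]; exact u.mul_inv
  let Y : Module.End ℝ (Fin (M + 1) → E d) := (ContinuousLinearMap.id ℝ _ - X : _ →L[ℝ] _)
  have hY : ∀ y, Y y = y - X y := fun y => rfl
  let Z := (1 - jacN A M) * Y * Q
  have hZs : ∀ w (m : Fin M), Z w m.succ = w m.succ := fun w m => by
    have h₁ := congrFun (LinearMap.congr_fun hQ' w) m.succ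
    simp only [Module.End.mul_apply, LinearMap.sub_apply, Module.End.one_apply, Pi.sub_apply,
      jacN_succ] at h₁
    simp only [Z, Module.End.mul_apply, LinearMap.sub_apply, Module.End.one_apply, Pi.sub_apply,
      jacN_succ, hY, hX, hGA, map_sub, ← h₁]
    abel
  have hZ0 : ∀ v, Z (Pi.single 0 v) 0 = T v := fun v => by
    have h₁ : (1 - jacN B M) (fun m => cpr B 0 m v) = Pi.single 0 v := by
      funext i
      induction i using Fin.cases with
      | zero => simp [jacN_zero, cpr]
      | succ m => simp [jacN_succ, cpr]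
    have h₂ : Q (Pi.single 0 v) = fun m : Fin (M + 1) => cpr B 0 m v := by
      rw [← h₁, ← Module.End.mul_apply, hQ, Module.End.one_apply]
    simp [Z, h₂, jacN_zero, hY, hX, hT, cpr]
  let p : (Fin (M + 1) → E d) →ₗ[ℝ] E d := LinearMap.proj 0
  let ι : E d →ₗ[ℝ] (Fin (M + 1) → E d) := LinearMap.single ℝ (fun _ => E d) 0
  let N : Module.End ℝ (Fin (M + 1) → E d) := -(ι ∘ₗ p ∘ₗ Z ∘ₗ (1 - ι ∘ₗ p))
  have hNw : ∀ w, N w = -Pi.single 0 (Z (w - Pi.single 0 (w 0)) 0) := fun w => rfl
  have hN : IsNilpotent N := ⟨2, LinearMap.ext fun w => by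
    rw [pow_two, Module.End.mul_apply, hNw w, map_neg, hNw, Pi.single_eq_same, sub_self]
    simp⟩
  let D : Module.End ℝ (Fin (M + 1) → E d) := LinearMap.pi fun i =>
    ((Fin.cons (T : E d →ₗ[ℝ] E d) fun _ => LinearMap.id : Fin (M + 1) → (E d →ₗ[ℝ] E d)) i).comp
      (LinearMap.proj i)
  have hD : LinearMap.det D = T.det := by
    rw [LinearMap.det_pi]
    simp [Fin.prod_univ_succ, ContinuousLinearMap.det]
  have hZ : Z = (1 - N) * D := by
    refine LinearMap.ext fun w => funext fun i => ?_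
    have h₁ : D w - Pi.single 0 (D w 0) = w - Pi.single 0 (w 0) := by
      funext j
      induction j using Fin.cases <;> simp [D]
    induction i using Fin.cases with
    | zero =>
      have h₂ : D w 0 = T (w 0) := by simp [D]
      rw [Module.End.mul_apply (1 - N), LinearMap.sub_apply, hNw, h₁, sub_neg_eq_add, Pi.add_apply,
        Pi.single_eq_same, Module.End.one_apply, h₂, ← hZ0, ← Pi.add_apply, ← map_add,
        add_sub_cancel]
    | succ m => simp [hZs, N, ι, D]
  have h₁ := congrArg LinearMap.det hZ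
  have h₂ := congrArg LinearMap.det hQ
  simp only [Z, map_mul, jac_det_nil (jacN_nil _ _), jac_det_nil hN, hD, one_mul, mul_one,
    map_one] at h₁ h₂
  rwa [h₂, mul_one] at h₁

end Crest.Agent.R133
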