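import Crest.Agent.R133.Defs
import Crest.Agent.R133.Jac
set_option autoImplicit false

namespace Crest.Agent.R133

open MeasureTheory Set
open scoped ENNReal Pointwise

variable {d : ℕ}

section Aux

theorem orb_eq_of_step (g : ℕ → E d → E d) (M : ℕ) (y : Fin (M + 1) → E d)
    (hy : ∀ m : Fin M, y m.succ = g m (y m.castSucc)) (m : Fin (M + 1)) :
    y m = orb g (y 0) m := by
  induction m using Fin.induction with
  | zero => rfl
  | succ i ih =>
    rw [hy i, ih]
    rfl

theorem orb_lin_smul (A : ℕ → (E d →L[ℝ] E d)) (c : ℝ) (v : E d) (m : ℕ) :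
    orb (fun m => A m) (c • v) m = c • orb (fun m => A m) v m := by
  induction m with
  | zero => rfl
  | succ m ih => simp only [orb, ih, map_smul]

theorem orb_lin_cont (A : ℕ → (E d →L[ℝ] E d)) (m : ℕ) :
    Continuous (fun v : E d => orb (fun m => A m) v m) := by
  induction m with
  | zero => exact continuous_id
  | succ m ih => exact (A m).continuous.comp ih

theorem approx_lip {A : ℕ → (E d →L[ℝ] E d)} {h : ℕ → E d → E d} {M : ℕ} {r η ε₀ : ℝ}
    (hA : Approx A h M r η ε₀) {m : ℕ} (hm : m < M) {w w' : E d} (hw : ‖w‖ ≤ r) (hw' : ‖w'‖ ≤ r) :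
    ‖(h m w - A m w) - (h m w' - A m w')‖ ≤ η * ‖w - w'‖ := by
  classical
  choose! D hD hDA using (hA m hm).2
  have hconv : Convex ℝ (Metric.closedBall (0 : E d) r) := convex_closedBall _ _
  refine hconv.norm_image_sub_le_of_norm_hasFDerivWithin_le (f := fun w => h m w - A m w)
    (f' := fun w => D w - A m) ?_ ?_ ?_ ?_
  · intro x hx
    rw [mem_closedBall_zero_iff] at hx
    exact ((hD x hx).sub (A m).hasFDerivAt).hasFDerivWithinAt
  · intro x hx
    rw [mem_closedBall_zero_iff] at hx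
    exact hDA x hx
  · rwa [mem_closedBall_zero_iff]
  · rwa [mem_closedBall_zero_iff]

theorem approx_bd {A : ℕ → (E d →L[ℝ] E d)} {h : ℕ → E d → E d} {M : ℕ} {r η ε₀ : ℝ}
    (hr : 0 < r) (hη : 0 ≤ η)
    (hA : Approx A h M r η ε₀) {m : ℕ} (hm : m < M) {w : E d} (hw : ‖w‖ ≤ r) :
    ‖h m w - A m w‖ ≤ ε₀ + η * r := by
  have h1 := approx_lip hA hm hw (w' := 0) (by simpa using hr.le)
  have h2 := (hA m hm).1
  simp only [map_zero, sub_zero] at h1
  have h3 : η * ‖w‖ ≤ η * r := mul_le_mul_of_nonneg_left hw hη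
  calc ‖h m w - A m w‖ = ‖(h m w - A m w - h m 0) + h m 0‖ := by congr 1; abel
    _ ≤ ‖h m w - A m w - h m 0‖ + ‖h m 0‖ := norm_add_le _ _
    _ ≤ _ := by linarith

theorem orb_hasFDerivAt (B : ℕ → (E d →L[ℝ] E d)) (h : ℕ → E d → E d) (v : E d) (n : ℕ)
    (hB : ∀ m, m < n → HasFDerivAt (h m) (B m) (orb h v m)) :
    HasFDerivAt (fun u => orb h u n) (cpr B 0 n) v := by
  induction n with
  | zero => exact hasFDerivAt_id v
  | succ n ih =>
    have h1 := ih (fun m hm => hB m (by omega))
    have h2 := (hB n (by omega)).comp v h1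
    have e : cpr B 0 (n + 1) = (B n).comp (cpr B 0 n) := by simp only [cpr, zero_add]
    rw [e]
    exact h2

theorem tube_closed {A : ℕ → (E d →L[ℝ] E d)} {h : ℕ → E d → E d} {M : ℕ} {r η ε₀ : ℝ}
    (hA : Approx A h M r η ε₀) (n : ℕ) (hn : n ≤ M) : IsClosed (tube h n r) := by
  classical
  induction n with
  | zero =>
    have : tube h 0 r = Metric.closedBall 0 r := by
      ext v
      simp only [tube, mem_ofPred_eq, mem_closedBall_zero_iff, Nat.le_zero]
      constructor
      · intro hv; exact hv 0 rfl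
      · rintro hv m rfl; exact hv
    rw [this]; exact Metric.isClosed_closedBall
  | succ n ih =>
    have h1 := ih (by omega)
    have : tube h (n + 1) r = tube h n r ∩ (fun u => orb h u (n + 1)) ⁻¹' Metric.closedBall 0 r := by
      ext v
      simp only [tube, mem_ofPred_eq, mem_inter_iff, mem_preimage, mem_closedBall_zero_iff]
      constructor
      · intro hv; exact ⟨fun m hm => hv m (by omega), hv _ le_rfl⟩
      · rintro ⟨hv, hv'⟩ m hm
        rcases Nat.lt_or_ge m (n + 1) with h' | h'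
        · exact hv m (by omega)
        · obtain rfl : m = n + 1 := by omega
          exact hv'
    rw [this]
    refine ContinuousOn.preimage_isClosed_of_isClosed ?_ h1 Metric.isClosed_closedBall
    intro v hv
    have : ∀ m, m < n + 1 → ∃ D : E d →L[ℝ] E d, HasFDerivAt (h m) D (orb h v m) := by
      intro m hm
      obtain ⟨D, hD, -⟩ := (hA m (by omega)).2 _ (hv m (by omega))
      exact ⟨D, hD⟩
    choose! B hB using this
    exact (orb_hasFDerivAt B h v (n + 1) hB).continuousAt.continuousWithinAt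

end Aux

/-- Nonlinear tubes have the volume of linear tubes. Let `y v = (m ↦ orb h v m)`, `q m w = h m w - A m w`
(`‖q m w‖ ≤ ε₀ + η r` and `η`-Lipschitz on the closed `r`-ball by the mean value inequality),
`J v = (y v - G (m ↦ q m (y v m))) 0`. `k = y v - G (q (y v))` is a linear orbit, `k m = orb A (J v) m`, and
`‖k - y v‖ ≤ r/2`. The tube is closed (induction on `M`, continuity on the tube). `J` is injective on the tube, has
derivative `T` of `det_jac` (chain rule, `B m` = derivative of `h m` at `orb h v m`), maps it into the linear tube of radius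
`2r`: `lintegral_abs_det_fderiv_le_addHaar_image`. Every linear orbit `k` with `‖k‖ ≤ r/2` is hit: solve
`y = k + G (q y)` on the closed `r`-ball of `Fin (M+1) → E d` by contraction; then
`addHaar_image_le_lintegral_abs_det_fderiv`. -/
theorem tube_volume (A : ℕ → (E d →L[ℝ] E d)) (h : ℕ → E d → E d) (M : ℕ) (R r η ε₀ : ℝ)
    (hr : 0 < r) (hη : 0 ≤ η) (hε : 0 ≤ ε₀) (hG : Green A M R) (hA : Approx A h M r η ε₀)
    (hs : 4 * (R * η) * (d * (M + 1) + 1) ≤ 1) (hs' : 8 * (R * ε₀) ≤ r) :
    MeasurableSet (tube h M r) ∧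
    volume (tube h M r) ≤ 2 * volume (tube (fun m => A m) M (2 * r)) ∧
    volume (tube (fun m => A m) M (r / 2)) ≤ 2 * volume (tube h M r) := by
  classical
  obtain ⟨G, hGR, hGA⟩ := hG
  have hR : 0 ≤ R := le_trans (norm_nonneg _) hGR
  have hRη : 0 ≤ R * η := mul_nonneg hR hη
  have hdM : (0 : ℝ) ≤ d * (M + 1) := by positivity
  have ha : R * η ≤ 1 / 4 := by nlinarith
  have hs2 : 2 * (R * η) * (d * (M + 1)) ≤ 1 := by nlinarith
  set Q : (Fin (M + 1) → E d) → (Fin M → E d) :=
    fun y m => h m (y m.castSucc) - A m (y m.castSucc) with hQ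
  set Y : E d → (Fin (M + 1) → E d) := fun v m => orb h v m with hY
  set J : E d → E d := fun v => v - G (Q (Y v)) 0 with hJ
  have hQb : ∀ y : Fin (M + 1) → E d, ‖y‖ ≤ r → ‖G (Q y)‖ ≤ 3 / 8 * r := by
    intro y hy
    have h1 : ‖Q y‖ ≤ ε₀ + η * r := by
      refine (pi_norm_le_iff_of_nonneg (by positivity)).2 fun m => ?_
      exact approx_bd hr hη hA m.2 (le_trans (norm_le_pi_norm y _) hy)
    calc ‖G (Q y)‖ ≤ ‖G‖ * ‖Q y‖ := G.le_opNorm _
      _ ≤ R * (ε₀ + η * r) := mul_le_mul hGR h1 (norm_nonneg _) hR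
      _ = R * ε₀ + (R * η) * r := by ring
      _ ≤ _ := by nlinarith
  have hQl : ∀ y y' : Fin (M + 1) → E d, ‖y‖ ≤ r → ‖y'‖ ≤ r →
      ‖G (Q y) - G (Q y')‖ ≤ 1 / 4 * ‖y - y'‖ := by
    intro y y' hy hy'
    have h1 : ‖Q y - Q y'‖ ≤ η * ‖y - y'‖ := by
      refine (pi_norm_le_iff_of_nonneg (by positivity)).2 fun m => ?_
      refine le_trans (approx_lip hA m.2 (le_trans (norm_le_pi_norm y _) hy)
        (le_trans (norm_le_pi_norm y' _) hy')) ?_
      exact mul_le_mul_of_nonneg_left (norm_le_pi_norm (y - y') m.castSucc) hη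
    rw [← map_sub]
    calc ‖G (Q y - Q y')‖ ≤ ‖G‖ * ‖Q y - Q y'‖ := G.le_opNorm _
      _ ≤ R * (η * ‖y - y'‖) := mul_le_mul hGR h1 (norm_nonneg _) hR
      _ = (R * η) * ‖y - y'‖ := by ring
      _ ≤ _ := mul_le_mul_of_nonneg_right ha (norm_nonneg _)
  have hYb : ∀ v ∈ tube h M r, ‖Y v‖ ≤ r := by
    intro v hv
    exact (pi_norm_le_iff_of_nonneg hr.le).2 fun m => hv m (by omega)
  have hlin : ∀ (v : E d) (m : Fin (M + 1)),
      (Y v - G (Q (Y v))) m = orb (fun m => A m) (J v) m := by
    intro v m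
    have := orb_eq_of_step (fun m => A m) M (Y v - G (Q (Y v))) (fun i => by
      simp only [Pi.sub_apply, hGA, map_sub, hQ, hY, Fin.val_succ, Fin.val_castSucc, orb]
      abel) m
    rw [this]
    rfl
  have hmeas : MeasurableSet (tube h M r) := (tube_closed hA M le_rfl).measurableSet
  have hder : ∀ v ∈ tube h M r, ∃ T : E d →L[ℝ] E d, HasFDerivAt J T v ∧
      1 / 2 ≤ |T.det| ∧ |T.det| ≤ 2 := by
    intro v hv
    have : ∀ m, m < M → ∃ D : E d →L[ℝ] E d, HasFDerivAt (h m) D (orb h v m) ∧ ‖D - A m‖ ≤ η :=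
      fun m hm => (hA m hm).2 _ (hv m hm.le)
    choose! B hB hBA using this
    have hO : ∀ n, n ≤ M → HasFDerivAt (fun u => orb h u n) (cpr B 0 n) v :=
      fun n hn => orb_hasFDerivAt B h v n (fun m hm => hB m (by omega))
    have hQY : HasFDerivAt (fun u => Q (Y u))
        (ContinuousLinearMap.pi fun m : Fin M => cpr B 0 (m + 1) - (A m).comp (cpr B 0 m)) v := by
      rw [hasFDerivAt_pi]
      intro m
      have h1 := hO (m + 1) m.2
      have h2 := (A m).hasFDerivAt.comp v (hO m m.2.le)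
      exact h1.sub h2
    have hG0 := ((ContinuousLinearMap.proj (R := ℝ) (φ := fun _ : Fin (M + 1) => E d) 0).comp
      G).hasFDerivAt.comp v hQY
    refine ⟨_, (hasFDerivAt_id v).sub hG0, ?_⟩
    refine det_jac A B M R η G hGR hGA hη hBA hs2 _ fun w => ?_
    rfl
  choose! T hT hT1 hT2 using hder
  have hT' : ∀ v ∈ tube h M r, HasFDerivWithinAt J (T v) (tube h M r) v :=
    fun v hv => (hT v hv).hasFDerivWithinAt
  have hinj : InjOn J (tube h M r) := by
    intro v hv v' hv' hvv
    have h1 : Y v - G (Q (Y v)) = Y v' - G (Q (Y v')) := by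
      funext m; rw [hlin, hlin, hvv]
    have h2 : Y v - Y v' = G (Q (Y v)) - G (Q (Y v')) := by
      rw [sub_eq_sub_iff_sub_eq_sub]; exact h1
    have h3 := hQl _ _ (hYb v hv) (hYb v' hv')
    rw [← h2] at h3
    have h4 : ‖Y v - Y v'‖ = 0 := le_antisymm (by linarith) (norm_nonneg _)
    have h5 : Y v = Y v' := sub_eq_zero.1 (norm_eq_zero.1 h4)
    exact congrFun h5 0
  refine ⟨hmeas, ?_, ?_⟩
  · have h1 := lintegral_abs_det_fderiv_le_addHaar_image volume hmeas hT' hinj
    have h2 : J '' tube h M r ⊆ tube (fun m => A m) M (2 * r) := by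
      rintro _ ⟨v, hv, rfl⟩ m hm
      have := hlin v ⟨m, by omega⟩
      simp only at this
      rw [← this]
      calc ‖(Y v - G (Q (Y v))) ⟨m, by omega⟩‖ ≤ ‖Y v - G (Q (Y v))‖ := norm_le_pi_norm _ _
        _ ≤ ‖Y v‖ + ‖G (Q (Y v))‖ := norm_sub_le _ _
        _ ≤ 2 * r := by linarith [hYb v hv, hQb _ (hYb v hv)]
    have h3 : ENNReal.ofReal (1 / 2) * volume (tube h M r)
        ≤ ∫⁻ x in tube h M r, ENNReal.ofReal |(T x).det| := by
      rw [← setLIntegral_const]
      exact setLIntegral_mono' hmeas fun x hx => ENNReal.ofReal_le_ofReal (hT1 x hx)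
    have h4 : (2 : ℝ≥0∞) * ENNReal.ofReal (1 / 2) = 1 := by
      rw [← ENNReal.ofReal_ofNat, ← ENNReal.ofReal_mul (by norm_num)]; norm_num
    calc volume (tube h M r) = 2 * (ENNReal.ofReal (1 / 2) * volume (tube h M r)) := by
          rw [← mul_assoc, h4, one_mul]
      _ ≤ _ := by
          gcongr
          exact h3.trans (h1.trans (measure_mono h2))
  · have h1 := addHaar_image_le_lintegral_abs_det_fderiv volume hmeas hT'
    have h3 : ∫⁻ x in tube h M r, ENNReal.ofReal |(T x).det| ≤ 2 * volume (tube h M r) := by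
      rw [← setLIntegral_const]
      refine setLIntegral_mono' hmeas fun x hx => ?_
      exact le_trans (ENNReal.ofReal_le_ofReal (hT2 x hx)) (by rw [ENNReal.ofReal_ofNat])
    refine le_trans (measure_mono ?_) (h1.trans h3)
    intro w hw
    set k : Fin (M + 1) → E d := fun m => orb (fun m => A m) w m with hk
    have hkb : ‖k‖ ≤ r / 2 := (pi_norm_le_iff_of_nonneg (by positivity)).2 fun m => hw m (by omega)
    set Φ : (Fin (M + 1) → E d) → (Fin (M + 1) → E d) := fun y => k + G (Q y) with hΦ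
    have hmaps : MapsTo Φ (Metric.closedBall 0 r) (Metric.closedBall 0 r) := by
      intro y hy
      rw [mem_closedBall_zero_iff] at hy ⊢
      calc ‖k + G (Q y)‖ ≤ ‖k‖ + ‖G (Q y)‖ := norm_add_le _ _
        _ ≤ r := by linarith [hQb y hy]
    have hcon : ContractingWith (1 / 4) (hmaps.restrict Φ _ _) := by
      refine ⟨by norm_num, LipschitzWith.of_dist_le_mul fun y y' => ?_⟩
      have hy := mem_closedBall_zero_iff.1 y.2
      have hy' := mem_closedBall_zero_iff.1 y'.2
      have := hQl _ _ hy hy'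
      rw [Subtype.dist_eq, Subtype.dist_eq, dist_eq_norm, dist_eq_norm]
      simp only [MapsTo.val_restrict_apply, hΦ, add_sub_add_left_eq_sub]
      push_cast
      exact this
    obtain ⟨y, hy, hfix, -⟩ := ContractingWith.exists_fixedPoint'
      Metric.isClosed_closedBall.isComplete hmaps hcon (x := 0)
      (Metric.mem_closedBall_self hr.le) (edist_ne_top _ _)
    rw [mem_closedBall_zero_iff] at hy
    have hfix' : ∀ m, y m = k m + G (Q y) m := fun m => (congrFun hfix m).symm
    have hyo : ∀ m, y m = orb h (y 0) m := by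
      refine orb_eq_of_step h M y fun m => ?_
      rw [hfix' m.succ, hGA]
      have e1 : k m.succ = A m (k m.castSucc) := rfl
      rw [e1, ← add_assoc, ← map_add, ← hfix']
      simp only [hQ]
      abel
    have hYy : Y (y 0) = y := by funext m; exact (hyo m).symm
    refine ⟨y 0, fun m hm => ?_, ?_⟩
    · have := hyo ⟨m, by omega⟩
      simp only at this
      rw [← this]
      exact le_trans (norm_le_pi_norm y _) hy
    · simp only [hJ, hYy]
      rw [hfix' 0]
      simp only [add_sub_cancel_right]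
      rfl

/-- Two systems close to the same cocycle have comparable tubes (linear tubes scale: `addHaar_smul`; they contain a
small ball). -/
theorem tube_ratio (A : ℕ → (E d →L[ℝ] E d)) (h h' : ℕ → E d → E d) (M : ℕ) (R ρ η ε₀ : ℝ)
    (hρ : 0 < ρ) (hη : 0 ≤ η) (hε : 0 ≤ ε₀) (hG : Green A M R)
    (hA : Approx A h M ρ η ε₀) (hA' : Approx A h' M (2 * ρ) η ε₀)
    (hs : 4 * (R * η) * (d * (M + 1) + 1) ≤ 1) (hs' : 8 * (R * ε₀) ≤ ρ) :
    MeasurableSet (tube h M ρ) ∧ MeasurableSet (tube h' M (2 * ρ)) ∧ 0 < volume (tube h M ρ) ∧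
    volume (tube h' M (2 * ρ)) ≤ 4 * 8 ^ d * volume (tube h M ρ) := by
  obtain ⟨m1, -, l1⟩ := tube_volume A h M R ρ η ε₀ hρ hη hε hG hA hs hs'
  obtain ⟨m2, u2, -⟩ := tube_volume A h' M R (2 * ρ) η ε₀ (by linarith) hη hε hG hA' hs
    (by linarith)
  have hsc : tube (fun m => A m) M (2 * (2 * ρ)) ⊆ (8 : ℝ) • tube (fun m => A m) M (ρ / 2) := by
    intro v hv
    refine ⟨(8 : ℝ)⁻¹ • v, fun m hm => ?_, ?_⟩
    · rw [orb_lin_smul, norm_smul]
      have := hv m hm
      rw [Real.norm_of_nonneg (by norm_num)]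
      linarith
    · simp only [smul_smul]
      norm_num
  have hpos : 0 < volume (tube (fun m => A m) M (ρ / 2)) := by
    have hopen : IsOpen (⋂ m ∈ Finset.range (M + 1),
        {v : E d | ‖orb (fun m => A m) v m‖ < ρ / 2}) :=
      isOpen_biInter_finset fun m _ => isOpen_lt (orb_lin_cont A m).norm continuous_const
    refine lt_of_lt_of_le (hopen.measure_pos volume ⟨0, ?_⟩) (measure_mono ?_)
    · simp only [mem_iInter, mem_ofPred_eq]
      intro m _
      have := orb_lin_smul A 0 0 m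
      rw [zero_smul, zero_smul] at this
      rw [this, norm_zero]
      positivity
    · intro v hv m hm
      simp only [mem_iInter, mem_ofPred_eq] at hv
      exact (hv m (Finset.mem_range.2 (by omega))).le
  refine ⟨m1, m2, ?_, ?_⟩
  · rcases eq_or_ne (volume (tube h M ρ)) 0 with h0 | h0
    · rw [h0, mul_zero] at l1
      exact absurd (lt_of_lt_of_le hpos l1) (lt_irrefl _)
    · exact pos_iff_ne_zero.2 h0
  · have h8 : volume ((8 : ℝ) • tube (fun m => A m) M (ρ / 2))
        = 8 ^ d * volume (tube (fun m => A m) M (ρ / 2)) := by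
      rw [Measure.addHaar_smul, finrank_euclideanSpace_fin, abs_of_nonneg (by positivity),
        ENNReal.ofReal_pow (by norm_num), ENNReal.ofReal_ofNat]
    calc volume (tube h' M (2 * ρ)) ≤ 2 * volume (tube (fun m => A m) M (2 * (2 * ρ))) := u2
      _ ≤ 2 * (8 ^ d * volume (tube (fun m => A m) M (ρ / 2))) := by
          rw [← h8]; gcongr
      _ ≤ 2 * (8 ^ d * (2 * volume (tube h M ρ))) := by gcongr
      _ = _ := by ring

end Crest.Agent.R133
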