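import Crest.Agent.R133.Defs

set_option autoImplicit false

namespace Crest.Agent.R133

open MeasureTheory Set
open scoped ENNReal

theorem shell_near {d : ℕ} {C : Set (E d)} (hk : IsCompact C) {t : ℝ} (ht : 0 ≤ t) {u : E d}
    (hu : u ∈ Metric.cthickening t (frontier C)) : ∃ c ∈ frontier C, ‖u - c‖ ≤ t := by
  have h : IsCompact (frontier C) :=
    hk.of_isClosed_subset isClosed_frontier hk.isClosed.frontier_subset
  rw [h.cthickening_eq_biUnion_closedBall ht] at hu
  simpa [dist_eq_norm] using hu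

theorem shell_volume' {d : ℕ} (C : Set (E d)) (hc : Convex ℝ C) (hk : IsCompact C)
    (hi : (interior C).Nonempty) :
    ∃ c t₀ : ℝ, 0 ≤ c ∧ 0 < t₀ ∧ ∀ t, 0 < t → t ≤ t₀ →
      volume (Metric.cthickening t (frontier C)) ≤ ENNReal.ofReal (c * t) := by
  obtain ⟨p, hp⟩ := hi
  obtain ⟨a, ha, hpa⟩ := Metric.mem_nhds_iff.1 (mem_interior_iff_mem_nhds.1 hp)
  refine ⟨4 / a * d * 2 ^ (d - 1) * (volume C).toReal, a / 4, by positivity, by positivity,
    fun t ht hta => ?_⟩
  obtain ⟨s, hs⟩ : ∃ s, s = 2 * t / a := ⟨_, rfl⟩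
  have hs0 : 0 < s := by rw [hs]; positivity
  have hs1 : s ≤ 1 / 2 := by rw [hs, div_le_iff₀ ha]; linarith
  have hsa : s * a = 2 * t := by rw [hs]; field_simp
  have hball : ∀ w : E d, ‖w‖ < 2 * t → p + s⁻¹ • w ∈ C := fun w hw => hpa (by
    rw [mem_ball_iff_norm, add_sub_cancel_left, norm_smul, Real.norm_of_nonneg (by positivity),
      inv_mul_lt_iff₀ hs0, hsa]
    exact hw)
  have h₁ : ∀ c ∈ C, ∀ w : E d, ‖w‖ < 2 * t → c + w ∈ AffineMap.homothety p (1 + s) '' C := by
    intro c hcC w hw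
    refine ⟨_, hc hcC (hball w hw) (a := 1 / (1 + s)) (b := s / (1 + s)) (by positivity)
      (by positivity) (by field_simp), ?_⟩
    rw [AffineMap.homothety_apply]
    ext i
    simp
    field_simp
    ring
  have h₂ : ∀ c ∈ C, ∀ w : E d, ‖w‖ < 2 * t → AffineMap.homothety p (1 - s) c + w ∈ C := by
    intro c hcC w hw
    convert hc hcC (hball w hw) (a := 1 - s) (b := s) (by linarith) hs0.le (by ring) using 1
    rw [AffineMap.homothety_apply]
    ext i
    simp
    field_simp
    ring
  have h₃ : Metric.cthickening t (frontier C) ⊆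
      AffineMap.homothety p (1 + s) '' C \ AffineMap.homothety p (1 - s) '' C := by
    intro u hu
    obtain ⟨c, hcC, huc⟩ := shell_near hk ht.le hu
    refine ⟨by simpa using h₁ c (hk.isClosed.frontier_subset hcC) (u - c) (by linarith), ?_⟩
    rintro ⟨c', hc', rfl⟩
    refine hcC.2 (mem_interior_iff_mem_nhds.2 (Metric.mem_nhds_iff.2 ⟨t, ht, fun v hv => ?_⟩))
    have := h₂ c' hc' (v - AffineMap.homothety p (1 - s) c') (by
      rw [mem_ball_iff_norm] at hv
      calc _ = ‖(v - c) - (AffineMap.homothety p (1 - s) c' - c)‖ := by congr 1; abel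
        _ ≤ _ := norm_sub_le _ _
        _ < 2 * t := by linarith)
    simpa using this
  have h₄ : AffineMap.homothety p (1 - s) '' C ⊆ AffineMap.homothety p (1 + s) '' C := by
    rintro _ ⟨c, hcC, rfl⟩
    have := h₂ c hcC 0 (by simpa using ht)
    simpa using h₁ _ this 0 (by simpa using ht)
  have hK : IsCompact (AffineMap.homothety p (1 - s) '' C) :=
    hk.image (AffineMap.homothety_continuous _ _)
  refine (measure_mono h₃).trans ?_
  rw [measure_sdiff h₄ hK.measurableSet.nullMeasurableSet hK.measure_lt_top.ne,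
    Measure.addHaar_image_homothety, Measure.addHaar_image_homothety, finrank_euclideanSpace_fin,
    ← ENNReal.ofReal_toReal hk.measure_lt_top.ne, ← ENNReal.ofReal_mul (abs_nonneg _),
    ← ENNReal.ofReal_mul (abs_nonneg _), ← ENNReal.ofReal_sub _ (by positivity),
    ENNReal.toReal_ofReal ENNReal.toReal_nonneg]
  refine ENNReal.ofReal_le_ofReal ?_
  have h₅ := abs_pow_sub_pow_le (1 + s) (1 - s) d
  have h₆ : max |1 + s| |1 - s| ^ (d - 1) ≤ 2 ^ (d - 1) := by
    refine pow_le_pow_left₀ (le_max_of_le_left (abs_nonneg _)) (max_le ?_ ?_) _ <;>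
      rw [abs_le] <;> constructor <;> linarith
  have h₇ : |(1 + s) ^ d| - |(1 - s) ^ d| ≤ 4 / a * d * 2 ^ (d - 1) * t := by
    refine (abs_sub_abs_le_abs_sub _ _).trans (h₅.trans ?_)
    rw [show (1 + s) - (1 - s) = 2 * s by ring, abs_of_pos (by positivity),
      show 4 / a * d * 2 ^ (d - 1) * t = 2 * s * d * 2 ^ (d - 1) by rw [hs]; ring]
    gcongr
  rw [← sub_mul, mul_right_comm]
  gcongr

theorem ball_dichotomy' {d : ℕ} (C : Set (E d)) (hC : IsClosed C) (u : E d) (t : ℝ)
    (h : u ∉ Metric.cthickening t (frontier C)) :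
    Metric.closedBall u t ⊆ C ∨ Disjoint (Metric.closedBall u t) C := by
  refine ((convex_closedBall u t).isPreconnected.subset_or_subset isOpen_interior hC.isOpen_compl
    (disjoint_compl_right.mono_left interior_subset) fun v hv => ?_).imp
    (fun h => h.trans interior_subset) subset_compl_iff_disjoint_right.1
  by_contra hv'
  simp only [mem_union, mem_compl_iff, not_or, not_not] at hv'
  exact h (Metric.mem_cthickening_of_dist_le u v t _ ⟨subset_closure hv'.2, hv'.1⟩
    (Metric.mem_closedBall'.1 hv))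

end Crest.Agent.R133
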