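import Crest.Agent.R133.Man1a
import Crest.Agent.R133.Man1b

set_option autoImplicit false

namespace Crest.Agent.R133

open MeasureTheory Set
open scoped ENNReal Manifold ContDiff

/-- Uniform local `C^{1,1}` bounds of a smooth map in two fixed charts, along compact sets.
Proof: `Z = e_a '' (Ka ∩ f ⁻¹' Kb)` is compact inside `W = target ∩ e_a.symm ⁻¹' f ⁻¹' source_b`, and
`W = O ∩ range I` with `O` open; take `r₀` with `cthickening r₀ Z ⊆ O`; `Z' = cthickening r₀ Z ∩ range I` is
compact in `W`. `F` is `ContDiffOn ℝ ∞` on `W` (`contMDiff_iff`), `W` is `UniqueDiffOn`; so `D = fderivWithin ℝ F W`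
and `fderivWithin ℝ D W` are continuous on `W`, bounded on `Z'`. Use the mean value inequality
(`Convex.norm_image_sub_le_of_norm_hasFDerivWithin_le`) on the convex set `closedBall ∩ range I`
(`I.convex_range`); at points of `interior (range I)`, `W ∈ 𝓝 u` and `fderivWithin = fderiv`. -/
theorem local_bounds {d : ℕ} {H : Type*} [TopologicalSpace H] (I : ModelWithCorners ℝ (E d) H)
    {M : Type*} [TopologicalSpace M] [T2Space M] [ChartedSpace H M] [IsManifold I ∞ M]
    (f : M → M) (hf : ContMDiff I I ∞ f) (a b : M) (Ka Kb : Set M)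
    (hKa : IsCompact Ka) (hKb : IsCompact Kb)
    (ha : Ka ⊆ (extChartAt I a).source) (hb : Kb ⊆ (extChartAt I b).source) :
    ∃ r₀ : ℝ, 0 < r₀ ∧ ∃ Λ : ℝ, 1 ≤ Λ ∧ ∀ x ∈ Ka, f x ∈ Kb →
      (∀ u ∈ Metric.closedBall (extChartAt I a x) r₀ ∩ range I,
        u ∈ (extChartAt I a).target ∧ f ((extChartAt I a).symm u) ∈ (extChartAt I b).source) ∧
      (∀ u ∈ Metric.closedBall (extChartAt I a x) r₀ ∩ range I,
        ∀ v ∈ Metric.closedBall (extChartAt I a x) r₀ ∩ range I,
        ‖extChartAt I b (f ((extChartAt I a).symm u)) - extChartAt I b (f ((extChartAt I a).symm v))‖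
          ≤ Λ * ‖u - v‖) ∧
      (∀ u ∈ Metric.closedBall (extChartAt I a x) r₀ ∩ interior (range I),
        DifferentiableAt ℝ (fun w => extChartAt I b (f ((extChartAt I a).symm w))) u ∧
        ‖fderiv ℝ (fun w => extChartAt I b (f ((extChartAt I a).symm w))) u‖ ≤ Λ) ∧
      (∀ u ∈ Metric.closedBall (extChartAt I a x) r₀ ∩ interior (range I),
        ∀ v ∈ Metric.closedBall (extChartAt I a x) r₀ ∩ interior (range I),
        ‖fderiv ℝ (fun w => extChartAt I b (f ((extChartAt I a).symm w))) u -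
          fderiv ℝ (fun w => extChartAt I b (f ((extChartAt I a).symm w))) v‖ ≤ Λ * ‖u - v‖) :=
  local_bounds' I f hf a b Ka Kb hKa hKb ha hb

/-- Thin neighbourhoods of the boundary of a convex body have volume `O(t)`.
Proof: `ball p a ⊆ C`. With `s = 2t/a ≤ 1/2`: points of `homothety p (1-s) '' C` have `ball u (2t) ⊆ C`, and points
within `2t` of `C` lie in `homothety p (1+s) '' C`; `addHaar_image_homothety`, and
`(1+s)^d - (1-s)^d ≤ c s`. -/
theorem shell_volume {d : ℕ} (C : Set (E d)) (hc : Convex ℝ C) (hk : IsCompact C)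
    (hi : (interior C).Nonempty) :
    ∃ c t₀ : ℝ, 0 ≤ c ∧ 0 < t₀ ∧ ∀ t, 0 < t → t ≤ t₀ →
      volume (Metric.cthickening t (frontier C)) ≤ ENNReal.ofReal (c * t) :=
  shell_volume' C hc hk hi

/-- A ball that misses the frontier is inside or outside (preconnectedness of the ball). -/
theorem ball_dichotomy {d : ℕ} (C : Set (E d)) (hC : IsClosed C) (u : E d) (t : ℝ)
    (h : u ∉ Metric.cthickening t (frontier C)) :
    Metric.closedBall u t ⊆ C ∨ Disjoint (Metric.closedBall u t) C :=
  ball_dichotomy' C hC u t h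

end Crest.Agent.R133
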