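import Crest.Agent.R133.Man2Aux

/-!
# Row 133: the pieces of a finite atlas and the depth lemma
-/

set_option autoImplicit false

namespace Crest.Agent.R133

open MeasureTheory Set Topology
open scoped ENNReal Manifold ContDiff

namespace Man2

namespace Atl

variable {d : ℕ} {H : Type*} [TopologicalSpace H] {I : ModelWithCorners ℝ (E d) H}
  {M : Type*} [TopologicalSpace M] [ChartedSpace H M] [MeasurableSpace M]
  {ν : Measure M} {f g : M → M} (a : Atl I ν f g)

open Classical in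
noncomputable def idx (x : M) : ℕ := Nat.find (a.cover x)

noncomputable def φ (x : M) : E d := extChartAt I (a.c (a.idx x)) x

open Classical in
noncomputable def ψ (i : ℕ) : E d → M :=
  (cb I (a.c i) (2 * a.s i)).piecewise (extChartAt I (a.c i)).symm (fun _ => a.c i)

def Sh (T : ℝ) : Set M :=
  ⋃ j ∈ Finset.range a.k, kb I (a.c j) (2 * a.s j) ∩
    extChartAt I (a.c j) ⁻¹' Metric.cthickening T (frontier (cb I (a.c j) (a.s j)))

theorem idx_lt (x : M) : a.idx x < a.k := by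
  classical exact (Nat.find_spec (a.cover x)).1

theorem mem_idx (x : M) : x ∈ kb I (a.c (a.idx x)) (a.s (a.idx x)) := by
  classical exact (Nat.find_spec (a.cover x)).2

theorem idx_le {x : M} {j : ℕ} (hj : j < a.k) (hx : x ∈ kb I (a.c j) (a.s j)) : a.idx x ≤ j := by
  classical exact Nat.find_min' (a.cover x) ⟨hj, hx⟩

theorem cb_sub (i : ℕ) : cb I (a.c i) (a.s i) ⊆ cb I (a.c i) (2 * a.s i) :=
  cb_mono I _ (by have := a.s_pos i; linarith)

theorem kb_sub (i : ℕ) : kb I (a.c i) (a.s i) ⊆ kb I (a.c i) (2 * a.s i) :=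
  kb_mono I _ (by have := a.s_pos i; linarith)

theorem cb_tar (i : ℕ) : cb I (a.c i) (a.s i) ⊆ (extChartAt I (a.c i)).target :=
  (a.cb_sub i).trans (a.sub i)

theorem ψ_eq {i : ℕ} {u : E d} (hu : u ∈ cb I (a.c i) (a.s i)) :
    a.ψ i u = (extChartAt I (a.c i)).symm u := by
  classical
  unfold ψ
  exact piecewise_eq_of_mem _ _ _ (a.cb_sub i hu)

theorem left_inv (x : M) : a.ψ (a.idx x) (a.φ x) = x := by
  have h := a.mem_idx x
  rw [a.ψ_eq (u := a.φ x) h.2]
  exact (extChartAt I _).left_inv h.1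

theorem φ_bdd (x : M) : ‖a.φ x‖ ≤ a.L := by
  have h := (a.mem_idx x).2.1
  rw [Metric.mem_closedBall, dist_eq_norm] at h
  have h2 := a.bdd _ (a.idx_lt x)
  have h3 := norm_sub_norm_le (extChartAt I (a.c (a.idx x)) x)
    (extChartAt I (a.c (a.idx x)) (a.c (a.idx x)))
  unfold φ
  linarith

theorem meas_kb [T2Space M] [BorelSpace M] (i : ℕ) : MeasurableSet (kb I (a.c i) (a.s i)) :=
  (kb_compact I _ _ (a.cb_tar i)).isClosed.measurableSet

theorem meas_idx [T2Space M] [BorelSpace M] : Measurable a.idx := by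
  classical
  refine measurable_find a.cover fun k => ?_
  by_cases hk : k < a.k
  · simp only [hk, true_and]
    exact a.meas_kb k
  · simp only [hk, false_and, ofPred_false, MeasurableSet.empty]

theorem meas_φ [T2Space M] [BorelSpace M] : Measurable a.φ := by
  classical
  have h : ∀ n, Measurable ((kb I (a.c n) (a.s n)).piecewise (extChartAt I (a.c n))
      (fun _ => (0 : E d))) := fun n =>
    ContinuousOn.measurable_piecewise ((continuousOn_extChartAt _).mono inter_subset_left)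
      continuousOn_const (a.meas_kb n)
  have h2 := meas_comp_idx a.meas_idx h
  convert h2 using 1
  funext x
  rw [piecewise_eq_of_mem _ _ _ (a.mem_idx x)]
  rfl

theorem meas_ψ [BorelSpace M] (i : ℕ) : Measurable (a.ψ i) := by
  classical
  unfold ψ
  exact ContinuousOn.measurable_piecewise ((continuousOn_extChartAt_symm _).mono (a.sub i))
    continuousOn_const (cb_closed I _ _).measurableSet

theorem meas_Sh [T2Space M] [BorelSpace M] (T : ℝ) : MeasurableSet (a.Sh T) := by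
  refine Finset.measurableSet_biUnion _ fun j _ => IsClosed.measurableSet ?_
  exact ContinuousOn.preimage_isClosed_of_isClosed
    ((continuousOn_extChartAt _).mono inter_subset_left) (kb_compact I _ _ (a.sub j)).isClosed
    Metric.isClosed_cthickening

theorem Sh_small {T : ℝ} (hT : 0 < T) (hTr : T ≤ a.r) :
    ν (a.Sh T) ≤ ENNReal.ofReal (a.k * (a.L * (a.L * T))) := by
  have hL : 0 ≤ a.L := zero_le_one.trans a.one_le
  calc ν (a.Sh T) ≤ ∑ j ∈ Finset.range a.k, ν (kb I (a.c j) (2 * a.s j) ∩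
        extChartAt I (a.c j) ⁻¹' Metric.cthickening T (frontier (cb I (a.c j) (a.s j)))) :=
        measure_biUnion_finset_le _ _
    _ ≤ ∑ j ∈ Finset.range a.k, ENNReal.ofReal (a.L * (a.L * T)) := by
        refine Finset.sum_le_sum fun j hj => ?_
        have hj' := Finset.mem_range.1 hj
        refine (a.up j hj' _ Metric.isClosed_cthickening.measurableSet).trans ?_
        rw [ENNReal.ofReal_mul hL]
        gcongr
        exact a.shell j hj' T hT hTr
    _ = _ := by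
        rw [Finset.sum_const, Finset.card_range, nsmul_eq_mul,
          ENNReal.ofReal_mul (Nat.cast_nonneg _), ENNReal.ofReal_natCast]

/-- a point of the double piece away from the shell whose `T`-ball meets the piece has its
whole `T`-ball in the piece -/
theorem ball_sub {T : ℝ} {x : M} (hx : x ∉ a.Sh T) {j : ℕ} (hj : j < a.k)
    (hxj : x ∈ kb I (a.c j) (2 * a.s j)) {u : E d} (hu : u ∈ cb I (a.c j) (a.s j))
    (hd : ‖u - extChartAt I (a.c j) x‖ ≤ T) :
    Metric.closedBall (extChartAt I (a.c j) x) T ⊆ cb I (a.c j) (a.s j) := by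
  have h1 : extChartAt I (a.c j) x ∉ Metric.cthickening T (frontier (cb I (a.c j) (a.s j))) := by
    intro h
    exact hx (mem_iUnion₂.2 ⟨j, Finset.mem_range.2 hj, hxj, h⟩)
  rcases ball_dichotomy _ (cb_closed I _ _) _ _ h1 with h | h
  · exact h
  · exact absurd hu (disjoint_left.1 h (by rwa [Metric.mem_closedBall, dist_eq_norm]))

theorem ball_sub_idx {T : ℝ} (hT : 0 ≤ T) {x : M} (hx : x ∉ a.Sh T) :
    Metric.closedBall (a.φ x) T ⊆ cb I (a.c (a.idx x)) (a.s (a.idx x)) :=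
  a.ball_sub hx (a.idx_lt x) (a.kb_sub _ (a.mem_idx x)) (a.mem_idx x).2 (by simpa using hT)

/-- Depth lemma. -/
theorem depth {T r : ℝ} (hT : a.L * r ≤ T) (hTr : T ≤ a.r) {x : M} (hx : x ∉ a.Sh T) {u : E d}
    (hu : ‖u - a.φ x‖ ≤ r) :
    u ∈ cb I (a.c (a.idx x)) (a.s (a.idx x)) ∧
      a.idx ((extChartAt I (a.c (a.idx x))).symm u) = a.idx x := by
  have hr : 0 ≤ r := (norm_nonneg _).trans hu
  have hL := a.one_le
  have hrT : r ≤ T := by nlinarith
  have hu1 : u ∈ cb I (a.c (a.idx x)) (a.s (a.idx x)) :=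
    a.ball_sub_idx (hr.trans hrT) hx (by rw [Metric.mem_closedBall, dist_eq_norm]; linarith)
  refine ⟨hu1, ?_⟩
  set i := a.idx x with hi
  set y := (extChartAt I (a.c i)).symm u with hy
  have hut := a.cb_tar i hu1
  have hey : extChartAt I (a.c i) y = u := (extChartAt I _).right_inv hut
  have hyK : y ∈ kb I (a.c i) (a.s i) :=
    ⟨(extChartAt I _).map_target hut, by rw [mem_preimage, hey]; exact hu1⟩
  have hxK := a.mem_idx x
  rw [← hi] at hxK
  apply le_antisymm (a.idx_le (a.idx_lt x) hyK)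
  set j := a.idx y with hj
  have hjk : j < a.k := a.idx_lt y
  have hyj : y ∈ kb I (a.c j) (a.s j) := a.mem_idx y
  obtain ⟨h1, h2, -, -⟩ := a.lb_id i (a.idx_lt x) j hjk y hyK hyj
  have hφ : a.φ x = extChartAt I (a.c i) x := rfl
  have hx1 : extChartAt I (a.c i) x ∈ Metric.closedBall (extChartAt I (a.c i) y) a.r ∩ range I := by
    refine ⟨?_, hxK.2.2⟩
    rw [Metric.mem_closedBall, dist_eq_norm, hey, norm_sub_rev, ← hφ]
    linarith
  have hu2 : u ∈ Metric.closedBall (extChartAt I (a.c i) y) a.r ∩ range I := by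
    refine ⟨?_, hu1.2⟩
    rw [hey]
    exact Metric.mem_closedBall_self a.r_pos.le
  have h3 := (h1 _ hx1).2
  have h4 := h2 _ hu2 _ hx1
  simp only [id] at h3 h4
  rw [(extChartAt I _).left_inv hxK.1] at h3 h4
  rw [← hy, ← hφ] at h4
  have h5 : ‖extChartAt I (a.c j) y - extChartAt I (a.c j) x‖ ≤ T :=
    h4.trans ((mul_le_mul_of_nonneg_left hu (by linarith)).trans hT)
  have hx2 : x ∈ kb I (a.c j) (2 * a.s j) := by
    refine ⟨h3, ?_, extChartAt_target_subset_range _ ((extChartAt I _).map_source h3)⟩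
    have h6 := hyj.2.1
    rw [Metric.mem_closedBall] at h6 ⊢
    have h7 := dist_triangle (extChartAt I (a.c j) x) (extChartAt I (a.c j) y)
      (extChartAt I (a.c j) (a.c j))
    rw [dist_comm (extChartAt I (a.c j) x) (extChartAt I (a.c j) y), dist_eq_norm
      (extChartAt I (a.c j) y) (extChartAt I (a.c j) x)] at h7
    have h8 := a.r_le j hjk
    linarith
  have h9 := a.ball_sub hx hjk hx2 hyj.2 h5
  exact a.idx_le hjk ⟨h3, h9 (Metric.mem_closedBall_self (hr.trans hrT))⟩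

/-- `loc`, for a ball of radius `ρ`. -/
theorem loc {T ρ : ℝ} (hT : a.L * (a.L * ρ) ≤ T) (hTr : T ≤ a.r) {x : M} (hx : x ∉ a.Sh T)
    (hfx : f x ∉ a.Sh T) {u : E d} (hu : ‖u - a.φ x‖ ≤ ρ) :
    u ∈ cb I (a.c (a.idx x)) (a.s (a.idx x)) ∧
      a.idx ((extChartAt I (a.c (a.idx x))).symm u) = a.idx x ∧
      f ((extChartAt I (a.c (a.idx x))).symm u) ∈ (extChartAt I (a.c (a.idx (f x)))).source ∧
      a.idx (f ((extChartAt I (a.c (a.idx x))).symm u)) = a.idx (f x) := by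
  have hρ : 0 ≤ ρ := (norm_nonneg _).trans hu
  have hL := a.one_le
  have h0 : ρ ≤ a.L * ρ := by nlinarith
  have h0' : a.L * ρ ≤ a.L * (a.L * ρ) := by nlinarith
  obtain ⟨hu1, hu2⟩ := a.depth (T := T) (r := ρ) (by linarith) hTr hx hu
  refine ⟨hu1, hu2, ?_⟩
  obtain ⟨h1, h2, -, -⟩ := a.lb_f _ (a.idx_lt x) _ (a.idx_lt (f x)) x (a.mem_idx x) (a.mem_idx _)
  have hφ : a.φ x = extChartAt I (a.c (a.idx x)) x := rfl
  have hu3 : u ∈ Metric.closedBall (extChartAt I (a.c (a.idx x)) x) a.r ∩ range I := by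
    refine ⟨?_, hu1.2⟩
    rw [Metric.mem_closedBall, dist_eq_norm, ← hφ]
    linarith
  have hx3 : extChartAt I (a.c (a.idx x)) x ∈
      Metric.closedBall (extChartAt I (a.c (a.idx x)) x) a.r ∩ range I :=
    ⟨Metric.mem_closedBall_self a.r_pos.le, (a.mem_idx x).2.2⟩
  have h3 := (h1 _ hu3).2
  have h4 := h2 _ hu3 _ hx3
  rw [(extChartAt I _).left_inv (a.mem_idx x).1, ← hφ] at h4
  refine ⟨h3, ?_⟩
  have h5 := (a.depth (T := T) (r := a.L * ρ) hT hTr hfx
    (u := extChartAt I (a.c (a.idx (f x))) (f ((extChartAt I (a.c (a.idx x))).symm u)))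
    (h4.trans (mul_le_mul_of_nonneg_left hu (by linarith)))).2
  rwa [(extChartAt I _).left_inv h3] at h5

theorem chart_eq {T ρ : ℝ} (hT : a.L * (a.L * ρ) ≤ T) (hTr : T ≤ a.r) {x : M} (hx : x ∉ a.Sh T)
    (hfx : f x ∉ a.Sh T) {u : E d} (hu : ‖u - a.φ x‖ ≤ ρ) :
    a.φ (f (a.ψ (a.idx x) u)) =
      extChartAt I (a.c (a.idx (f x))) (f ((extChartAt I (a.c (a.idx x))).symm u)) := by
  obtain ⟨h1, -, -, h4⟩ := a.loc hT hTr hx hfx hu
  rw [a.ψ_eq h1]
  unfold φ
  rw [h4]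

theorem ball_nhds {x₀ u : E d} {r : ℝ} (hr : 0 < r) (hu : ‖u - x₀‖ ≤ r) :
    Metric.closedBall x₀ (2 * r) ∈ 𝓝 u := by
  refine Filter.mem_of_superset (Metric.isOpen_ball.mem_nhds ?_) Metric.ball_subset_closedBall
  rw [Metric.mem_ball, dist_eq_norm]
  linarith

theorem chart_evEq {T r : ℝ} (hr : 0 < r) (hT : a.L * (a.L * (2 * r)) ≤ T) (hTr : T ≤ a.r) {x : M}
    (hx : x ∉ a.Sh T) (hfx : f x ∉ a.Sh T) {u : E d} (hu : ‖u - a.φ x‖ ≤ r) :
    (fun v => a.φ (f (a.ψ (a.idx x) v))) =ᶠ[𝓝 u] fun v =>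
      extChartAt I (a.c (a.idx (f x))) (f ((extChartAt I (a.c (a.idx x))).symm v)) := by
  filter_upwards [ball_nhds hr hu] with v hv
  exact a.chart_eq hT hTr hx hfx (by rwa [Metric.mem_closedBall, dist_eq_norm] at hv)

theorem mem_int {T r : ℝ} (hr : 0 < r) (hT : 2 * r ≤ T) (hTr : T ≤ a.r) {x : M}
    (hx : x ∉ a.Sh T) {u : E d} (hu : ‖u - a.φ x‖ ≤ r) :
    u ∈ Metric.closedBall (extChartAt I (a.c (a.idx x)) x) a.r ∩ interior (range I) := by
  have hφ : a.φ x = extChartAt I (a.c (a.idx x)) x := rfl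
  refine ⟨?_, ?_⟩
  · rw [Metric.mem_closedBall, dist_eq_norm, ← hφ]
    linarith
  · rw [mem_interior_iff_mem_nhds]
    refine Filter.mem_of_superset (ball_nhds hr hu) ?_
    refine (Metric.closedBall_subset_closedBall hT).trans ?_
    exact (a.ball_sub_idx (by linarith) hx).trans inter_subset_right

/-- the derivative of the chart expression at a regular point -/
theorem deriv_good (hgf : ∀ x, g (f x) = x) {T r : ℝ} (hr : 0 < r)
    (hT : a.L * (a.L * (2 * r)) ≤ T) (hTr : T ≤ a.r) {x : M}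
    (hx : x ∉ a.Sh T) (hfx : f x ∉ a.Sh T) :
    ‖fderiv ℝ (fun v => a.φ (f (a.ψ (a.idx x) v))) (a.φ x)‖ ≤ a.L ∧
      ∀ v, ‖v‖ ≤ a.L * ‖fderiv ℝ (fun v => a.φ (f (a.ψ (a.idx x) v))) (a.φ x) v‖ := by
  have hL := a.one_le
  have h0 : 2 * r ≤ a.L * (2 * r) := by nlinarith
  have h0' : a.L * (2 * r) ≤ a.L * (a.L * (2 * r)) := by nlinarith
  have hself : ∀ z : E d, ‖z - z‖ ≤ r := fun z => by simpa using hr.le
  rw [(a.chart_evEq hr hT hTr hx hfx (hself _)).fderiv_eq]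
  obtain ⟨-, -, h3, -⟩ := a.lb_f _ (a.idx_lt x) _ (a.idx_lt (f x)) x (a.mem_idx x) (a.mem_idx _)
  obtain ⟨-, -, h3', -⟩ := a.lb_g _ (a.idx_lt (f x)) _ (a.idx_lt x) (f x) (a.mem_idx _)
    (by rw [hgf]; exact a.mem_idx x)
  obtain ⟨hd, hn⟩ := h3 _ (a.mem_int hr (by linarith) hTr hx (hself _))
  obtain ⟨hd', hn'⟩ := h3' _ (a.mem_int hr (by linarith) hTr hfx (hself _))
  refine ⟨hn, fun v => ?_⟩
  set G : E d → E d := fun w =>
    extChartAt I (a.c (a.idx (f x))) (f ((extChartAt I (a.c (a.idx x))).symm w)) with hG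
  set G' : E d → E d := fun w =>
    extChartAt I (a.c (a.idx x)) (g ((extChartAt I (a.c (a.idx (f x)))).symm w)) with hG'
  have hGx : G (a.φ x) = a.φ (f x) := by
    simp only [hG, φ]
    rw [(extChartAt I _).left_inv (a.mem_idx x).1]
  have hid : (G' ∘ G) =ᶠ[𝓝 (a.φ x)] id := by
    filter_upwards [ball_nhds hr (hself (a.φ x))] with w hw
    rw [Metric.mem_closedBall, dist_eq_norm] at hw
    obtain ⟨h1, -, h2, -⟩ := a.loc hT hTr hx hfx hw
    simp only [hG, hG', Function.comp, id]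
    rw [(extChartAt I _).left_inv h2, hgf, (extChartAt I _).right_inv (a.cb_tar _ h1)]
  have hc : HasFDerivAt (G' ∘ G) ((fderiv ℝ G' (a.φ (f x))).comp (fderiv ℝ G (a.φ x))) (a.φ x) := by
    refine HasFDerivAt.comp _ ?_ hd.hasFDerivAt
    rw [hGx]
    exact hd'.hasFDerivAt
  have hu := (hc.congr_of_eventuallyEq hid.symm).unique (hasFDerivAt_id _)
  have hv : v = fderiv ℝ G' (a.φ (f x)) (fderiv ℝ G (a.φ x) v) := by
    have := congrArg (fun L : E d →L[ℝ] E d => L v) hu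
    simpa using this.symm
  calc ‖v‖ = ‖fderiv ℝ G' (a.φ (f x)) (fderiv ℝ G (a.φ x) v)‖ := by rw [← hv]
    _ ≤ ‖fderiv ℝ G' (a.φ (f x))‖ * ‖fderiv ℝ G (a.φ x) v‖ := ContinuousLinearMap.le_opNorm _ _
    _ ≤ _ := mul_le_mul_of_nonneg_right hn' (norm_nonneg _)

theorem deriv_near {T r : ℝ} (hr : 0 < r)
    (hT : a.L * (a.L * (2 * r)) ≤ T) (hTr : T ≤ a.r) {x : M}
    (hx : x ∉ a.Sh T) (hfx : f x ∉ a.Sh T) {u : E d} (hu : ‖u - a.φ x‖ ≤ r) :
    ∃ D : E d →L[ℝ] E d, HasFDerivAt (fun v => a.φ (f (a.ψ (a.idx x) v))) D u ∧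
      ‖D - fderiv ℝ (fun v => a.φ (f (a.ψ (a.idx x) v))) (a.φ x)‖ ≤ a.L * ‖u - a.φ x‖ := by
  have hL := a.one_le
  have h0 : 2 * r ≤ a.L * (2 * r) := by nlinarith
  have h0' : a.L * (2 * r) ≤ a.L * (a.L * (2 * r)) := by nlinarith
  have hself : ∀ z : E d, ‖z - z‖ ≤ r := fun z => by simpa using hr.le
  rw [(a.chart_evEq hr hT hTr hx hfx (hself _)).fderiv_eq]
  obtain ⟨-, -, h3, h4⟩ := a.lb_f _ (a.idx_lt x) _ (a.idx_lt (f x)) x (a.mem_idx x) (a.mem_idx _)
  have hu1 := a.mem_int hr (by linarith) hTr hx hu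
  have hx1 := a.mem_int hr (by linarith) hTr hx (hself _)
  exact ⟨_, (h3 _ hu1).1.hasFDerivAt.congr_of_eventuallyEq (a.chart_evEq hr hT hTr hx hfx hu),
    h4 _ hu1 _ hx1⟩

theorem back (hgf : ∀ x, g (f x) = x) {T r : ℝ} (hT : a.L * r ≤ T) (hTr : T ≤ a.r) {x : M}
    (hx : x ∉ a.Sh T) {y : M} (hy : a.idx (f y) = a.idx (f x))
    (hd : a.L * ‖a.φ (f y) - a.φ (f x)‖ ≤ r) :
    a.idx y = a.idx x ∧ ‖a.φ y - a.φ x‖ ≤ a.L * ‖a.φ (f y) - a.φ (f x)‖ := by
  have hL := a.one_le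
  have hn := norm_nonneg (a.φ (f y) - a.φ (f x))
  have h0 : ‖a.φ (f y) - a.φ (f x)‖ ≤ r := by nlinarith
  have h0' : r ≤ T := by nlinarith
  obtain ⟨h1, h2, -, -⟩ := a.lb_g _ (a.idx_lt (f x)) _ (a.idx_lt x) (f x) (a.mem_idx _)
    (by rw [hgf]; exact a.mem_idx x)
  have hyK := a.mem_idx (f y)
  rw [hy] at hyK
  have hφy : a.φ (f y) = extChartAt I (a.c (a.idx (f x))) (f y) := by unfold φ; rw [hy]
  have hφx : a.φ (f x) = extChartAt I (a.c (a.idx (f x))) (f x) := rfl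
  have hu : extChartAt I (a.c (a.idx (f x))) (f y) ∈
      Metric.closedBall (extChartAt I (a.c (a.idx (f x))) (f x)) a.r ∩ range I := by
    refine ⟨?_, hyK.2.2⟩
    rw [Metric.mem_closedBall, dist_eq_norm, ← hφy, ← hφx]
    linarith
  have hv : extChartAt I (a.c (a.idx (f x))) (f x) ∈
      Metric.closedBall (extChartAt I (a.c (a.idx (f x))) (f x)) a.r ∩ range I :=
    ⟨Metric.mem_closedBall_self a.r_pos.le, (a.mem_idx (f x)).2.2⟩
  have h3 := (h1 _ hu).2
  have h4 := h2 _ hu _ hv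
  rw [(extChartAt I _).left_inv hyK.1, hgf] at h3 h4
  rw [(extChartAt I _).left_inv (a.mem_idx (f x)).1, hgf, ← hφy, ← hφx] at h4
  have h5 := (a.depth hT hTr hx (u := extChartAt I (a.c (a.idx x)) y) (h4.trans hd)).2
  rw [(extChartAt I _).left_inv h3] at h5
  refine ⟨h5, ?_⟩
  have : a.φ y = extChartAt I (a.c (a.idx x)) y := by unfold φ; rw [h5]
  rw [this]
  exact h4

theorem upper (i : ℕ) (B : Set (E d)) (hB : MeasurableSet B) :
    ν {x | a.idx x = i ∧ a.φ x ∈ B} ≤ ENNReal.ofReal a.L * volume B := by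
  by_cases hi : i < a.k
  · refine le_trans (measure_mono ?_) (a.up i hi B hB)
    rintro x ⟨rfl, hx⟩
    exact ⟨a.kb_sub _ (a.mem_idx x), hx⟩
  · have : {x | a.idx x = i ∧ a.φ x ∈ B} = ∅ := by
      ext x
      simp only [mem_ofPred_eq, mem_empty_iff_false, iff_false, not_and]
      rintro rfl
      exact absurd (a.idx_lt x) hi
    rw [this, measure_empty]
    exact zero_le

theorem lower {T r : ℝ} (hT : a.L * r ≤ T) (hTr : T ≤ a.r) {x : M}
    (hx : x ∉ a.Sh T) (B : Set (E d)) (hB : MeasurableSet B)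
    (hBr : B ⊆ Metric.closedBall (a.φ x) r) :
    volume B ≤ ENNReal.ofReal a.L * ν {y | a.idx y = a.idx x ∧ a.φ y ∈ B} := by
  have hd : ∀ u ∈ B, ‖u - a.φ x‖ ≤ r := fun u hu => by
    have := hBr hu
    rwa [Metric.mem_closedBall, dist_eq_norm] at this
  refine (a.low _ (a.idx_lt x) B hB
    (fun u hu => a.cb_sub _ (a.depth hT hTr hx (hd u hu)).1)).trans ?_
  gcongr
  rintro y ⟨hy1, hy2⟩
  have h5 := (a.depth hT hTr hx (hd _ hy2)).2
  rw [(extChartAt I _).left_inv hy1] at h5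
  refine ⟨h5, ?_⟩
  have : a.φ y = extChartAt I (a.c (a.idx x)) y := by unfold φ; rw [h5]
  rw [this]
  exact hy2

end Atl

end Man2

end Crest.Agent.R133
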