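import Crest.Agent.R133.Defs
import Crest.Agent.R133.Man1
import Crest.Agent.R133.Man2Aux2
set_option autoImplicit false

namespace Crest.Agent.R133

open MeasureTheory Set
open scoped ENNReal Manifold ContDiff

open Crest.AnalysisR in
/-- A smooth volume preserving diffeomorphism of a compact manifold is a piecewise smooth system.
Proof: for `c : M` let `e c = extChartAt I c`; pick `s c > 0` with
`closedBall (e c c) (3 * s c) ∩ range I ⊆ (e c).target` (`extChartAt_target_mem_nhdsWithin`), put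
`C c = closedBall (e c c) (s c) ∩ range I`, `C' c` the same with `2 * s c` (compact, convex, nonempty interior by
`I.range_subset_closure_interior`), `K c = (e c).symm '' C c`, `K' c = (e c).symm '' C' c`. Finitely many `K (c i)`,
`i < k`, cover `M`. `idx x` = least `i` with `x ∈ K (c i)`, `φ x = e (c (idx x)) x`,
`ψ i u = if u ∈ C' (c i) then (e (c i)).symm u else c i`. Apply `local_bounds` to `id`, `S`, `S.symm` and all pairs
`(K (c i), K (c j))`; let `Λ₁`, `r₁` be the max/min of the constants.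
`Sh T = ⋃ j, {x ∈ K' (c j) | e (c j) x ∈ cthickening T (frontier (C (c j)))}` has `ν (Sh T) ≤ c T`
(`shell_volume`, the density is bounded above on the compact `C'`). Depth lemma: if `x ∉ Sh T`, `Λ₁ r ≤ T`, `T` small,
`‖u - φ x‖ ≤ r`, then `u ∈ C (c (idx x))`, `idx (ψ (idx x) u) = idx x`, `φ (ψ (idx x) u) = u` (if `y = ψ i u ∈ K j`, `j < i`,
`local_bounds` for `id` centred at `y` puts `e j x` within `T` of `e j y ∈ C j`, so `ball_dichotomy` gives `x ∈ K j`).
`reg r = (Sh (2 Λ₁² r))ᶜ ∩ S ⁻¹' (Sh (2 Λ₁² r))ᶜ`. On `closedBall (φ x) (2r)` the map `φ ∘ S ∘ ψ i` equals the chart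
expression `e j ∘ S ∘ (e i).symm`. `A x = if ‖D‖ ≤ Λ ∧ ∀ v, ‖v‖ ≤ Λ * ‖D v‖ then D else id` with
`D = fderiv ℝ (φ ∘ S ∘ ψ (idx x)) (φ x)` (`measurable_fderiv`; the condition is closed; at regular points it holds by
`back` and a difference quotient). `upper`/`lower`: the density is continuous and positive on the compact `C'`
(`Measure.map_apply_of_aemeasurable`, `I '' e.target = (extChartAt I c).target`). -/
theorem exists_PS {d : ℕ} {H : Type*} [TopologicalSpace H] (I : ModelWithCorners ℝ (E d) H)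
    {M : Type*} [TopologicalSpace M] [T2Space M] [CompactSpace M] [ChartedSpace H M]
    [IsManifold I ∞ M] [MeasurableSpace M] [BorelSpace M] (ν : Measure M) [IsProbabilityMeasure ν]
    (S : Diffeomorph I I M M ∞) (hν : HasSmoothPositiveDensity I ν)
    (hS : MeasurePreserving S ν ν) : Nonempty (PS ν S d) := by
  classical
  have : Nonempty M := nonempty_of_isProbabilityMeasure ν
  obtain ⟨a⟩ := Man2.exists_Atl I ν hν S S.symm S.contMDiff S.symm.contMDiff
  have hgf : ∀ x, S.symm (S x) = x := S.symm_apply_apply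
  have hL := a.one_le
  have hL0 : 0 < a.L := by linarith
  have hr0 := a.r_pos
  set Λ : ℝ := 4 * a.k * a.L ^ 4 + a.L with hΛ
  have hΛL : a.L ≤ Λ := by
    have : 0 ≤ 4 * (a.k : ℝ) * a.L ^ 4 := by positivity
    linarith
  have hΛ1 : 1 ≤ Λ := hL.trans hΛL
  set Q : Set (E d →L[ℝ] E d) := {D | ‖D‖ ≤ Λ ∧ ∀ v, ‖v‖ ≤ Λ * ‖D v‖} with hQ
  have hQc : IsClosed Q := by
    have : Q = {D : E d →L[ℝ] E d | ‖D‖ ≤ Λ} ∩ ⋂ v : E d, {D : E d →L[ℝ] E d | ‖v‖ ≤ Λ * ‖D v‖} := by
      ext D
      simp only [hQ, mem_ofPred_eq, mem_inter_iff, mem_iInter]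
    rw [this]
    refine (isClosed_le continuous_norm continuous_const).inter (isClosed_iInter fun v => ?_)
    exact isClosed_le continuous_const (by fun_prop)
  set D : M → (E d →L[ℝ] E d) := fun x =>
    fderiv ℝ (fun v => a.φ (S (a.ψ (a.idx x) v))) (a.φ x) with hD
  have hDm : Measurable D :=
    Man2.meas_comp_idx a.meas_idx (f := fun n x => fderiv ℝ (fun v => a.φ (S (a.ψ n v))) (a.φ x))
      fun n => (measurable_fderiv ℝ _).comp a.meas_φ
  set A : M → (E d →L[ℝ] E d) := fun x => if D x ∈ Q then D x else ContinuousLinearMap.id ℝ _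
    with hA
  have hAQ : ∀ x, A x ∈ Q := by
    intro x
    by_cases h : D x ∈ Q
    · simp only [hA, if_pos h]; exact h
    · simp only [hA, if_neg h]
      refine ⟨ContinuousLinearMap.norm_id_le.trans hΛ1, fun v => ?_⟩
      simp only [ContinuousLinearMap.id_apply]
      nlinarith [norm_nonneg v]
  have hT : ∀ r : ℝ, r ≤ a.r / (2 * a.L ^ 2) → a.L * (a.L * (2 * r)) ≤ a.r := by
    intro r hr
    rw [le_div_iff₀ (by positivity)] at hr
    nlinarith
  have hT1 : ∀ r : ℝ, 0 < r → a.L * r ≤ a.L * (a.L * (2 * r)) := by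
    intro r hr
    refine mul_le_mul_of_nonneg_left ?_ hL0.le
    nlinarith
  have hT2 : ∀ r : ℝ, 0 < r → a.L * (a.L * r) ≤ a.L * (a.L * (2 * r)) := by
    intro r hr
    refine mul_le_mul_of_nonneg_left ?_ hL0.le
    nlinarith
  refine ⟨{
    k := a.k, idx := a.idx, φ := a.φ, ψ := a.ψ
    reg := fun r => (a.Sh (a.L * (a.L * (2 * r))))ᶜ ∩ S ⁻¹' (a.Sh (a.L * (a.L * (2 * r))))ᶜ
    A := A, Λ := Λ, r₀ := a.r / (2 * a.L ^ 2)
    one_le := hΛ1
    r₀_pos := by positivity
    idx_lt := a.idx_lt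
    meas_idx := a.meas_idx
    meas_φ := a.meas_φ
    meas_ψ := a.meas_ψ
    meas_reg := fun r => (a.meas_Sh _).compl.inter (hS.measurable (a.meas_Sh _).compl)
    meas_A := Measurable.ite (hDm hQc.measurableSet) hDm measurable_const
    left_inv := a.left_inv
    bdd := fun x => (a.φ_bdd x).trans hΛL
    reg_small := ?_
    loc := ?_
    deriv := ?_
    back := ?_
    A_le := fun x => (hAQ x).1
    A_ge := fun x => (hAQ x).2
    upper := fun i B hB => (a.upper i B hB).trans (by gcongr)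
    lower := fun r hr hr' x hx B hB hBr =>
      (a.lower (hT1 r hr) (hT r hr') hx.1 B hB hBr).trans (by gcongr) }⟩
  · intro r hr hr'
    have h1 := a.Sh_small (T := a.L * (a.L * (2 * r))) (by positivity) (hT r hr')
    rw [compl_inter, compl_compl, ← preimage_compl, compl_compl]
    refine (measure_union_le _ _).trans ?_
    rw [hS.measure_preimage (a.meas_Sh _).nullMeasurableSet]
    refine (add_le_add h1 h1).trans ?_
    rw [← ENNReal.ofReal_add (by positivity) (by positivity)]
    refine ENNReal.ofReal_le_ofReal ?_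
    have : 0 ≤ a.L * r := by positivity
    simp only [hΛ]
    nlinarith
  · intro r hr hr' x hx u hu
    obtain ⟨h1, h2, -, h4⟩ := a.loc (hT2 r hr) (hT r hr') hx.1 hx.2 hu
    rw [a.ψ_eq h1]
    refine ⟨h2, ?_, h4⟩
    unfold Man2.Atl.φ
    rw [h2]
    exact (extChartAt I _).right_inv (a.cb_tar _ h1)
  · intro r hr hr' x hx u hu
    obtain ⟨h1, h2⟩ := a.deriv_good hgf hr le_rfl (hT r hr') hx.1 hx.2
    have hQx : D x ∈ Q := ⟨h1.trans hΛL, fun v => (h2 v).trans
      (mul_le_mul_of_nonneg_right hΛL (norm_nonneg _))⟩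
    obtain ⟨D', h3, h4⟩ := a.deriv_near hr le_rfl (hT r hr') hx.1 hx.2 hu
    refine ⟨D', h3, ?_⟩
    simp only [hA, if_pos hQx]
    exact h4.trans (mul_le_mul_of_nonneg_right hΛL (norm_nonneg _))
  · intro r hr hr' x hx y hy hd
    have h0 := mul_le_mul_of_nonneg_right hΛL (norm_nonneg (a.φ (S y) - a.φ (S x)))
    obtain ⟨h1, h2⟩ := a.back hgf (hT1 r hr) (hT r hr') hx.1 hy (h0.trans hd)
    exact ⟨h1, h2.trans h0⟩

end Crest.Agent.R133
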