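import Crest.Agent.R133.Erg

set_option autoImplicit false

namespace Crest.Agent.R133

open MeasureTheory Set Filter
open scoped ENNReal

namespace Odo

/-- The `2`-adic integers with their Borel σ-algebra. -/
noncomputable instance : MeasurableSpace ℤ_[2] := borel _
instance : BorelSpace ℤ_[2] := ⟨rfl⟩

/-- The residue modulo `2 ^ n`. -/
noncomputable def pz (n : ℕ) (x : ℤ_[2]) : ℕ := (PadicInt.toZModPow n x).val

theorem pz_lt (n : ℕ) (x : ℤ_[2]) : pz n x < 2 ^ n := ZMod.val_lt _

theorem pz_add (n : ℕ) (x : ℤ_[2]) : pz n (x + 1) = (pz n x + 1) % 2 ^ n := by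
  rw [← ZMod.val_natCast]
  simp [pz]

theorem pz_mod {m n : ℕ} (h : m ≤ n) (x : ℤ_[2]) : pz m x = pz n x % 2 ^ m := by
  rw [← ZMod.val_natCast, pz, ← PadicInt.cast_toZModPow m n h x]
  simp [pz]

theorem pz_nat {n p : ℕ} (h : p < 2 ^ n) : pz n p = p := by
  simp [pz, ZMod.val_natCast, Nat.mod_eq_of_lt h]

theorem pz_fibre (n : ℕ) (y : ℤ_[2]) :
    pz n ⁻¹' {pz n y} = Metric.closedBall y (((2 : ℕ) : ℝ) ^ (-n : ℤ)) := by
  ext x
  rw [Metric.mem_closedBall, dist_eq_norm, PadicInt.norm_le_pow_iff_mem_span_pow,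
    ← PadicInt.ker_toZModPow, RingHom.mem_ker, map_sub, sub_eq_zero]
  exact (ZMod.val_injective _).eq_iff

theorem meas_pz (n : ℕ) : Measurable (pz n) := by
  refine measurable_to_countable fun y => ?_
  rw [pz_fibre]
  exact measurableSet_closedBall

/-- Haar probability measure. -/
noncomputable def ν : Measure ℤ_[2] := Measure.addHaarMeasure ⊤

instance : (ν).IsAddHaarMeasure := by unfold ν; infer_instance
instance : IsProbabilityMeasure ν :=
  ⟨by rw [← TopologicalSpace.PositiveCompacts.coe_top]; exact Measure.addHaarMeasure_self⟩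

theorem ν_fibre {n p : ℕ} (h : p < 2 ^ n) : ν (pz n ⁻¹' {p}) = ((2 ^ n : ℕ) : ℝ≥0∞)⁻¹ := by
  have h1 : ∀ q < 2 ^ n, ν (pz n ⁻¹' {q}) = ν (pz n ⁻¹' {p}) := fun q hq => by
    rw [← pz_nat hq, ← pz_nat h, pz_fibre, pz_fibre, Measure.addHaar_closedBall_center,
      Measure.addHaar_closedBall_center ν (p : ℤ_[2])]
  have h2 := erg_sum_fibre (μ := ν) univ (meas_pz n) (pz_lt n)
  rw [measure_univ, Finset.sum_congr rfl fun q hq => by
    rw [univ_inter, h1 q (Finset.mem_range.1 hq)], Finset.sum_const, Finset.card_range,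
    nsmul_eq_mul] at h2
  exact ENNReal.eq_inv_of_mul_eq_one_left (by rw [mul_comm]; exact h2.symm)

/-- The uniform measure on `Bool`. -/
noncomputable def u : Measure Bool := (2⁻¹ : ℝ≥0∞) • Measure.count

theorem u_single (b : Bool) : u {b} = 2⁻¹ := by simp [u]

instance : IsProbabilityMeasure u := ⟨by
  rw [u, Measure.smul_apply, Measure.count_univ]
  simp [ENNReal.inv_mul_cancel]⟩

theorem u_map (b : Bool) : u.map (fun σ => xor σ b) = u := by
  refine Measure.ext_of_singleton fun s => ?_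
  rw [Measure.map_apply (measurable_of_countable _) (measurableSet_singleton _),
    show (fun σ => xor σ b) ⁻¹' {s} = {xor s b} by ext σ; cases σ <;> cases s <;> cases b <;> simp,
    u_single, u_single]

variable (κ : ℕ → ℕ) (β : ℕ → ℕ → Bool)

/-- The exponent of the height. -/
def k (e : ℕ) : ℕ := ∑ i ∈ Finset.range e, κ i

theorem ht_eq (e : ℕ) : ht κ e = 2 ^ k κ e := by
  induction e with
  | zero => simp [ht, k]
  | succ e ih => rw [ht, ih, k, k, Finset.sum_range_succ, pow_add]

theorem pos_succ (e : ℕ) (x : ℤ_[2]) : pz (k κ e) x = pz (k κ (e + 1)) x % ht κ e := by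
  rw [ht_eq]
  exact pz_mod (by simp [k, Finset.sum_range_succ]) x

/-- The letter of `x` at stage `e`. -/
noncomputable def w (e : ℕ) (x : ℤ_[2]) : Bool := wd κ β e (pz (k κ e) x)

theorem meas_w (e : ℕ) : Measurable (w κ β e) := (measurable_of_countable _).comp (meas_pz _)

/-- The jump of the letter at stage `e`. -/
noncomputable def dj (e : ℕ) (x : ℤ_[2]) : Bool := xor (w κ β e (x + 1)) (w κ β e x)

theorem pos_add {e : ℕ} {x : ℤ_[2]} (h : pz (k κ e) x + 1 < ht κ e) :
    pz (k κ e) (x + 1) = pz (k κ e) x + 1 := by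
  rw [pz_add, ← ht_eq, Nat.mod_eq_of_lt h]

theorem dj_succ {e : ℕ} {x : ℤ_[2]} (h : pz (k κ e) x + 1 < ht κ e) :
    pz (k κ (e + 1)) x + 1 < ht κ (e + 1) ∧ dj κ β (e + 1) x = dj κ β e x := by
  have h1 : pz (k κ (e + 1)) x + 1 < ht κ (e + 1) := by
    have h2 := pz_lt (k κ (e + 1)) x
    rw [← ht_eq] at h2
    refine lt_of_le_of_ne h2 fun h3 => ?_
    have h4 := pos_succ κ e (x + 1)
    rw [pos_add κ h, pz_add, ← ht_eq, h3] at h4
    simp at h4
  refine ⟨h1, ?_⟩
  have h2 : (pz (k κ (e + 1)) x + 1) / ht κ e = pz (k κ (e + 1)) x / ht κ e := by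
    refine Nat.succ_div_of_not_dvd fun h3 => ?_
    have h4 := pos_succ κ e (x + 1)
    rw [pos_add κ h, pos_add κ h1, Nat.mod_eq_zero_of_dvd h3] at h4
    simp at h4
  simp only [dj, w, wd, ← pos_succ]
  rw [pos_add κ h1, h2]
  generalize wd κ β e (pz (k κ e) (x + 1)) = a
  generalize wd κ β e (pz (k κ e) x) = b
  generalize β e _ = c
  cases a <;> cases b <;> cases c <;> rfl

open Classical in
/-- The cocycle. -/
noncomputable def c (x : ℤ_[2]) : Bool := decide (∀ᶠ e in atTop, dj κ β e x = true)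

theorem meas_c : Measurable (c κ β) := by
  refine measurable_to_bool ?_
  have : c κ β ⁻¹' {true} = ⋃ N, ⋂ e ≥ N, dj κ β e ⁻¹' {true} := by
    ext x
    simp [c]
  rw [this]
  refine MeasurableSet.iUnion fun N => MeasurableSet.biInter (to_countable _) fun e _ => ?_
  exact ((measurable_of_countable fun z : Bool × Bool => xor z.1 z.2).comp
    (((meas_w κ β e).comp (measurable_add_const 1)).prodMk (meas_w κ β e))) (measurableSet_singleton _)

theorem c_eq {e : ℕ} {x : ℤ_[2]} (h : pz (k κ e) x + 1 < ht κ e) : c κ β x = dj κ β e x := by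
  have h1 : ∀ e' ≥ e, pz (k κ e') x + 1 < ht κ e' ∧ dj κ β e' x = dj κ β e x := fun e' he => by
    induction e', he using Nat.le_induction with
    | base => exact ⟨h, rfl⟩
    | succ e' _ ih => exact ⟨(dj_succ κ β ih.1).1, (dj_succ κ β ih.1).2.trans ih.2⟩
  have h2 : (∀ᶠ e' in atTop, dj κ β e' x = true) ↔ dj κ β e x = true := by
    rw [eventually_congr ((eventually_ge_atTop e).mono fun e' he => by rw [(h1 e' he).2]),
      eventually_const]
  simp [c, h2]

theorem meas_xor {X : Type*} [MeasurableSpace X] {f g : X → Bool} (hf : Measurable f)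
    (hg : Measurable g) : Measurable fun x => xor (f x) (g x) :=
  (measurable_of_countable fun z : Bool × Bool => xor z.1 z.2).comp (hf.prodMk hg)

/-- The skew product over the odometer. -/
noncomputable def T : (ℤ_[2] × Bool) ≃ᵐ (ℤ_[2] × Bool) where
  toFun z := (z.1 + 1, xor z.2 (c κ β z.1))
  invFun z := (z.1 - 1, xor z.2 (c κ β (z.1 - 1)))
  left_inv z := by simp
  right_inv z := by simp
  measurable_toFun := (measurable_fst.add_const 1).prodMk
    (meas_xor measurable_snd ((meas_c κ β).comp measurable_fst))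
  measurable_invFun := (measurable_fst.sub_const 1).prodMk
    (meas_xor measurable_snd ((meas_c κ β).comp (measurable_fst.sub_const 1)))

/-- The levels. -/
noncomputable def lev (e : ℕ) : Level (ν.prod u) (T κ β) Prod.snd (ht κ e) (wd κ β e) where
  pos z := pz (k κ e) z.1
  sgn z := xor z.2 (w κ β e z.1)
  meas_pos := (meas_pz _).comp measurable_fst
  meas_sgn := meas_xor measurable_snd ((meas_w κ β e).comp measurable_fst)
  pos_lt z := by rw [ht_eq]; exact pz_lt _ _
  level p s hp := by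
    have : {z : ℤ_[2] × Bool | pz (k κ e) z.1 = p ∧ xor z.2 (w κ β e z.1) = s} =
        (pz (k κ e) ⁻¹' {p}) ×ˢ {xor s (wd κ β e p)} := by
      ext z
      simp only [mem_ofPred_eq, mem_prod, mem_preimage, mem_singleton_iff, w]
      refine and_congr_right fun h => ?_
      rw [h]
      cases z.2 <;> cases s <;> cases wd κ β e p <;> simp
    rw [ht_eq] at hp ⊢
    rw [this, Measure.prod_prod, ν_fibre hp, u_single, mul_comm,
      ENNReal.mul_inv (Or.inl two_ne_zero) (Or.inl ENNReal.ofNat_ne_top)]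
  step z h := by
    refine ⟨pos_add κ h, ?_⟩
    change xor (xor z.2 (c κ β z.1)) (w κ β e (z.1 + 1)) = _
    rw [c_eq κ β h, dj]
    cases z.2 <;> cases w κ β e (z.1 + 1) <;> cases w κ β e z.1 <;> rfl
  wrap z h := by
    change pz (k κ e) (z.1 + 1) = 0
    rw [pz_add, h, ht_eq, Nat.mod_self]
  lab_eq z := by simp [w]

theorem gen (hκ : ∀ e, 1 ≤ κ e) : (inferInstance : MeasurableSpace (ℤ_[2] × Bool)) =
    MeasurableSpace.generateFrom
      {A | ∃ e p s, A = {x | (lev κ β e).pos x = p ∧ (lev κ β e).sgn x = s}} := by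
  refine le_antisymm ?_ (MeasurableSpace.generateFrom_le ?_)
  · have hL : ∀ e p s, MeasurableSet[MeasurableSpace.generateFrom
        {A | ∃ e p s, A = {x | (lev κ β e).pos x = p ∧ (lev κ β e).sgn x = s}}]
        {x | (lev κ β e).pos x = p ∧ (lev κ β e).sgn x = s} := fun e p s =>
      MeasurableSpace.measurableSet_generateFrom ⟨e, p, s, rfl⟩
    refine sup_le (Measurable.comap_le ?_) (Measurable.comap_le ?_)
    · refine @measurable_of_isOpen _ _ _ _ _ (_) _ fun U hU => ?_
      have : (Prod.fst ⁻¹' U : Set (ℤ_[2] × Bool)) = ⋃ (e) (p) (s) (_ : pz (k κ e) ⁻¹' {p} ⊆ U),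
          {x | (lev κ β e).pos x = p ∧ (lev κ β e).sgn x = s} := by
        ext z
        simp only [mem_iUnion]
        refine ⟨fun hz => ?_, fun ⟨e, p, s, h, hz⟩ => h hz.1⟩
        obtain ⟨ε, hε, hb⟩ := Metric.isOpen_iff.1 hU z.1 hz
        obtain ⟨e, he⟩ := PadicInt.exists_pow_neg_lt 2 hε
        refine ⟨e, pz (k κ e) z.1, _, ?_, rfl, rfl⟩
        rw [pz_fibre]
        refine (Metric.closedBall_subset_ball (lt_of_le_of_lt ?_ he)).trans hb
        refine zpow_le_zpow_right₀ (by norm_num) ?_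
        have := Finset.card_nsmul_le_sum (Finset.range e) κ 1 fun i _ => hκ i
        simp only [Finset.card_range, smul_eq_mul, mul_one] at this
        exact neg_le_neg (Int.ofNat_le.2 this)
      rw [this]
      exact .iUnion fun e => .iUnion fun p => .iUnion fun s => .iUnion fun _ => hL e p s
    · refine measurable_to_bool ?_
      convert hL 0 0 true using 1
      ext z
      have := pz_lt (k κ 0) z.1
      simp [lev, w, wd, show pz (k κ 0) z.1 = 0 by simpa [k] using this]
  · rintro _ ⟨e, p, s, rfl⟩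
    exact ((lev κ β e).meas_pos (measurableSet_singleton p)).inter
      ((lev κ β e).meas_sgn (measurableSet_singleton s))

end Odo

/-- Existence of the generalized Morse system. Model: `X = ℤ_[2] × Bool` (Borel σ-algebra on `ℤ_[2]`, Haar
probability `addHaarMeasure ⊤` times the uniform measure). With `k e = κ 0 + ⋯ + κ (e-1)`,
`pos e (x, σ) = (PadicInt.toZModPow (k e) x).val`, `lab (x, σ) = σ`, `sgn e (x, σ) = xor σ (wd κ β e (pos e x))`,
`c x = decide (∀ᶠ e in atTop, wd κ β e (pos e (x+1)) ≠ wd κ β e (pos e x))`, `T (x, σ) = (x + 1, xor σ (c x))`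
(inverse `(x - 1, xor σ (c (x - 1)))`). If `pos e x + 1 < ht κ e`, the xor of `wd e' (pos e' (x+1))` and
`wd e' (pos e' x)` does not depend on `e' ≥ e`. Fibres of `toZModPow` are translates of each other, so have equal
Haar measure; they are the closed balls of `ℤ_[2]`, so they generate the Borel σ-algebra. -/
theorem exists_tower (κ : ℕ → ℕ) (hκ : ∀ e, 1 ≤ κ e) (β : ℕ → ℕ → Bool) :
    ∃ (X : Type) (mX : MeasurableSpace X) (μ : Measure X) (T : X ≃ᵐ X) (lab : X → Bool),
      StandardBorelSpace X ∧ IsProbabilityMeasure μ ∧ MeasurePreserving T μ μ ∧ Measurable lab ∧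
      Nonempty (Tower μ T lab κ β) := by
  refine ⟨ℤ_[2] × Bool, inferInstance, Odo.ν.prod Odo.u, Odo.T κ β, Prod.snd, inferInstance,
    inferInstance, ?_, measurable_snd, ⟨⟨Odo.lev κ β, fun e x => Odo.pos_succ κ e x.1, Odo.gen κ β hκ⟩⟩⟩
  exact (measurePreserving_add_right Odo.ν 1).skew_product (g := fun x σ => xor σ (Odo.c κ β x))
    (Odo.meas_xor measurable_snd ((Odo.meas_c κ β).comp measurable_fst))
    (Eventually.of_forall fun x => Odo.u_map _)

end Crest.Agent.R133
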