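import Crest.Agent.R133.Defs

/-! Hardness passes through a measurable conjugacy. -/

set_option autoImplicit false

namespace Crest.Agent.R133

open MeasureTheory Set
open scoped ENNReal

theorem measurable_word_trA {M : Type*} [MeasurableSpace M] {S : M → M} (hS : Measurable S)
    {lab : M → Bool} (hl : Measurable lab) (a n : ℕ) : Measurable (word S lab a n) :=
  measurable_pi_lambda _ fun _ => hl.comp (hS.iterate _)

open Crest.AnalysisR in
theorem hard_transfer' {X M : Type*} [MeasurableSpace X] [MeasurableSpace M]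
    (μ : Measure X) (T : X → X) (ν : Measure M) (S : M → M) (hT : Measurable T) (hS : Measurable S)
    (h : AreMeasConjugate μ T ν S) (lab : X → Bool) (hl : Measurable lab) (H : Hard μ T lab) :
    ∃ lab' : M → Bool, Measurable lab' ∧ Hard ν S lab' := by
  obtain ⟨X₀, M₀, F, G, hX₀, hM₀, hμ, hν, hTb, hSb, hF, hG, hFb, hGF, hmap, hcomm⟩ := h
  have hit : ∀ m, ∀ x ∈ X₀, T^[m] x ∈ X₀ ∧ S^[m] (F x) = F (T^[m] x) := by
    intro m x hx
    induction m with
    | zero => exact ⟨hx, rfl⟩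
    | succ m ih =>
      rw [Function.iterate_succ_apply', Function.iterate_succ_apply', ih.2]
      exact ⟨hTb.mapsTo ih.1, (hcomm _ ih.1).symm⟩
  have hw : ∀ a n, ∀ x ∈ X₀, word S (lab ∘ G) a n (F x) = word T lab a n x := by
    intro a n x hx
    funext i
    simp only [word, Function.comp]
    rw [(hit _ x hx).2, hGF _ (hit _ x hx).1]
  have hmeas : ∀ A' : Set M, MeasurableSet A' → ν A' = μ (X₀ ∩ F ⁻¹' A') := by
    intro A' hA'
    rw [← hmap, Measure.map_apply hF hA', inter_comm]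
    exact (measure_inter_conull hμ).symm
  refine ⟨lab ∘ G, hl.comp hG, fun ε hε => ?_⟩
  obtain ⟨γ, ℓ, N, h1, h2, h3, h4, h5⟩ := H ε hε
  refine ⟨γ, ℓ, N, h1, h2, h3, h4, fun s hs => ?_⟩
  obtain ⟨Ev, C, hEv, hEvc, hC, hprod⟩ := h5 s hs
  refine ⟨M₀ ∩ G ⁻¹' (Ev ∩ X₀), C, hM₀.inter (hG (hEv.inter hX₀)), ?_, ?_, ?_⟩
  · rw [hmeas _ (hM₀.inter (hG (hEv.inter hX₀))).compl]
    refine le_trans (measure_mono ?_) hEvc
    rintro x ⟨hx, hx'⟩ hxE
    exact hx' ⟨hFb.mapsTo hx, by rw [mem_preimage, hGF x hx]; exact ⟨hxE, hx⟩⟩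
  · rintro z ⟨hz, hz'⟩ p q hp hq
    obtain ⟨x, hx, rfl⟩ := hFb.surjOn hz
    rw [mem_preimage, hGF x hx] at hz'
    rw [hw _ _ x hx] at hp hq
    exact hC x hz'.1 p q hp hq
  · intro A B hA hB hAE hBE
    have hsub : ∀ A' : Set M, A' ⊆ M₀ ∩ G ⁻¹' (Ev ∩ X₀) → X₀ ∩ F ⁻¹' A' ⊆ Ev := by
      rintro A' hA' x ⟨hx, hx'⟩
      have := (hA' hx').2
      rw [mem_preimage, hGF x hx] at this
      exact this.1
    have key : ∀ (A' : Set M), MeasurableSet A' → ∀ a n (c : Fin n → Bool),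
        ν (A' ∩ word S (lab ∘ G) a n ⁻¹' {c}) = μ ((X₀ ∩ F ⁻¹' A') ∩ word T lab a n ⁻¹' {c}) := by
      intro A' hA' a n c
      rw [hmeas _ (hA'.inter (measurable_word_trA hS (hl.comp hG) a n (measurableSet_singleton c)))]
      congr 1
      ext x
      simp only [mem_inter_iff, mem_preimage, mem_singleton_iff]
      constructor
      · rintro ⟨hx, hx', hx''⟩
        exact ⟨⟨hx, hx'⟩, by rw [← hw a n x hx, hx'']⟩
      · rintro ⟨⟨hx, hx'⟩, hx''⟩
        exact ⟨hx, hx', by rw [hw a n x hx, hx'']⟩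
    have := hprod (X₀ ∩ F ⁻¹' A) (X₀ ∩ F ⁻¹' B) (hX₀.inter (hF hA)) (hX₀.inter (hF hB))
      (hsub A hAE) (hsub B hBE)
    rw [hmeas A hA, hmeas B hB]
    refine le_trans (le_of_eq (Finset.sum_congr rfl fun c _ => ?_)) this
    rw [key A hA, key B hB]

end Crest.Agent.R133
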