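import Crest.Agent.R133.Defs

/-! An atomless probability on a standard Borel space is standard. -/

set_option autoImplicit false

namespace Crest.Agent.R133

open MeasureTheory ProbabilityTheory Set Filter Topology unitInterval
open scoped ENNReal

theorem continuous_cdf_aux (ν : Measure ℝ) [IsProbabilityMeasure ν] (h0 : ∀ x, ν {x} = 0) :
    Continuous (cdf ν) := by
  rw [continuous_iff_continuousAt]
  intro x
  have hm : Monotone (cdf ν) := monotone_cdf ν
  rw [hm.continuousAt_iff_leftLim_eq_rightLim, (cdf ν).rightLim_eq]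
  have h1 := (cdf ν).measure_singleton x
  rw [measure_cdf, h0] at h1
  have h2 : Function.leftLim (cdf ν) x ≤ cdf ν x := hm.leftLim_le le_rfl
  have h3 := ENNReal.ofReal_eq_zero.1 h1.symm
  linarith

theorem exists_mono_uniformize (ν : Measure ℝ) [IsProbabilityMeasure ν] (h0 : ∀ x, ν {x} = 0) :
    ∃ U : ℝ → I, Measurable U ∧ Monotone U ∧ ν.map U = volume := by
  have hc := continuous_cdf_aux ν h0
  let U : ℝ → I := fun x => ⟨cdf ν x, cdf_nonneg ν x, cdf_le_one ν x⟩
  have hU : Measurable U := hc.measurable.subtype_mk
  refine ⟨U, hU, fun x y hxy => monotone_cdf ν hxy, ?_⟩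
  have : IsProbabilityMeasure (ν.map U) := Measure.isProbabilityMeasure_map hU.aemeasurable
  refine Measure.ext_of_Iic _ _ fun t => ?_
  rw [Measure.map_apply hU measurableSet_Iic, unitInterval.volume_Iic]
  have hS : U ⁻¹' Iic t = {x | cdf ν x ≤ (t : ℝ)} := by
    ext x; simp only [mem_preimage, mem_Iic, mem_ofPred_eq, U]; exact Iff.rfl
  rw [hS]
  rcases eq_or_lt_of_le t.2.2 with h1 | h1
  · have : {x | cdf ν x ≤ (t : ℝ)} = univ := by
      ext x; simp only [mem_ofPred_eq, mem_univ, iff_true]; rw [h1]; exact cdf_le_one ν x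
    rw [this, h1]; simp
  · set S := {x | cdf ν x ≤ (t : ℝ)} with hSdef
    have hbdd : BddAbove S := by
      have := (tendsto_cdf_atTop ν).eventually (lt_mem_nhds h1)
      obtain ⟨M, hM⟩ := eventually_atTop.1 this
      refine ⟨M, fun x hx => ?_⟩
      by_contra h
      have := hM x (le_of_lt (not_le.1 h))
      exact absurd hx (not_le.2 this)
    rcases S.eq_empty_or_nonempty with hE | hne
    · rw [hE, measure_empty]
      have hle : (t : ℝ) ≤ 0 := by
        refine ge_of_tendsto (tendsto_cdf_atBot ν) (Eventually.of_forall fun x => ?_)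
        have : x ∉ S := by rw [hE]; exact notMem_empty x
        exact le_of_lt (not_le.1 this)
      rw [ENNReal.ofReal_eq_zero.2 hle]
    · have hcl : IsClosed S := isClosed_le hc continuous_const
      have hq : sSup S ∈ S := hcl.csSup_mem hne hbdd
      have hSI : S = Iic (sSup S) := by
        ext x
        constructor
        · intro hx; exact le_csSup hbdd hx
        · intro hx; exact le_trans (monotone_cdf ν hx) hq
      have hge : (t : ℝ) ≤ cdf ν (sSup S) := by
        have ht : Tendsto (cdf ν) (𝓝[>] (sSup S)) (𝓝 (cdf ν (sSup S))) :=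
          (hc.tendsto _).mono_left nhdsWithin_le_nhds
        refine ge_of_tendsto ht (eventually_nhdsWithin_of_forall fun y hy => ?_)
        by_contra h
        have : y ∈ S := le_of_lt (not_le.1 h)
        exact absurd (le_csSup hbdd this) (not_le.2 hy)
      rw [hSI, ← ofReal_cdf, le_antisymm hq hge]

open Crest.AnalysisR in
theorem isStandard' {X : Type*} [MeasurableSpace X] [StandardBorelSpace X] (μ : Measure X)
    [IsProbabilityMeasure μ] (h0 : ∀ x, μ {x} = 0) : IsStandardProbability μ := by
  classical
  have hne : Nonempty X := nonempty_of_isProbabilityMeasure μ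
  have he := measurableEmbedding_embeddingReal X
  have : IsProbabilityMeasure (μ.map (embeddingReal X)) :=
    Measure.isProbabilityMeasure_map he.measurable.aemeasurable
  have h1 : ∀ y, (μ.map (embeddingReal X)) {y} = 0 := fun y => by
    rw [he.map_apply]
    rcases (Set.Subsingleton.preimage (subsingleton_singleton (a := y))
      he.injective).eq_empty_or_singleton with h | ⟨x, h⟩
    · rw [h, measure_empty]
    · rw [h, h0]
  obtain ⟨U, hU, hmono, hmap⟩ := exists_mono_uniformize _ h1
  set F : X → I := U ∘ embeddingReal X with hF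
  have hFm : Measurable F := hU.comp he.measurable
  have hFmap : μ.map F = volume := by rw [← Measure.map_map hU he.measurable, hmap]
  set C : Set I := {c | ∃ x y, x < y ∧ U x = c ∧ U y = c} with hC
  have hCc : C.Countable := hmono.countable_setOfPred_two_preimages
  have hCm : MeasurableSet C := hCc.measurableSet
  set X₀ : Set X := F ⁻¹' Cᶜ with hX₀
  have hX₀m : MeasurableSet X₀ := hFm hCm.compl
  have hinj : InjOn F X₀ := by
    intro x hx y _ hxy
    by_contra hne'
    have hne'' : embeddingReal X x ≠ embeddingReal X y := fun h => hne' (he.injective h)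
    apply hx
    rcases lt_or_gt_of_ne hne'' with h | h
    · exact ⟨_, _, h, rfl, hxy.symm⟩
    · exact ⟨_, _, h, hxy.symm, rfl⟩
  have hY₀m : MeasurableSet (F '' X₀) := hX₀m.image_of_measurable_injOn hFm hinj
  have hnull : μ X₀ᶜ = 0 := by
    have : X₀ᶜ = F ⁻¹' C := by rw [hX₀, preimage_compl, compl_compl]
    rw [this, ← Measure.map_apply hFm hCm, hFmap]
    exact hCc.measure_zero _
  have hSB : StandardBorelSpace X₀ := hX₀m.standardBorel
  have hemb : MeasurableEmbedding (fun x : X₀ => F x) :=
    (hFm.comp measurable_subtype_coe).measurableEmbedding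
      (fun x y h => Subtype.ext (hinj x.2 y.2 h))
  obtain ⟨G, hG, hGF⟩ := hemb.exists_measurable_extend (g := (Subtype.val : X₀ → X))
    measurable_subtype_coe (fun _ => hne)
  refine ⟨X₀, F '' X₀, F, G, hX₀m, hY₀m, hnull, ?_, hFm, hG, hinj.bijOn_image,
    fun x hx => congrFun hGF ⟨x, hx⟩, hFmap⟩
  rw [← hFmap, Measure.map_apply hFm hY₀m.compl]
  refine measure_mono_null (fun x hx hx' => hx ⟨x, hx', rfl⟩) hnull

end Crest.Agent.R133
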