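import Crest.Agent.R133.Defs
import Crest.Agent.R133.TransferA
import Crest.Agent.R133.TransferB

set_option autoImplicit false

namespace Crest.Agent.R133

open MeasureTheory Set
open scoped ENNReal 

open Crest.AnalysisR in
/-- Hardness passes through a measurable conjugacy. With the data `X₀ M₀ F G`: `lab' = lab ∘ G`,
`Ev' = M₀ ∩ G ⁻¹' (Ev ∩ X₀)`, the same `C`; for `x ∈ X₀`, `S^[m] (F x) = F (T^[m] x)` and `G (F x) = x`, so names
agree; for `A' ⊆ Ev'` use `A = X₀ ∩ F ⁻¹' A'`. -/
theorem hard_transfer {X M : Type*} [MeasurableSpace X] [MeasurableSpace M]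
    (μ : Measure X) (T : X → X) (ν : Measure M) (S : M → M) (hT : Measurable T) (hS : Measurable S)
    (h : AreMeasConjugate μ T ν S) (lab : X → Bool) (hl : Measurable lab) (H : Hard μ T lab) :
    ∃ lab' : M → Bool, Measurable lab' ∧ Hard ν S lab' := by
  exact hard_transfer' μ T ν S hT hS h lab hl H

open Crest.AnalysisR in
/-- An atomless probability on a standard Borel space is standard. Proof: embed `X` measurably in `ℝ`
(`exists_measurableEmbedding_real`), let `f` be the (continuous) cdf of the push-forward; `f` pushes it to Lebesgue
measure on `[0,1]`; off the countable union of the null flat pieces `{t | ∃ q : ℚ, f t = f q ∧ …}` (or: off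
`{t | ∃ t' ≠ t, f t' = f t}`, whose image under `f` is countable, so it is null) `f` is injective; the image is
measurable by `MeasurableSet.image_of_measurable_injOn`, the inverse by `MeasurableEmbedding`. -/
theorem isStandard {X : Type*} [MeasurableSpace X] [StandardBorelSpace X] (μ : Measure X)
    [IsProbabilityMeasure μ] (h0 : ∀ x, μ {x} = 0) : IsStandardProbability μ := by
  exact isStandard' μ h0

end Crest.Agent.R133
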