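import Crest.Agent.R133.Final
import Crest.Agent.R133.Man2
import Crest.Agent.R133.Transfer
import Crest.Agent.R133.Odo
import Crest.Agent.R133.Ent
import Crest.Agent.R133.Epoch

set_option autoImplicit false

namespace Crest.Agent.R133

open MeasureTheory Set Crest.AnalysisR
open scoped ENNReal Manifold ContDiff

theorem HardAt.mono {M : Type*} [MeasurableSpace M] {ν : Measure M} {S : M → M} {lab : M → Bool}
    {n : ℕ} {ε ε' γ : ℝ} (h : HardAt ν S lab n ε γ) (hε : ε ≤ ε') : HardAt ν S lab n ε' γ := by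
  obtain ⟨Ev, C, h1, h2, h3, h4⟩ := h
  refine ⟨Ev, C, h1, h2.trans (ENNReal.ofReal_le_ofReal hε), h3, fun A B hA hB hA' hB' => ?_⟩
  refine (h4 A B hA hB hA' hB').trans ?_
  gcongr

/-- A hard system has no smooth model on a compact manifold with any model with corners. -/
theorem no_model {X : Type} [MeasurableSpace X] (μ : Measure X) (T : X → X) (hT : Measurable T)
    (lab : X → Bool) (hl : Measurable lab) (H : Hard μ T lab)
    {d : ℕ} {Hs : Type*} [TopologicalSpace Hs] (I : ModelWithCorners ℝ (E d) Hs)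
    (M : Type) [TopologicalSpace M] [T2Space M] [CompactSpace M] [ChartedSpace Hs M]
    [IsManifold I ∞ M] [MeasurableSpace M] [BorelSpace M] (ν : Measure M)
    (S : Diffeomorph I I M M ∞) (hp : IsProbabilityMeasure ν) (hν : HasSmoothPositiveDensity I ν)
    (hS : MeasurePreserving S ν ν) : ¬ AreMeasConjugate μ T ν S := by
  intro hc
  obtain ⟨lab', hl', H'⟩ := hard_transfer μ T ν S hT hS.measurable hc lab hl H
  obtain ⟨ps⟩ := exists_PS I ν S hν hS
  exact not_hard (S.toHomeomorph.toMeasurableEquiv) (d := d) ps hS lab' hl' H'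

theorem exists_hard : ∃ (κ : ℕ → ℕ) (β : ℕ → ℕ → Bool), (∀ e, 1 ≤ κ e) ∧
    (∀ e, Balanced (2 ^ κ e) (β e)) ∧
    ∀ (X : Type) [MeasurableSpace X] (μ : Measure X) [IsProbabilityMeasure μ] (T : X → X)
      (lab : X → Bool), Tower μ T lab κ β → Hard μ T lab := by
  have H : ∀ e q : ℕ, ∃ (κ : ℕ) (b : ℕ → Bool) (γ : ℝ) (ℓ N : ℕ), 1 ≤ κ ∧ Balanced (2 ^ κ) b ∧
      0 < γ ∧ γ ≤ 1 ∧ 1 ≤ (1 / ((e : ℝ) + 1)) * γ ^ 4 * N ∧ 1 ≤ (1 / ((e : ℝ) + 1)) * γ ^ 4 * ℓ ∧
      ∀ (W₀ : ℕ → Bool) (X : Type) [MeasurableSpace X] (μ : Measure X) [IsProbabilityMeasure μ]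
        (T : X → X) (lab : X → Bool),
        Level μ T lab ((q + 1) * 2 ^ κ) (fun p => xor (W₀ (p % (q + 1))) (b (p / (q + 1)))) →
        ∀ s < N, HardAt μ T lab (2 ^ s * ℓ) (1 / ((e : ℝ) + 1)) γ :=
    fun e q => epoch _ (by positivity) (q + 1) (Nat.succ_pos q)
  choose κf bf γf ℓf Nf h using H
  let Q : ℕ → ℕ := fun e => Nat.rec 1 (fun e Qe => Qe * 2 ^ κf e (Qe - 1)) e
  let κ : ℕ → ℕ := fun e => κf e (Q e - 1)
  let β : ℕ → ℕ → Bool := fun e => bf e (Q e - 1)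
  have hQ : ∀ e, ht κ e = Q e := by
    intro e
    induction e with
    | zero => rfl
    | succ e ih => simp only [ht, ih]; rfl
  refine ⟨κ, β, fun e => (h e _).1, fun e => (h e _).2.1, ?_⟩
  intro X _ μ _ T lab tw ε hε
  obtain ⟨e, he⟩ := exists_nat_one_div_lt hε
  obtain ⟨-, -, h3, h4, h5, h6, h7⟩ := h e (Q e - 1)
  have hq : Q e - 1 + 1 = ht κ e := by
    have := ht_pos κ e
    rw [hQ] at this ⊢
    omega
  refine ⟨γf e (Q e - 1), ℓf e (Q e - 1), Nf e (Q e - 1), h3, h4, ?_, ?_, fun s hs => ?_⟩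
  · refine h5.trans ?_
    gcongr
  · refine h6.trans ?_
    gcongr
  · refine HardAt.mono (h7 (wd κ β e) X μ T lab ?_ s hs) he.le
    rw [hq]
    exact tw.lev (e + 1)

theorem main : ∃ (X : Type) (_ : MeasurableSpace X) (μ : Measure X) (T : X ≃ᵐ X),
      IsProbabilityMeasure μ ∧ IsStandardProbability μ ∧ MeasurePreserving T μ μ ∧
      Ergodic T μ ∧ HasZeroEntropy μ T ∧ NoSmoothPositiveVolumeModel μ T := by
  obtain ⟨κ, β, hκ, hb, H⟩ := exists_hard
  obtain ⟨X, mX, μ, T, lab, hst, hp, hT, hl, ⟨tw⟩⟩ := exists_tower κ hκ β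
  have Hh := H X μ T lab tw
  refine ⟨X, mX, μ, T, hp, isStandard μ (tw.noAtoms hκ), hT, tw.ergodic hT hb,
    tw.zeroEntropy hT hκ, ?_, ?_⟩
  · intro d M _ _ _ _ _ _ _ ν S h1 h2 h3
    exact no_model μ T T.measurable lab hl Hh (𝓡 d) M ν S h1 h2 h3
  · intro d M _ _ _ _ _ _ _ ν S h1 h2 h3
    exact no_model μ T T.measurable lab hl Hh (𝓡∂ (d + 1)) M ν S h1 h2 h3

end Crest.Agent.R133
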