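import Crest.Agent.R133.Defs

set_option autoImplicit false

namespace Crest.Agent.R133

open MeasureTheory Set
open scoped ENNReal Manifold ContDiff

/-- Flat version of `local_bounds`. -/
theorem flat_bounds {d : ℕ} {R O Z : Set (E d)} (hR : Convex ℝ R) (hRc : IsClosed R)
    (hRu : UniqueDiffOn ℝ R) (hO : IsOpen O) (hZ : IsCompact Z) (hZO : Z ⊆ O) {F : E d → E d}
    (hF : ContDiffOn ℝ ∞ F (R ∩ O)) :
    ∃ r₀ : ℝ, 0 < r₀ ∧ ∃ Λ : ℝ, 1 ≤ Λ ∧ ∀ z ∈ Z, Metric.closedBall z r₀ ⊆ O ∧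
      (∀ u ∈ Metric.closedBall z r₀ ∩ R, ∀ v ∈ Metric.closedBall z r₀ ∩ R,
        ‖F u - F v‖ ≤ Λ * ‖u - v‖) ∧
      (∀ u ∈ Metric.closedBall z r₀ ∩ interior R, DifferentiableAt ℝ F u ∧ ‖fderiv ℝ F u‖ ≤ Λ) ∧
      ∀ u ∈ Metric.closedBall z r₀ ∩ interior R, ∀ v ∈ Metric.closedBall z r₀ ∩ interior R,
        ‖fderiv ℝ F u - fderiv ℝ F v‖ ≤ Λ * ‖u - v‖ := by
  obtain ⟨r, hr, hrO⟩ := hZ.exists_cthickening_subset_open hO hZO
  have hW : UniqueDiffOn ℝ (R ∩ O) := hRu.inter hO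
  have hK : IsCompact (R ∩ Metric.cthickening r Z) := hZ.cthickening.inter_left hRc
  have hKW : R ∩ Metric.cthickening r Z ⊆ R ∩ O := inter_subset_inter_right _ hrO
  have hD : ContDiffOn ℝ ∞ (fderivWithin ℝ F (R ∩ O)) (R ∩ O) := hF.fderivWithin hW le_rfl
  obtain ⟨C₁, h₁⟩ := hK.exists_bound_of_continuousOn (hD.continuousOn.mono hKW)
  obtain ⟨C₂, h₂⟩ := hK.exists_bound_of_continuousOn
    ((hD.continuousOn_fderivWithin hW (by simp)).mono hKW)
  refine ⟨r, hr, max 1 (max C₁ C₂), le_max_left _ _, fun z hz => ?_⟩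
  have hB : Metric.closedBall z r ∩ R ⊆ R ∩ Metric.cthickening r Z := fun u hu =>
    ⟨hu.2, Metric.closedBall_subset_cthickening hz r hu.1⟩
  have hc : Convex ℝ (Metric.closedBall z r ∩ R) := (convex_closedBall z r).inter hR
  have hn : ∀ u ∈ Metric.closedBall z r ∩ interior R, R ∩ O ∈ nhds u := fun u hu =>
    Filter.inter_mem (mem_interior_iff_mem_nhds.1 hu.2)
      (hO.mem_nhds (hrO (Metric.closedBall_subset_cthickening hz r hu.1)))
  have hi : Metric.closedBall z r ∩ interior R ⊆ Metric.closedBall z r ∩ R :=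
    inter_subset_inter_right _ interior_subset
  refine ⟨(Metric.closedBall_subset_cthickening hz r).trans hrO, fun u hu v hv => ?_,
    fun u hu => ⟨?_, ?_⟩, fun u hu v hv => ?_⟩
  · exact hc.norm_image_sub_le_of_norm_hasFDerivWithin_le
      (fun w hw => ((hF.differentiableOn (by simp) w (hKW (hB hw))).hasFDerivWithinAt).mono
        (hB.trans hKW))
      (fun w hw => (h₁ w (hB hw)).trans ((le_max_left _ _).trans (le_max_right _ _))) hv hu
  · exact (hF.differentiableOn (by simp)).differentiableAt (hn u hu)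
  · rw [← fderivWithin_of_mem_nhds (hn u hu)]
    exact (h₁ u (hB (hi hu))).trans ((le_max_left _ _).trans (le_max_right _ _))
  · rw [← fderivWithin_of_mem_nhds (hn u hu), ← fderivWithin_of_mem_nhds (hn v hv)]
    exact hc.norm_image_sub_le_of_norm_hasFDerivWithin_le
      (fun w hw => ((hD.differentiableOn (by simp) w (hKW (hB hw))).hasFDerivWithinAt).mono
        (hB.trans hKW))
      (fun w hw => (h₂ w (hB hw)).trans ((le_max_right _ _).trans (le_max_right _ _)))
      (hi hv) (hi hu)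

theorem local_bounds' {d : ℕ} {H : Type*} [TopologicalSpace H] (I : ModelWithCorners ℝ (E d) H)
    {M : Type*} [TopologicalSpace M] [T2Space M] [ChartedSpace H M] [IsManifold I ∞ M]
    (f : M → M) (hf : ContMDiff I I ∞ f) (a b : M) (Ka Kb : Set M)
    (hKa : IsCompact Ka) (hKb : IsCompact Kb)
    (ha : Ka ⊆ (extChartAt I a).source) (hb : Kb ⊆ (extChartAt I b).source) :
    ∃ r₀ : ℝ, 0 < r₀ ∧ ∃ Λ : ℝ, 1 ≤ Λ ∧ ∀ x ∈ Ka, f x ∈ Kb →
      (∀ u ∈ Metric.closedBall (extChartAt I a x) r₀ ∩ range I,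
        u ∈ (extChartAt I a).target ∧ f ((extChartAt I a).symm u) ∈ (extChartAt I b).source) ∧
      (∀ u ∈ Metric.closedBall (extChartAt I a x) r₀ ∩ range I,
        ∀ v ∈ Metric.closedBall (extChartAt I a x) r₀ ∩ range I,
        ‖extChartAt I b (f ((extChartAt I a).symm u)) - extChartAt I b (f ((extChartAt I a).symm v))‖
          ≤ Λ * ‖u - v‖) ∧
      (∀ u ∈ Metric.closedBall (extChartAt I a x) r₀ ∩ interior (range I),
        DifferentiableAt ℝ (fun w => extChartAt I b (f ((extChartAt I a).symm w))) u ∧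
        ‖fderiv ℝ (fun w => extChartAt I b (f ((extChartAt I a).symm w))) u‖ ≤ Λ) ∧
      (∀ u ∈ Metric.closedBall (extChartAt I a x) r₀ ∩ interior (range I),
        ∀ v ∈ Metric.closedBall (extChartAt I a x) r₀ ∩ interior (range I),
        ‖fderiv ℝ (fun w => extChartAt I b (f ((extChartAt I a).symm w))) u -
          fderiv ℝ (fun w => extChartAt I b (f ((extChartAt I a).symm w))) v‖ ≤ Λ * ‖u - v‖) := by
  set O : Set (E d) := I.symm ⁻¹' ((chartAt H a).target ∩
    (chartAt H a).symm ⁻¹' (f ⁻¹' (extChartAt I b).source)) with hOdef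
  have hO : IsOpen O := ((chartAt H a).isOpen_inter_preimage_symm
    ((isOpen_extChartAt_source b).preimage hf.continuous)).preimage I.continuous_symm
  have hW : range I ∩ O = (extChartAt I a).target ∩
      (extChartAt I a).symm ⁻¹' (f ⁻¹' (extChartAt I b).source) := by
    rw [extChartAt_target, extChartAt_coe_symm, hOdef]
    ext u
    simp only [mem_inter_iff, mem_preimage, Function.comp]
    tauto
  have hZ : IsCompact (extChartAt I a '' (Ka ∩ f ⁻¹' Kb)) :=
    (hKa.inter_right (hKb.isClosed.preimage hf.continuous)).image_of_continuousOn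
      ((continuousOn_extChartAt a).mono (inter_subset_left.trans ha))
  have hZO : extChartAt I a '' (Ka ∩ f ⁻¹' Kb) ⊆ O := by
    rintro _ ⟨x, hx, rfl⟩
    refine (inter_subset_right : range I ∩ O ⊆ O) ?_
    rw [hW]
    refine ⟨(extChartAt I a).map_source (ha hx.1), ?_⟩
    rw [mem_preimage, (extChartAt I a).left_inv (ha hx.1)]
    exact hb hx.2
  have hF := (contMDiff_iff.1 hf).2 a b
  rw [← hW] at hF
  obtain ⟨r, hr, Λ, hΛ, h⟩ :=
    flat_bounds I.convex_range I.isClosed_range I.uniqueDiffOn hO hZ hZO hF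
  refine ⟨r, hr, Λ, hΛ, fun x hx hx' => ?_⟩
  obtain ⟨h1, h2, h3, h4⟩ := h _ ⟨x, ⟨hx, hx'⟩, rfl⟩
  exact ⟨fun u hu => (hW.le ⟨hu.2, h1 hu.1⟩ : u ∈ _ ∩ _), h2, h3, h4⟩

end Crest.Agent.R133
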