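import Crest.Agent.R133.Defs
import Crest.Agent.R133.Man1

/-!
# Row 133: finite atlas data for `exists_PS`
-/

set_option autoImplicit false

namespace Crest.Agent.R133

open MeasureTheory Set Topology
open scoped ENNReal Manifold ContDiff

namespace Man2

theorem exists_uniform {ι : Type*} (t : Finset ι) (P : ι → ℝ → ℝ → Prop)
    (hmono : ∀ i r r' L L', 0 < r' → r' ≤ r → 1 ≤ L → L ≤ L' → P i r L → P i r' L')
    (hex : ∀ i ∈ t, ∃ r L, 0 < r ∧ 1 ≤ L ∧ P i r L) :
    ∃ r L, 0 < r ∧ 1 ≤ L ∧ ∀ i ∈ t, P i r L := by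
  classical
  induction t using Finset.induction_on with
  | empty => exact ⟨1, 1, one_pos, le_rfl, by simp⟩
  | insert a t ha ih =>
    obtain ⟨r, L, hr, hL, h⟩ := ih (fun i hi => hex i (Finset.mem_insert_of_mem hi))
    obtain ⟨r', L', hr', hL', h'⟩ := hex a (Finset.mem_insert_self _ _)
    refine ⟨min r r', max L L', lt_min hr hr', le_max_of_le_left hL, ?_⟩
    intro i hi
    rcases Finset.mem_insert.1 hi with rfl | hi
    · exact hmono _ _ _ _ _ (lt_min hr hr') (min_le_right _ _) hL' (le_max_right _ _) h'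
    · exact hmono _ _ _ _ _ (lt_min hr hr') (min_le_left _ _) hL (le_max_left _ _) (h i hi)

theorem meas_comp_idx {α β : Type*} [MeasurableSpace α] [MeasurableSpace β] {g : α → ℕ}
    (hg : Measurable g) {f : ℕ → α → β} (hf : ∀ n, Measurable (f n)) :
    Measurable fun x => f (g x) x :=
  have : Measurable fun p : α × ℕ => f p.2 p.1 := measurable_from_prod_countable_left fun n => hf n
  this.comp (Measurable.prodMk measurable_id hg)

variable {d : ℕ} {H : Type*} [TopologicalSpace H] (I : ModelWithCorners ℝ (E d) H)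
  {M : Type*} [TopologicalSpace M] [ChartedSpace H M]

/-- closed chart ball -/
def cb (c : M) (s : ℝ) : Set (E d) := Metric.closedBall (extChartAt I c c) s ∩ range I

/-- its preimage in the manifold -/
def kb (c : M) (s : ℝ) : Set M := (extChartAt I c).source ∩ extChartAt I c ⁻¹' cb I c s

theorem cb_closed (c : M) (s : ℝ) : IsClosed (cb I c s) :=
  Metric.isClosed_closedBall.inter I.isClosed_range

theorem cb_compact (c : M) (s : ℝ) : IsCompact (cb I c s) :=
  (isCompact_closedBall _ _).inter_right I.isClosed_range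

theorem cb_convex (c : M) (s : ℝ) : Convex ℝ (cb I c s) :=
  (convex_closedBall _ _).inter I.convex_range

theorem cb_mono (c : M) {s s' : ℝ} (h : s ≤ s') : cb I c s ⊆ cb I c s' :=
  inter_subset_inter_left _ (Metric.closedBall_subset_closedBall h)

theorem kb_mono (c : M) {s s' : ℝ} (h : s ≤ s') : kb I c s ⊆ kb I c s' :=
  inter_subset_inter_right _ (preimage_mono (cb_mono I c h))

theorem cb_interior (c : M) {s : ℝ} (hs : 0 < s) : (interior (cb I c s)).Nonempty := by
  have h1 : extChartAt I c c ∈ closure (interior (range I)) :=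
    I.range_subset_closure_interior (extChartAt_target_subset_range c (mem_extChartAt_target c))
  obtain ⟨y, hy1, hy2⟩ := mem_closure_iff.1 h1 _ Metric.isOpen_ball (Metric.mem_ball_self hs)
  refine ⟨y, ?_⟩
  unfold cb
  rw [interior_inter]
  exact ⟨interior_maximal Metric.ball_subset_closedBall Metric.isOpen_ball hy1, hy2⟩

theorem kb_compact (c : M) (s : ℝ) (h : cb I c s ⊆ (extChartAt I c).target) :
    IsCompact (kb I c s) := by
  unfold kb
  rw [← PartialEquiv.symm_image_eq_source_inter_preimage _ h]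
  exact (cb_compact I c s).image_of_continuousOn ((continuousOn_extChartAt_symm c).mono h)

theorem kb_nhds (c : M) {s : ℝ} (hs : 0 < s) : kb I c s ∈ 𝓝 c := by
  refine Filter.inter_mem (extChartAt_source_mem_nhds c) ?_
  have : cb I c s ∈ Filter.map (extChartAt I c) (𝓝 c) := by
    rw [map_extChartAt_nhds]
    exact Filter.inter_mem (mem_nhdsWithin_of_mem_nhds (Metric.closedBall_mem_nhds _ hs))
      self_mem_nhdsWithin
  exact this

theorem exists_radius (c : M) : ∃ s, 0 < s ∧ cb I c (2 * s) ⊆ (extChartAt I c).target := by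
  obtain ⟨ε, hε, h⟩ := Metric.mem_nhdsWithin_iff.1 (extChartAt_target_mem_nhdsWithin (I := I) c)
  refine ⟨ε / 4, by positivity, ?_⟩
  refine Subset.trans ?_ h
  exact inter_subset_inter_left _ (Metric.closedBall_subset_ball (by linarith))

/-- the conclusion of `local_bounds` -/
def LB (f : M → M) (a b : M) (Ka Kb : Set M) (r₀ Λ : ℝ) : Prop :=
  ∀ x ∈ Ka, f x ∈ Kb →
      (∀ u ∈ Metric.closedBall (extChartAt I a x) r₀ ∩ range I,
        u ∈ (extChartAt I a).target ∧ f ((extChartAt I a).symm u) ∈ (extChartAt I b).source) ∧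
      (∀ u ∈ Metric.closedBall (extChartAt I a x) r₀ ∩ range I,
        ∀ v ∈ Metric.closedBall (extChartAt I a x) r₀ ∩ range I,
        ‖extChartAt I b (f ((extChartAt I a).symm u)) - extChartAt I b (f ((extChartAt I a).symm v))‖
          ≤ Λ * ‖u - v‖) ∧
      (∀ u ∈ Metric.closedBall (extChartAt I a x) r₀ ∩ interior (range I),
        DifferentiableAt ℝ (fun w => extChartAt I b (f ((extChartAt I a).symm w))) u ∧
        ‖fderiv ℝ (fun w => extChartAt I b (f ((extChartAt I a).symm w))) u‖ ≤ Λ) ∧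
      (∀ u ∈ Metric.closedBall (extChartAt I a x) r₀ ∩ interior (range I),
        ∀ v ∈ Metric.closedBall (extChartAt I a x) r₀ ∩ interior (range I),
        ‖fderiv ℝ (fun w => extChartAt I b (f ((extChartAt I a).symm w))) u -
          fderiv ℝ (fun w => extChartAt I b (f ((extChartAt I a).symm w))) v‖ ≤ Λ * ‖u - v‖)

theorem LB_mono {f : M → M} {a b : M} {Ka Kb : Set M} {r r' L L' : ℝ} (hr : r' ≤ r) (hL : L ≤ L')
    (h : LB I f a b Ka Kb r L) : LB I f a b Ka Kb r' L' := by
  intro x hx hfx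
  obtain ⟨h1, h2, h3, h4⟩ := h x hx hfx
  have hs : ∀ s : Set (E d), Metric.closedBall (extChartAt I a x) r' ∩ s ⊆
      Metric.closedBall (extChartAt I a x) r ∩ s := fun s =>
    inter_subset_inter_left _ (Metric.closedBall_subset_closedBall hr)
  refine ⟨fun u hu => h1 u (hs _ hu), fun u hu v hv => (h2 u (hs _ hu) v (hs _ hv)).trans ?_,
    fun u hu => ⟨(h3 u (hs _ hu)).1, (h3 u (hs _ hu)).2.trans hL⟩,
    fun u hu v hv => (h4 u (hs _ hu) v (hs _ hv)).trans ?_⟩
  · exact mul_le_mul_of_nonneg_right hL (norm_nonneg _)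
  · exact mul_le_mul_of_nonneg_right hL (norm_nonneg _)

theorem exists_LB [T2Space M] [IsManifold I ∞ M] (f : M → M) (hf : ContMDiff I I ∞ f) (a b : M)
    (sa sb : ℝ) (ha : cb I a sa ⊆ (extChartAt I a).target)
    (hb : cb I b sb ⊆ (extChartAt I b).target) :
    ∃ r L, 0 < r ∧ 1 ≤ L ∧ LB I f a b (kb I a sa) (kb I b sb) r L := by
  obtain ⟨r, hr, L, hL, h⟩ := local_bounds I f hf a b (kb I a sa) (kb I b sb)
    (kb_compact I a sa ha) (kb_compact I b sb hb) inter_subset_left inter_subset_left
  exact ⟨r, L, hr, hL, h⟩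

open Crest.AnalysisR in
theorem density_bounds [MeasurableSpace M] [BorelSpace M] (ν : Measure M)
    (hν : HasSmoothPositiveDensity I ν) (c : M) (s : ℝ)
    (hs : cb I c s ⊆ (extChartAt I c).target) :
    ∃ L : ℝ, 1 ≤ L ∧
      (∀ B, MeasurableSet B → ν (kb I c s ∩ extChartAt I c ⁻¹' B) ≤ ENNReal.ofReal L * volume B) ∧
      (∀ B, MeasurableSet B → B ⊆ cb I c s →
        volume B ≤ ENNReal.ofReal L * ν ((extChartAt I c).source ∩ extChartAt I c ⁻¹' B)) := by
  obtain ⟨f, hf, hpos, heq⟩ := hν (chartAt H c) (chart_mem_atlas H c)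
  have htar : I '' (chartAt H c).target = (extChartAt I c).target := by
    rw [extChartAt_target, I.image_eq]
  rw [htar] at hf hpos heq
  rw [← extChartAt_coe, ← extChartAt_source I] at heq
  have hsrc : MeasurableSet (extChartAt I c).source := (isOpen_extChartAt_source c).measurableSet
  have hae : AEMeasurable (extChartAt I c) (ν.restrict (extChartAt I c).source) :=
    (continuousOn_extChartAt c).aemeasurable hsrc
  have key : ∀ B, MeasurableSet B → B ⊆ cb I c s →
      ν ((extChartAt I c).source ∩ extChartAt I c ⁻¹' B) = ∫⁻ y in B, ENNReal.ofReal (f y) := by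
    intro B hB hBs
    have h1 := congrArg (fun m : Measure (E d) => m B) heq
    rw [Measure.map_apply_of_aemeasurable hae hB, Measure.restrict_apply' hsrc,
      withDensity_apply _ hB, Measure.restrict_restrict hB,
      inter_eq_self_of_subset_left (hBs.trans hs), inter_comm] at h1
    exact h1
  have hc : ContinuousOn f (cb I c s) := hf.continuousOn.mono hs
  have hc' : ContinuousOn (fun y => (f y)⁻¹) (cb I c s) :=
    hc.inv₀ (fun y hy => (hpos y (hs hy)).ne')
  obtain ⟨L1, hL1⟩ := (cb_compact I c s).bddAbove_image hc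
  obtain ⟨L2, hL2⟩ := (cb_compact I c s).bddAbove_image hc'
  refine ⟨max 1 (max L1 L2), le_max_left _ _, ?_, ?_⟩
  · intro B hB
    have e1 : kb I c s ∩ extChartAt I c ⁻¹' B =
        (extChartAt I c).source ∩ extChartAt I c ⁻¹' (cb I c s ∩ B) := by
      unfold kb; rw [preimage_inter, inter_assoc]
    have hm : MeasurableSet (cb I c s ∩ B) := (cb_closed I c s).measurableSet.inter hB
    rw [e1, key _ hm inter_subset_left]
    calc ∫⁻ y in cb I c s ∩ B, ENNReal.ofReal (f y)
        ≤ ∫⁻ y in cb I c s ∩ B, ENNReal.ofReal (max 1 (max L1 L2)) := by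
          refine setLIntegral_mono' hm fun y hy => ENNReal.ofReal_le_ofReal ?_
          exact (hL1 (mem_image_of_mem _ hy.1)).trans
            ((le_max_left _ _).trans (le_max_right _ _))
      _ = ENNReal.ofReal (max 1 (max L1 L2)) * volume (cb I c s ∩ B) := by
          rw [setLIntegral_const]
      _ ≤ _ := by gcongr; exact inter_subset_right
  · intro B hB hBs
    rw [key _ hB hBs, ← lintegral_const_mul' _ _ ENNReal.ofReal_ne_top]
    calc volume B = ∫⁻ y in B, 1 := by rw [setLIntegral_const, one_mul]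
      _ ≤ _ := by
          refine setLIntegral_mono' hB fun y hy => ?_
          have hp := hpos y (hs (hBs hy))
          have h2 : (f y)⁻¹ ≤ max 1 (max L1 L2) :=
            (hL2 (mem_image_of_mem _ (hBs hy))).trans ((le_max_right _ _).trans (le_max_right _ _))
          rw [← ENNReal.ofReal_mul (by positivity), ← ENNReal.ofReal_one]
          refine ENNReal.ofReal_le_ofReal ?_
          calc (1 : ℝ) = (f y)⁻¹ * f y := by field_simp
            _ ≤ _ := mul_le_mul_of_nonneg_right h2 hp.le

/-- Finite atlas with uniform constants. -/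
structure Atl [MeasurableSpace M] (ν : Measure M) (f g : M → M) where
  k : ℕ
  c : ℕ → M
  s : ℕ → ℝ
  r : ℝ
  L : ℝ
  r_pos : 0 < r
  one_le : 1 ≤ L
  s_pos : ∀ i, 0 < s i
  sub : ∀ i, cb I (c i) (2 * s i) ⊆ (extChartAt I (c i)).target
  cover : ∀ x, ∃ i, i < k ∧ x ∈ kb I (c i) (s i)
  lb_id : ∀ i, i < k → ∀ j, j < k → LB I id (c i) (c j) (kb I (c i) (s i)) (kb I (c j) (s j)) r L
  lb_f : ∀ i, i < k → ∀ j, j < k → LB I f (c i) (c j) (kb I (c i) (s i)) (kb I (c j) (s j)) r L
  lb_g : ∀ i, i < k → ∀ j, j < k → LB I g (c i) (c j) (kb I (c i) (s i)) (kb I (c j) (s j)) r L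
  up : ∀ i, i < k → ∀ B, MeasurableSet B →
    ν (kb I (c i) (2 * s i) ∩ extChartAt I (c i) ⁻¹' B) ≤ ENNReal.ofReal L * volume B
  low : ∀ i, i < k → ∀ B, MeasurableSet B → B ⊆ cb I (c i) (2 * s i) →
    volume B ≤ ENNReal.ofReal L * ν ((extChartAt I (c i)).source ∩ extChartAt I (c i) ⁻¹' B)
  shell : ∀ i, i < k → ∀ t, 0 < t → t ≤ r →
    volume (Metric.cthickening t (frontier (cb I (c i) (s i)))) ≤ ENNReal.ofReal (L * t)
  r_le : ∀ i, i < k → r ≤ s i
  bdd : ∀ i, i < k → ‖extChartAt I (c i) (c i)‖ + s i ≤ L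

open Crest.AnalysisR in
theorem exists_Atl [T2Space M] [CompactSpace M] [IsManifold I ∞ M] [Nonempty M]
    [MeasurableSpace M] [BorelSpace M] (ν : Measure M) (hν : HasSmoothPositiveDensity I ν)
    (f g : M → M) (hf : ContMDiff I I ∞ f) (hg : ContMDiff I I ∞ g) :
    Nonempty (Atl I ν f g) := by
  classical
  choose σ hσ hσs using fun c : M => exists_radius I c
  obtain ⟨t, ht⟩ := CompactSpace.elim_nhds_subcover (fun c => kb I c (σ c))
    (fun c => kb_nhds I c (hσ c))
  obtain ⟨x₀⟩ := ‹Nonempty M›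
  set l := t.toList with hl
  set c : ℕ → M := fun i => l.getD i x₀ with hc
  set s : ℕ → ℝ := fun i => σ (c i) with hs
  have hsub1 : ∀ i, cb I (c i) (s i) ⊆ (extChartAt I (c i)).target := fun i =>
    (cb_mono I _ (by have := hσ (c i); simp only [hs]; linarith)).trans (hσs (c i))
  have hcov : ∀ x, ∃ i, i < l.length ∧ x ∈ kb I (c i) (s i) := by
    intro x
    have hx : x ∈ ⋃ y ∈ t, kb I y (σ y) := by rw [ht]; trivial
    obtain ⟨y, hy, hxy⟩ := mem_iUnion₂.1 hx
    obtain ⟨i, hi, rfl⟩ := List.getElem_of_mem (Finset.mem_toList.2 hy)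
    refine ⟨i, hi, ?_⟩
    have : c i = t.toList[i] := by
      simp only [hc, hl]
      exact List.getD_eq_getElem _ _ hi
    simp only [hs]
    rw [this]
    exact hxy
  obtain ⟨r1, L1, hr1, hL1, h1⟩ := exists_uniform
    (Finset.range l.length ×ˢ Finset.range l.length)
    (fun p r L => LB I id (c p.1) (c p.2) (kb I (c p.1) (s p.1)) (kb I (c p.2) (s p.2)) r L ∧
      LB I f (c p.1) (c p.2) (kb I (c p.1) (s p.1)) (kb I (c p.2) (s p.2)) r L ∧
      LB I g (c p.1) (c p.2) (kb I (c p.1) (s p.1)) (kb I (c p.2) (s p.2)) r L)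
    (fun p r r' L L' _ hr _ hL h =>
      ⟨LB_mono I hr hL h.1, LB_mono I hr hL h.2.1, LB_mono I hr hL h.2.2⟩)
    (by
      intro p _
      obtain ⟨a1, b1, ha1, hb1, h1⟩ := exists_LB I id contMDiff_id (c p.1) (c p.2) _ _
        (hsub1 p.1) (hsub1 p.2)
      obtain ⟨a2, b2, ha2, hb2, h2⟩ := exists_LB I f hf (c p.1) (c p.2) _ _
        (hsub1 p.1) (hsub1 p.2)
      obtain ⟨a3, b3, ha3, hb3, h3⟩ := exists_LB I g hg (c p.1) (c p.2) _ _
        (hsub1 p.1) (hsub1 p.2)
      refine ⟨min a1 (min a2 a3), max b1 (max b2 b3), lt_min ha1 (lt_min ha2 ha3),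
        le_max_of_le_left hb1, LB_mono I (min_le_left _ _) (le_max_left _ _) h1,
        LB_mono I ((min_le_right _ _).trans (min_le_left _ _))
          ((le_max_left _ _).trans (le_max_right _ _)) h2,
        LB_mono I ((min_le_right _ _).trans (min_le_right _ _))
          ((le_max_right _ _).trans (le_max_right _ _)) h3⟩)
  obtain ⟨r2, L2, hr2, hL2, h2⟩ := exists_uniform (Finset.range l.length)
    (fun i r L =>
      (∀ B, MeasurableSet B →
        ν (kb I (c i) (2 * s i) ∩ extChartAt I (c i) ⁻¹' B) ≤ ENNReal.ofReal L * volume B) ∧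
      (∀ B, MeasurableSet B → B ⊆ cb I (c i) (2 * s i) →
        volume B ≤ ENNReal.ofReal L *
          ν ((extChartAt I (c i)).source ∩ extChartAt I (c i) ⁻¹' B)) ∧
      (∀ t, 0 < t → t ≤ r →
        volume (Metric.cthickening t (frontier (cb I (c i) (s i)))) ≤ ENNReal.ofReal (L * t)) ∧
      r ≤ s i ∧ ‖extChartAt I (c i) (c i)‖ + s i ≤ L)
    (by
      rintro i r r' L L' _ hr _ hL ⟨a1, a2, a3, a4, a5⟩
      refine ⟨fun B hB => (a1 B hB).trans ?_, fun B hB hB' => (a2 B hB hB').trans ?_,
        fun t ht htr => (a3 t ht (htr.trans hr)).trans ?_, hr.trans a4, a5.trans hL⟩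
      · gcongr
      · gcongr
      · exact ENNReal.ofReal_le_ofReal (mul_le_mul_of_nonneg_right hL ht.le))
    (by
      intro i _
      obtain ⟨L, hL, a1, a2⟩ := density_bounds I ν hν (c i) (2 * s i) (hσs (c i))
      obtain ⟨κ, t₀, hκ, ht₀, a3⟩ := shell_volume (cb I (c i) (s i)) (cb_convex I _ _)
        (cb_compact I _ _) (cb_interior I _ (hσ (c i)))
      refine ⟨min t₀ (s i), max L (max κ (‖extChartAt I (c i) (c i)‖ + s i)),
        lt_min ht₀ (hσ (c i)), le_max_of_le_left hL, fun B hB => (a1 B hB).trans ?_,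
        fun B hB hB' => (a2 B hB hB').trans ?_,
        fun t ht htr => (a3 t ht (htr.trans (min_le_left _ _))).trans ?_, min_le_right _ _,
        (le_max_right _ _).trans (le_max_right _ _)⟩
      · gcongr; exact le_max_left _ _
      · gcongr; exact le_max_left _ _
      · exact ENNReal.ofReal_le_ofReal (mul_le_mul_of_nonneg_right
          ((le_max_left _ _).trans (le_max_right _ _)) ht.le))
  have hmem : ∀ i, i < l.length → ∀ j, j < l.length →
      (i, j) ∈ Finset.range l.length ×ˢ Finset.range l.length := fun i hi j hj =>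
    Finset.mem_product.2 ⟨Finset.mem_range.2 hi, Finset.mem_range.2 hj⟩
  refine ⟨{
    k := l.length, c := c, s := s, r := min r1 r2, L := max L1 L2
    r_pos := lt_min hr1 hr2
    one_le := le_max_of_le_left hL1
    s_pos := fun i => hσ (c i)
    sub := fun i => hσs (c i)
    cover := hcov
    lb_id := fun i hi j hj => LB_mono I (min_le_left _ _) (le_max_left _ _) (h1 _ (hmem i hi j hj)).1
    lb_f := fun i hi j hj =>
      LB_mono I (min_le_left _ _) (le_max_left _ _) (h1 _ (hmem i hi j hj)).2.1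
    lb_g := fun i hi j hj =>
      LB_mono I (min_le_left _ _) (le_max_left _ _) (h1 _ (hmem i hi j hj)).2.2
    up := fun i hi B hB => ((h2 i (Finset.mem_range.2 hi)).1 B hB).trans ?_
    low := fun i hi B hB hB' => ((h2 i (Finset.mem_range.2 hi)).2.1 B hB hB').trans ?_
    shell := fun i hi t ht htr =>
      ((h2 i (Finset.mem_range.2 hi)).2.2.1 t ht (htr.trans (min_le_right _ _))).trans ?_
    r_le := fun i hi => (min_le_right _ _).trans (h2 i (Finset.mem_range.2 hi)).2.2.2.1
    bdd := fun i hi => (h2 i (Finset.mem_range.2 hi)).2.2.2.2.trans (le_max_right _ _) }⟩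
  · gcongr; exact le_max_right _ _
  · gcongr; exact le_max_right _ _
  · exact ENNReal.ofReal_le_ofReal (mul_le_mul_of_nonneg_right (le_max_right _ _) ht.le)

end Man2

end Crest.Agent.R133
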