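import Crest.Agent.R133.Defs
import Crest.Agent.R133.Key
set_option autoImplicit false

namespace Crest.Agent.R133

open MeasureTheory Set
open scoped ENNReal 

/-- Abstract double counting. `π U = ∫_U a(p)⁻¹ ν (N_p) = ∫_{Bad} ∫_{U ∩ N^z} a(p)⁻¹ dπ dν ≤ c ν Bad`,
`a p = ν (N_p)` (measurable: `measurable_measure_prodMk_left`). -/
theorem tonelli_bound {P M : Type*} [MeasurableSpace P] [MeasurableSpace M] (π : Measure P) (ν : Measure M)
    [IsFiniteMeasure π] [IsFiniteMeasure ν] (N : Set (P × M)) (hN : MeasurableSet N)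
    (U : Set P) (hU : MeasurableSet U) (Bad : Set M) (hBad : MeasurableSet Bad) (c : ℝ≥0∞)
    (h1 : ∀ p ∈ U, ∀ z, (p, z) ∈ N → z ∈ Bad) (h2 : ∀ p ∈ U, 0 < ν {z | (p, z) ∈ N})
    (h3 : ∀ z, ∀ p₀ ∈ U, (p₀, z) ∈ N → π {p | p ∈ U ∧ (p, z) ∈ N} ≤ c * ν {z' | (p₀, z') ∈ N}) :
    π U ≤ c * ν Bad := by
  classical
  let a : P → ℝ≥0∞ := fun p => ν (Prod.mk p ⁻¹' N)
  have ha : Measurable a := measurable_measure_prodMk_left hN
  have hW : MeasurableSet (Prod.fst ⁻¹' U ∩ N) := (measurable_fst hU).inter hN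
  let F : P → M → ℝ≥0∞ := fun p z => (Prod.fst ⁻¹' U ∩ N).indicator (fun q => (a q.1)⁻¹) (p, z)
  have hF : Measurable (Function.uncurry F) := (ha.comp measurable_fst).inv.indicator hW
  have hc : ∀ p ∈ U, (a p)⁻¹ * a p = 1 := fun p hp =>
    ENNReal.inv_mul_cancel (h2 p hp).ne' (measure_ne_top _ _)
  have e1 : π U = ∫⁻ p, ∫⁻ z, F p z ∂ν ∂π := by
    rw [← lintegral_indicator_one hU]
    refine lintegral_congr fun p => ?_
    by_cases hp : p ∈ U
    · have : F p = (Prod.mk p ⁻¹' N).indicator fun _ => (a p)⁻¹ := by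
        funext z
        simp [F, Set.indicator_apply, hp]
      rw [this, lintegral_indicator_const (measurable_prodMk_left hN), indicator_of_mem hp,
        Pi.one_apply, hc p hp]
    · simp [F, hp]
  rw [e1, lintegral_lintegral_swap hF.aemeasurable, ← lintegral_indicator_const hBad]
  refine lintegral_mono fun z => ?_
  have hS : MeasurableSet {p | p ∈ U ∧ (p, z) ∈ N} := measurable_prodMk_right hW
  by_cases hz : z ∈ Bad
  · rw [indicator_of_mem hz]
    have e2 : ∫⁻ p, F p z ∂π = ∫⁻ p in {p | p ∈ U ∧ (p, z) ∈ N}, (a p)⁻¹ ∂π := by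
      rw [← lintegral_indicator hS]
      exact lintegral_congr fun p => by simp [F, Set.indicator_apply]
    rw [e2]
    by_cases h0 : π {p | p ∈ U ∧ (p, z) ∈ N} = 0
    · rw [setLIntegral_measure_zero _ _ h0]
      exact zero_le
    calc _ ≤ ∫⁻ _ in {p | p ∈ U ∧ (p, z) ∈ N}, c / π {p | p ∈ U ∧ (p, z) ∈ N} ∂π := by
          refine setLIntegral_mono' hS fun p hp => ?_
          rw [ENNReal.le_div_iff_mul_le (Or.inl h0) (Or.inl (measure_ne_top _ _))]
          calc _ ≤ (a p)⁻¹ * (c * a p) := mul_le_mul_right (h3 z p hp.1 hp.2) _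
            _ = c := by rw [mul_left_comm, hc p hp.1, mul_one]
      _ ≤ c := by
          rw [setLIntegral_const, mul_comm]
          exact ENNReal.mul_div_le
  · have : ∀ p, F p z = 0 := fun p => indicator_of_notMem (fun h => hz (h1 p h.1 z h.2)) _
    simp [this]

theorem pair_vol {d : ℕ} (a : E d) (B : Set (E d)) : volume ((· - a) ⁻¹' B) = volume B := by
  simp only [sub_eq_add_neg, measure_preimage_add_right]

theorem pair_int {M : Type*} [MeasurableSpace M] {ν : Measure M} [IsProbabilityMeasure ν] {S : M → M}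
    {d : ℕ} (ps : PS ν S d) (hS : MeasurePreserving S ν ν) (n i j : ℕ) (a : E d) (ρ' : ℝ)
    (Tb : Set (E d × E d)) (hTb : MeasurableSet Tb) (K : ℝ≥0∞) (hK : ∀ q ∈ Tb, ‖q.2‖ ≤ ρ')
    (hK' : ∀ w, ‖w‖ ≤ ρ' → volume {v | (v, w) ∈ Tb} ≤ K) :
    (ν.prod ν) {p | ps.idx p.1 = j ∧ ps.idx (S^[n] p.2) = i ∧
      (ps.φ p.1 - a, ps.φ (S^[n] p.2) - ps.φ (S^[n] p.1)) ∈ Tb} ≤
      ENNReal.ofReal ps.Λ * (ENNReal.ofReal ps.Λ * K * volume (Metric.closedBall (0 : E d) ρ')) := by
  have hn := (hS.iterate n).measurable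
  have hφ := ps.meas_φ
  have hi := ps.meas_idx
  have hW : MeasurableSet {p : M × M | ps.idx p.1 = j ∧ ps.idx (S^[n] p.2) = i ∧
      (ps.φ p.1 - a, ps.φ (S^[n] p.2) - ps.φ (S^[n] p.1)) ∈ Tb} :=
    (measurableSet_eq_fun (by fun_prop) measurable_const).inter
      ((measurableSet_eq_fun (by fun_prop) measurable_const).inter
        (hTb.preimage (f := fun p : M × M =>
          (ps.φ p.1 - a, ps.φ (S^[n] p.2) - ps.φ (S^[n] p.1))) (by fun_prop)))
  have hV : MeasurableSet {p : M × E d | ps.idx p.1 = j ∧ (ps.φ p.1 - a, p.2) ∈ Tb} :=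
    (measurableSet_eq_fun (by fun_prop) measurable_const).inter
      (hTb.preimage (f := fun p : M × E d => (ps.φ p.1 - a, p.2)) (by fun_prop))
  have h₂ : (ν.prod volume) {p : M × E d | ps.idx p.1 = j ∧ (ps.φ p.1 - a, p.2) ∈ Tb} ≤
      ENNReal.ofReal ps.Λ * K * volume (Metric.closedBall (0 : E d) ρ') := by
    rw [Measure.prod_apply_symm hV, ← lintegral_indicator_const measurableSet_closedBall]
    refine lintegral_mono fun w => ?_
    by_cases hw : ‖w‖ ≤ ρ'
    · rw [indicator_of_mem (mem_closedBall_zero_iff.2 hw)]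
      have hB : MeasurableSet {v | (v, w) ∈ Tb} := measurable_prodMk_right hTb
      refine (ps.upper j ((· - a) ⁻¹' {v | (v, w) ∈ Tb}) (hB.preimage (by fun_prop))).trans ?_
      rw [pair_vol]
      exact mul_le_mul_right (hK' w hw) _
    · have : (fun x => (x, w)) ⁻¹' {p : M × E d | ps.idx p.1 = j ∧ (ps.φ p.1 - a, p.2) ∈ Tb} = ∅ :=
        eq_empty_of_forall_notMem fun x hx => hw (hK (ps.φ x - a, w) hx.2)
      simp only [this, measure_empty, zero_le]
  refine le_trans ?_ (mul_le_mul_right h₂ _)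
  rw [Measure.prod_apply hW, Measure.prod_apply hV,
    ← lintegral_const_mul _ (measurable_measure_prodMk_left hV)]
  refine lintegral_mono fun x => ?_
  by_cases hx : ps.idx x = j
  · have hB : MeasurableSet ((· - ps.φ (S^[n] x)) ⁻¹' {w | (ps.φ x - a, w) ∈ Tb}) :=
      (measurable_prodMk_left hTb).preimage (by fun_prop)
    have h := ps.upper i _ hB
    rw [pair_vol] at h
    have h' := ((hS.iterate n).measure_preimage
      ((hi (measurableSet_singleton i)).inter (hφ hB)).nullMeasurableSet).trans_le h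
    refine le_trans (measure_mono fun y hy => ?_) (h'.trans (mul_le_mul_right (measure_mono ?_) _))
    · exact hy.2
    · exact fun w hw => ⟨hx, hw⟩
  · simp [hx]

/-- The maps seen along a pseudo-orbit `o`, with a kick `w` at time `n`. -/
noncomputable def pairH {M : Type*} [MeasurableSpace M] {ν : Measure M} {S : M → M} {d : ℕ}
    (ps : PS ν S d) (o : ℕ → M) (n : ℕ) (w : E d) (m : ℕ) (v : E d) : E d :=
  ps.φ (S (ps.ψ (ps.idx (o m)) (ps.φ (o m) + v))) + (if m + 1 = n then w else 0) - ps.φ (o (m + 1))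

theorem pair_orb_meas {M : Type*} [MeasurableSpace M] {ν : Measure M} {S : M → M} {d : ℕ}
    (ps : PS ν S d) (hS : Measurable S) (o : ℕ → M) (n m : ℕ) :
    Measurable fun q : E d × E d => orb (pairH ps o n q.2) q.1 m := by
  induction m with
  | zero => exact measurable_fst
  | succ m ih =>
    have hφ := ps.meas_φ
    have hψ := ps.meas_ψ (ps.idx (o m))
    simp only [orb, pairH]
    split_ifs <;> fun_prop

/-- Pairs all of whose shadows are bad are rare. Use `tonelli_bound` with `N = {((x,y),z) | Shadow ps n ρ x y z}`.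
For `p₀ = (x₀, y₀) ∈ U` let `o m = S^[m] (if m < n then x₀ else y₀)` and, for `‖w‖ ≤ ρ'`,
`h w m v = φ (S (ψ (idx (o m)) (φ (o m) + v))) + (if m + 1 = n then w else 0) - φ (o (m+1))`; it is `Approx` to the hybrid
cocycle with `η = 2 Λ ρ`, `ε₀ = 2 ρ'` on the `2ρ`-ball (`deriv`). Lower bound: `v ∈ tube (h 0) (2n) ρ` gives the shadow
`z = ψ (idx x₀) (φ x₀ + v)` (induction with `loc`, `left_inv`), so `vol tube ≤ Λ ν (N_{p₀})` (`lower`). Upper bound: if
`(x, y) ∈ U` and `z` shadows both pairs, put `i = idx (S^[n] y₀)`, `w = φ (S^[n] y) - φ (S^[n] x)`; then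
`φ x - φ x₀ ∈ tube (h w) (2n) (2ρ)`. Integrate: for fixed `x` the condition on `y` is a condition on `S^[n] y`
(invariance, `upper`, translation invariance of volume), swap `x` and `w` (Tonelli), `upper` again, `tube_ratio`. -/
theorem pair_bound {M : Type*} [MeasurableSpace M] {ν : Measure M} [IsProbabilityMeasure ν] {S : M → M}
    {d : ℕ} (ps : PS ν S d) (hS : MeasurePreserving S ν ν) (n : ℕ) (hn : 1 ≤ n) (ρ ρ' R : ℝ)
    (hρ : 0 < ρ) (hρ' : 0 < ρ') (hr : 2 * ρ ≤ ps.r₀)
    (hs : 4 * (R * (2 * ps.Λ * ρ)) * (d * ((2 * n : ℕ) + 1) + 1) ≤ 1) (hs' : 8 * (R * (2 * ρ')) ≤ ρ)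
    (U : Set (M × M)) (hU : MeasurableSet U) (Bad : Set M) (hBad : MeasurableSet Bad)
    (hreg : ∀ p ∈ U, ∀ m, m ≤ 2 * n → S^[m] p.1 ∈ ps.reg (2 * ρ) ∧ S^[m] p.2 ∈ ps.reg (2 * ρ))
    (hcell : ∀ p ∈ U, ps.idx (S^[n] p.1) = ps.idx (S^[n] p.2) ∧
      ‖ps.φ (S^[n] p.1) - ps.φ (S^[n] p.2)‖ ≤ ρ')
    (hG : ∀ p ∈ U, Green (hyb n (fun m => ps.A (S^[m] p.1)) (fun m => ps.A (S^[m] p.2))) (2 * n) R)
    (hsh : ∀ p ∈ U, ∀ z, Shadow ps n ρ p.1 p.2 z → z ∈ Bad) :
    (ν.prod ν) U ≤ ENNReal.ofReal (ps.Λ ^ 3 * (4 * 8 ^ d) * ρ' ^ d) *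
      volume (Metric.closedBall (0 : E d) 1) * ν Bad := by
  have hΛ : 0 ≤ ps.Λ := zero_le_one.trans ps.one_le
  have hφ := ps.meas_φ
  have hi := ps.meas_idx
  have hit : ∀ m, Measurable S^[m] := fun m => (hS.iterate m).measurable
  have hN : MeasurableSet {q : (M × M) × M | Shadow ps n ρ q.1.1 q.1.2 q.2} := by
    refine Measurable.setOf (Measurable.forall fun m => Measurable.imp measurable_const ?_)
    have := hit m
    refine (measurableSet_setOfPred.1 (measurableSet_eq_fun (by fun_prop) ?_)).and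
      (measurableSet_setOfPred.1 (measurableSet_le ?_ measurable_const)) <;>
      split_ifs <;> fun_prop
  have key : ∀ p₀ ∈ U, 0 < ν {z | Shadow ps n ρ p₀.1 p₀.2 z} ∧ ∀ z, Shadow ps n ρ p₀.1 p₀.2 z →
      (ν.prod ν) {p | p ∈ U ∧ Shadow ps n ρ p.1 p.2 z} ≤
        ENNReal.ofReal (ps.Λ ^ 3 * (4 * 8 ^ d) * ρ' ^ d) * volume (Metric.closedBall (0 : E d) 1) *
          ν {z | Shadow ps n ρ p₀.1 p₀.2 z} := by
    rintro ⟨x₀, y₀⟩ hp₀
    let o : ℕ → M := fun m => S^[m] (if m < n then x₀ else y₀)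
    have ho : ∀ m, m ≤ 2 * n → o m ∈ ps.reg (2 * ρ) := fun m hm => by
      simp only [o]
      split_ifs
      exacts [(hreg _ hp₀ m hm).1, (hreg _ hp₀ m hm).2]
    have ho0 : o 0 = x₀ := by simp [o, show 0 < n from hn]
    have hstep : ∀ (x y : M) (m : ℕ), m + 1 ≠ n → S (S^[m] (if m < n then x else y)) =
        S^[m + 1] (if m + 1 < n then x else y) := fun x y m hm => by
      rw [Function.iterate_succ_apply']
      congr 2
      exact if_congr (by omega) rfl rfl
    have hstep' : ∀ (x y : M) (m : ℕ), m + 1 = n → S (S^[m] (if m < n then x else y)) = S^[n] x ∧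
        S^[m + 1] (if m + 1 < n then x else y) = S^[n] y := fun x y m hm => by
      rw [if_pos (by omega), if_neg (by omega), ← hm, Function.iterate_succ_apply']
      exact ⟨rfl, rfl⟩
    have hA : ∀ w : E d, ‖w‖ ≤ ρ' → ∀ r, r ≤ 2 * ρ →
        Approx (hyb n (fun m => ps.A (S^[m] x₀)) (fun m => ps.A (S^[m] y₀))) (pairH ps o n w)
          (2 * n) r (2 * ps.Λ * ρ) (2 * ρ') := by
      intro w hw r hr' m hm
      refine ⟨?_, fun v hv => ?_⟩
      · simp only [pairH, add_zero, ps.left_inv]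
        by_cases h : m + 1 = n
        · rw [if_pos h, (hstep' x₀ y₀ m h).1, show o (m + 1) = _ from (hstep' x₀ y₀ m h).2,
            add_sub_right_comm, two_mul]
          exact norm_add_le_of_le (hcell _ hp₀).2 hw
        · rw [if_neg h, hstep x₀ y₀ m h]
          simpa [o] using hρ'.le
      · obtain ⟨D, hD, hDA⟩ := ps.deriv (2 * ρ) (by positivity) hr _ (ho m hm.le)
          (ps.φ (o m) + v) (by simpa using hv.trans hr')
        refine ⟨D, ?_, ?_⟩
        · exact (((hasFDerivAt_comp_add_left _).2 hD).add_const _).sub_const _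
        · have : hyb n (fun m => ps.A (S^[m] x₀)) (fun m => ps.A (S^[m] y₀)) m = ps.A (o m) := by
            simp only [hyb, o]
            split_ifs <;> rfl
          rw [this]
          refine hDA.trans ?_
          rw [add_sub_cancel_left, mul_comm 2, mul_assoc]
          exact mul_le_mul_of_nonneg_left (hv.trans hr') hΛ
    have hT := fun (w : E d) (hw : ‖w‖ ≤ ρ') => tube_ratio _ (pairH ps o n 0) (pairH ps o n w)
      (2 * n) R ρ _ _ hρ (by positivity) (by positivity) (hG _ hp₀)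
      (hA 0 (by simpa using hρ'.le) ρ (by linarith)) (hA w hw _ le_rfl) hs hs'
    obtain ⟨hT₁, -, hT₂, -⟩ := hT 0 (by simpa using hρ'.le)
    have hlo : volume (tube (pairH ps o n 0) (2 * n) ρ) ≤
        ENNReal.ofReal ps.Λ * ν {z | Shadow ps n ρ x₀ y₀ z} := by
      rw [← pair_vol (ps.φ x₀)]
      refine (ps.lower (2 * ρ) (by positivity) hr x₀ (ho0 ▸ ho 0 (by omega)) _
        (hT₁.preimage (by fun_prop)) fun u hu => ?_).trans
        (mul_le_mul_right (measure_mono fun y hy => ?_) _)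
      · exact mem_closedBall_iff_norm.2 ((hu 0 (by omega)).trans (by linarith))
      · have : ∀ m, m ≤ 2 * n → ps.idx (S^[m] y) = ps.idx (o m) ∧
            ps.φ (S^[m] y) - ps.φ (o m) = orb (pairH ps o n 0) (ps.φ y - ps.φ x₀) m := by
          intro m
          induction m with
          | zero => intro _; rw [ho0]; exact ⟨hy.1, rfl⟩
          | succ m ih =>
            intro hm
            obtain ⟨h₁, h₂⟩ := ih (by omega)
            have h₃ := (ps.loc (2 * ρ) (by positivity) hr _ (ho m (by omega)) (ps.φ (S^[m] y))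
              (h₂ ▸ (hy.2 m (by omega)).trans (by linarith))).2.2
            rw [← h₁, ps.left_inv] at h₃
            rw [orb, ← h₂, pairH, add_sub_cancel, ← h₁, ps.left_inv, Function.iterate_succ_apply',
              ite_self, add_zero, h₃]
            refine ⟨?_, rfl⟩
            by_cases h : m + 1 = n
            · rw [(hstep' x₀ y₀ m h).1, show o (m + 1) = _ from (hstep' x₀ y₀ m h).2]
              exact (hcell _ hp₀).1
            · rw [hstep x₀ y₀ m h]
        exact fun m hm => ⟨(this m hm).1, (this m hm).2 ▸ hy.2 m hm⟩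
    refine ⟨pos_iff_ne_zero.2 fun h => by simp [h, hT₂.ne'] at hlo, fun z hz => ?_⟩
    let Tb : Set (E d × E d) := {q | ‖q.2‖ ≤ ρ' ∧ q.1 ∈ tube (pairH ps o n q.2) (2 * n) (2 * ρ)}
    have hTb : MeasurableSet Tb := by
      refine ((measurableSet_setOfPred.1 (measurableSet_le measurable_snd.norm measurable_const)).and
        (Measurable.forall fun m => Measurable.imp measurable_const ?_)).setOf
      exact measurableSet_setOfPred.1
        (measurableSet_le (pair_orb_meas ps hS.measurable o n m).norm measurable_const)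
    refine le_trans (measure_mono ?_) ((pair_int ps hS n (ps.idx (S^[n] y₀)) (ps.idx x₀) (ps.φ x₀) ρ'
      Tb hTb (4 * 8 ^ d * (ENNReal.ofReal ps.Λ * ν {z | Shadow ps n ρ x₀ y₀ z})) (fun q hq => hq.1)
      fun w hw => ?_).trans (le_of_eq ?_))
    · rintro ⟨x, y⟩ ⟨hp, hxy⟩
      have hidx : ∀ m, m ≤ 2 * n → ps.idx (S^[m] (if m < n then x else y)) = ps.idx (o m) :=
        fun m hm => (hxy m hm).1.symm.trans (hz m hm).1
      have : ∀ m, m ≤ 2 * n → orb (pairH ps o n (ps.φ (S^[n] y) - ps.φ (S^[n] x)))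
          (ps.φ x - ps.φ x₀) m = ps.φ (S^[m] (if m < n then x else y)) - ps.φ (o m) := by
        intro m
        induction m with
        | zero => intro _; rw [ho0, if_pos (by omega)]; rfl
        | succ m ih =>
          intro hm
          rw [orb, ih (by omega), pairH, add_sub_cancel, ← hidx m (by omega), ps.left_inv]
          by_cases h : m + 1 = n
          · rw [if_pos h, (hstep' x y m h).1, (hstep' x y m h).2, add_sub_cancel]
          · rw [if_neg h, hstep x y m h, add_zero]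
      refine ⟨?_, ?_, norm_sub_rev (ps.φ (S^[n] x)) _ ▸ (hcell _ hp).2, fun m hm => ?_⟩
      · simpa [ho0, show 0 < n from hn] using hidx 0 (by omega)
      · simpa [o] using hidx n (by omega)
      · rw [this m hm, two_mul]
        exact (norm_sub_le_norm_sub_add_norm_sub _ (ps.φ (S^[m] z)) _).trans
          (add_le_add (norm_sub_rev (ps.φ (S^[m] z)) _ ▸ (hxy m hm).2) (hz m hm).2)
    · exact (measure_mono fun v hv => hv.2).trans
        ((hT w hw).2.2.2.trans (mul_le_mul_right hlo _))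
    · rw [Measure.addHaar_closedBall' _ _ hρ'.le, finrank_euclideanSpace_fin,
        ENNReal.ofReal_mul (by positivity), ENNReal.ofReal_mul (by positivity),
        ENNReal.ofReal_mul (by positivity), ENNReal.ofReal_pow hΛ, ENNReal.ofReal_pow (p := 8) (by norm_num),
        ENNReal.ofReal_ofNat, ENNReal.ofReal_ofNat]
      ring
  exact tonelli_bound _ ν _ hN U hU Bad hBad _ (fun p hp z hz => hsh p hp z hz)
    (fun p hp => (key p hp).1) fun z p hp hz => (key p hp).2 z hz

end Crest.Agent.R133
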